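import Mathlib

/-! Conditional expectations on finite sets and a spectral lemma. -/

namespace Vale.Agent.P335

open Finset

variable {α β γ : Type*}

open Classical in
/-- The class of `x` in `J` for the key `k`. -/
noncomputable def cls (J : Finset α) (k : α → β) (x : α) : Finset α :=
  J.filter fun y => k y = k x

/-- Average of `f` over `J`. -/
noncomputable def avg (J : Finset α) (f : α → ℝ) : ℝ := (∑ y ∈ J, f y) / J.card

/-- Conditional expectation given the key `k`. -/
noncomputable def cE (J : Finset α) (k : α → β) (f : α → ℝ) (x : α) : ℝ := avg (cls J k x) f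

/-- Inner product over `J`. -/
def ip (J : Finset α) (f g : α → ℝ) : ℝ := ∑ x ∈ J, f x * g x

/-- The complementary projection. -/
noncomputable def cH (J : Finset α) (k : α → β) (f : α → ℝ) (x : α) : ℝ := f x - cE J k f x

theorem mem_cls {J : Finset α} {k : α → β} {x y : α} : y ∈ cls J k x ↔ y ∈ J ∧ k y = k x := by
  unfold cls; simp

theorem self_mem_cls {J : Finset α} {k : α → β} {x : α} (hx : x ∈ J) : x ∈ cls J k x :=
  mem_cls.2 ⟨hx, rfl⟩

theorem cls_eq {J : Finset α} {k : α → β} {x y : α} (h : k x = k y) : cls J k x = cls J k y := by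
  ext z; simp [mem_cls, h]

theorem cls_subset {J : Finset α} {k : α → β} {x : α} : cls J k x ⊆ J :=
  fun _ h => (mem_cls.1 h).1

theorem card_cls_pos {J : Finset α} {k : α → β} {x : α} (hx : x ∈ J) : 0 < (cls J k x).card :=
  card_pos.2 ⟨x, self_mem_cls hx⟩

theorem avg_congr {J : Finset α} {f g : α → ℝ} (h : ∀ x ∈ J, f x = g x) : avg J f = avg J g := by
  unfold avg; rw [sum_congr rfl h]

theorem avg_const {J : Finset α} (hJ : J.Nonempty) (c : ℝ) : avg J (fun _ => c) = c := by
  unfold avg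
  have : (J.card : ℝ) ≠ 0 := by exact_mod_cast hJ.card_pos.ne'
  rw [sum_const, nsmul_eq_mul]; field_simp

theorem avg_add (J : Finset α) (f g : α → ℝ) :
    avg J (fun x => f x + g x) = avg J f + avg J g := by
  unfold avg; rw [sum_add_distrib, add_div]

theorem avg_sub (J : Finset α) (f g : α → ℝ) :
    avg J (fun x => f x - g x) = avg J f - avg J g := by
  unfold avg; rw [sum_sub_distrib, sub_div]

theorem avg_mul (J : Finset α) (c : ℝ) (f : α → ℝ) :
    avg J (fun x => c * f x) = c * avg J f := by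
  unfold avg; rw [← mul_sum, mul_div_assoc]

theorem avg_sum (J : Finset α) (I : Finset γ) (f : γ → α → ℝ) :
    avg J (fun x => ∑ i ∈ I, f i x) = ∑ i ∈ I, avg J (f i) := by
  unfold avg; rw [sum_comm, sum_div]

theorem card_mul_avg (J : Finset α) (f : α → ℝ) : (J.card : ℝ) * avg J f = ∑ y ∈ J, f y := by
  unfold avg
  rcases J.eq_empty_or_nonempty with rfl | hJ
  · simp
  · have : (J.card : ℝ) ≠ 0 := by exact_mod_cast hJ.card_pos.ne'
    field_simp

theorem sum_sub_avg (J : Finset α) (f : α → ℝ) : ∑ y ∈ J, (f y - avg J f) = 0 := by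
  rw [sum_sub_distrib, sum_const, nsmul_eq_mul, card_mul_avg, sub_self]

theorem abs_avg_le {J : Finset α} {f : α → ℝ} {m : ℝ} (hm : 0 ≤ m) (h : ∀ x ∈ J, |f x| ≤ m) :
    |avg J f| ≤ m := by
  rcases J.eq_empty_or_nonempty with rfl | hJ
  · simpa [avg] using hm
  · have hc : (0 : ℝ) < J.card := by exact_mod_cast hJ.card_pos
    unfold avg
    rw [abs_div, abs_of_pos hc, div_le_iff₀ hc]
    calc |∑ y ∈ J, f y| ≤ ∑ y ∈ J, |f y| := abs_sum_le_sum_abs _ _
      _ ≤ ∑ _y ∈ J, m := sum_le_sum h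
      _ = m * J.card := by rw [sum_const, nsmul_eq_mul, mul_comm]

/-- Averages are transported along a bijection. -/
theorem avg_bij {J : Finset α} {J' : Finset γ} (e : α → γ) (he : Set.BijOn e J J')
    (f : γ → ℝ) : avg J (fun x => f (e x)) = avg J' f := by
  unfold avg
  have h1 : ∑ y ∈ J, f (e y) = ∑ y ∈ J', f y :=
    sum_nbij e (fun x hx => he.mapsTo hx) he.injOn he.surjOn (fun _ _ => rfl)
  have h2 : J.card = J'.card := card_nbij e (fun x hx => he.mapsTo hx) he.injOn he.surjOn
  rw [h1, h2]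

theorem cE_congr {J : Finset α} {k : α → β} {f g : α → ℝ} (h : ∀ x ∈ J, f x = g x) (x : α) :
    cE J k f x = cE J k g x :=
  avg_congr fun y hy => h y (cls_subset hy)

theorem cE_key {J : Finset α} {k : α → β} (f : α → ℝ) {x y : α} (h : k x = k y) :
    cE J k f x = cE J k f y := by
  unfold cE; rw [cls_eq h]

theorem cE_of_inv {J : Finset α} {k : α → β} {f : α → ℝ} {x : α} (hx : x ∈ J)
    (h : ∀ y ∈ J, k y = k x → f y = f x) : cE J k f x = f x := by
  unfold cE
  rw [avg_congr (g := fun _ => f x) fun y hy => h y (mem_cls.1 hy).1 (mem_cls.1 hy).2]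
  exact avg_const ⟨x, self_mem_cls hx⟩ _

theorem cE_cE {J : Finset α} {k : α → β} (f : α → ℝ) {x : α} (hx : x ∈ J) :
    cE J k (cE J k f) x = cE J k f x :=
  cE_of_inv hx fun _ _ h => cE_key f h

theorem cE_add (J : Finset α) (k : α → β) (f g : α → ℝ) (x : α) :
    cE J k (fun y => f y + g y) x = cE J k f x + cE J k g x := avg_add _ _ _

theorem cE_sub (J : Finset α) (k : α → β) (f g : α → ℝ) (x : α) :
    cE J k (fun y => f y - g y) x = cE J k f x - cE J k g x := avg_sub _ _ _

theorem cE_mul (J : Finset α) (k : α → β) (c : ℝ) (f : α → ℝ) (x : α) :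
    cE J k (fun y => c * f y) x = c * cE J k f x := avg_mul _ _ _

theorem cE_sum (J : Finset α) (k : α → β) (I : Finset γ) (f : γ → α → ℝ) (x : α) :
    cE J k (fun y => ∑ i ∈ I, f i y) x = ∑ i ∈ I, cE J k (f i) x := avg_sum _ _ _

theorem abs_cE_le {J : Finset α} {k : α → β} {f : α → ℝ} {x : α} {m : ℝ} (hm : 0 ≤ m)
    (h : ∀ y ∈ J, k y = k x → |f y| ≤ m) : |cE J k f x| ≤ m :=
  abs_avg_le hm fun y hy => h y (mem_cls.1 hy).1 (mem_cls.1 hy).2

theorem ip_comm (J : Finset α) (f g : α → ℝ) : ip J f g = ip J g f :=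
  sum_congr rfl fun _ _ => mul_comm _ _

theorem ip_congr {J : Finset α} {f f' g g' : α → ℝ} (hf : ∀ x ∈ J, f x = f' x)
    (hg : ∀ x ∈ J, g x = g' x) : ip J f g = ip J f' g' :=
  sum_congr rfl fun x hx => by rw [hf x hx, hg x hx]

theorem ip_self_nonneg (J : Finset α) (f : α → ℝ) : 0 ≤ ip J f f :=
  sum_nonneg fun _ _ => mul_self_nonneg _

theorem ip_add_left (J : Finset α) (f g h : α → ℝ) :
    ip J (fun x => f x + g x) h = ip J f h + ip J g h := by
  unfold ip; rw [← sum_add_distrib]; exact sum_congr rfl fun _ _ => add_mul _ _ _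

theorem ip_add_right (J : Finset α) (f g h : α → ℝ) :
    ip J h (fun x => f x + g x) = ip J h f + ip J h g := by
  unfold ip; rw [← sum_add_distrib]; exact sum_congr rfl fun _ _ => mul_add _ _ _

theorem ip_sub_left (J : Finset α) (f g h : α → ℝ) :
    ip J (fun x => f x - g x) h = ip J f h - ip J g h := by
  unfold ip; rw [← sum_sub_distrib]; exact sum_congr rfl fun _ _ => sub_mul _ _ _

theorem ip_sub_right (J : Finset α) (f g h : α → ℝ) :
    ip J h (fun x => f x - g x) = ip J h f - ip J h g := by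
  unfold ip; rw [← sum_sub_distrib]; exact sum_congr rfl fun _ _ => mul_sub _ _ _

theorem ip_mul_left (J : Finset α) (c : ℝ) (f h : α → ℝ) :
    ip J (fun x => c * f x) h = c * ip J f h := by
  unfold ip; rw [mul_sum]; exact sum_congr rfl fun _ _ => mul_assoc _ _ _

theorem ip_mul_right (J : Finset α) (c : ℝ) (f h : α → ℝ) :
    ip J h (fun x => c * f x) = c * ip J h f := by
  rw [ip_comm, ip_mul_left, ip_comm]

theorem ip_sum_left (J : Finset α) (I : Finset γ) (f : γ → α → ℝ) (h : α → ℝ) :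
    ip J (fun x => ∑ i ∈ I, f i x) h = ∑ i ∈ I, ip J (f i) h := by
  unfold ip; rw [sum_comm]; exact sum_congr rfl fun _ _ => sum_mul _ _ _

theorem ip_sum_right (J : Finset α) (I : Finset γ) (f : γ → α → ℝ) (h : α → ℝ) :
    ip J h (fun x => ∑ i ∈ I, f i x) = ∑ i ∈ I, ip J h (f i) := by
  rw [ip_comm, ip_sum_left]; exact sum_congr rfl fun _ _ => ip_comm _ _ _

theorem ip_cE_symm (J : Finset α) (k : α → β) (f g : α → ℝ) :
    ip J (cE J k f) g = ip J f (cE J k g) := by
  classical
  have key : ∀ f g : α → ℝ, ip J (cE J k f) g =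
      ∑ x ∈ J, ∑ y ∈ J, if k y = k x then f y * g x / (cls J k x).card else 0 := by
    intro f g
    refine sum_congr rfl fun x _ => ?_
    unfold cE avg
    rw [div_mul_eq_mul_div, sum_mul, sum_div, ← sum_filter]
    refine sum_congr ?_ fun _ _ => rfl
    ext y; simp [mem_cls]
  rw [ip_comm J f, key, key, sum_comm]
  refine sum_congr rfl fun x _ => sum_congr rfl fun y _ => ?_
  by_cases h : k x = k y
  · rw [if_pos h, if_pos h.symm, cls_eq h, mul_comm]
  · rw [if_neg h, if_neg (Ne.symm h)]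

theorem ip_cE_cE (J : Finset α) (k : α → β) (f g : α → ℝ) :
    ip J (cE J k f) (cE J k g) = ip J f (cE J k g) := by
  rw [ip_cE_symm]; exact ip_congr (fun _ _ => rfl) fun _ hx => cE_cE g hx

theorem cE_cH {J : Finset α} {k : α → β} (f : α → ℝ) {x : α} (hx : x ∈ J) :
    cE J k (cH J k f) x = 0 := by
  unfold cH; rw [cE_sub, cE_cE f hx, sub_self]

theorem ip_cH_symm (J : Finset α) (k : α → β) (f g : α → ℝ) :
    ip J (cH J k f) g = ip J f (cH J k g) := by
  unfold cH; rw [ip_sub_left, ip_sub_right, ip_cE_symm]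

theorem ip_cH_cH (J : Finset α) (k : α → β) (f g : α → ℝ) :
    ip J (cH J k f) (cH J k g) = ip J f (cH J k g) := by
  rw [ip_cH_symm]
  refine ip_congr (fun _ _ => rfl) fun x hx => ?_
  show cH J k g x - cE J k (cH J k g) x = _
  rw [cE_cH g hx, sub_zero]

theorem cH_congr {J : Finset α} {k : α → β} {f g : α → ℝ} (h : ∀ x ∈ J, f x = g x) {x : α}
    (hx : x ∈ J) : cH J k f x = cH J k g x := by
  unfold cH; rw [h x hx, cE_congr h]

/-- Two keys with the same kernel on `J` give the same conditional expectation. -/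
theorem cE_key_congr {β' : Type*} {J : Finset α} {k : α → β} {k' : α → β'} {x : α}
    (h : ∀ y ∈ J, k y = k x ↔ k' y = k' x) (f : α → ℝ) : cE J k f x = cE J k' f x := by
  unfold cE; congr 1; ext y; rw [mem_cls, mem_cls]
  exact ⟨fun hy => ⟨hy.1, (h y hy.1).1 hy.2⟩, fun hy => ⟨hy.1, (h y hy.1).2 hy.2⟩⟩

/-- Restriction to a class of a coarser key. -/
theorem cls_restrict {J : Finset α} {k : α → β} {K : α → γ}
    (h : ∀ x ∈ J, ∀ y ∈ J, k x = k y → K x = K y) {x0 x : α} (hx : x ∈ cls J K x0) :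
    cls (cls J K x0) k x = cls J k x := by
  ext y; rw [mem_cls, mem_cls, mem_cls]
  obtain ⟨hx1, hx2⟩ := mem_cls.1 hx
  exact ⟨fun hy => ⟨hy.1.1, hy.2⟩, fun hy => ⟨⟨hy.1, (h y hy.1 x hx1 hy.2).trans hx2⟩, hy.2⟩⟩

theorem cE_restrict {J : Finset α} {k : α → β} {K : α → γ}
    (h : ∀ x ∈ J, ∀ y ∈ J, k x = k y → K x = K y) (f : α → ℝ) {x0 x : α} (hx : x ∈ cls J K x0) :
    cE (cls J K x0) k f x = cE J k f x := by
  unfold cE; rw [cls_restrict h hx]

/-- An inequality between sums holds on `J` if it holds on every class. -/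
theorem sum_le_of_cls {J : Finset α} (K : α → γ) {φ ψ : α → ℝ}
    (h : ∀ x0 ∈ J, ∑ x ∈ cls J K x0, φ x ≤ ∑ x ∈ cls J K x0, ψ x) :
    ∑ x ∈ J, φ x ≤ ∑ x ∈ J, ψ x := by
  classical
  rw [← sum_fiberwise_of_maps_to (s := J) (t := J.image K) (g := K)
      (fun x hx => mem_image_of_mem K hx),
    ← sum_fiberwise_of_maps_to (s := J) (t := J.image K) (g := K)
      (fun x hx => mem_image_of_mem K hx)]
  refine sum_le_sum fun c hc => ?_
  obtain ⟨x0, hx0, rfl⟩ := mem_image.1 hc
  have : J.filter (fun x => K x = K x0) = cls J K x0 := by ext y; simp [mem_cls]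
  rw [this]; exact h x0 hx0

/-- Transport of conditional expectations along a bijection respecting the keys. -/
theorem cE_bij {β' : Type*} {J : Finset α} {J' : Finset γ} (e : α → γ) (he : Set.BijOn e J J')
    {k : α → β} {k' : γ → β'} (hk : ∀ x ∈ J, ∀ y ∈ J, k x = k y ↔ k' (e x) = k' (e y))
    (f : γ → ℝ) {x : α} (hx : x ∈ J) : cE J k (fun y => f (e y)) x = cE J' k' f (e x) := by
  unfold cE
  refine avg_bij e ⟨fun y hy => ?_, fun y hy z hz h => ?_, fun z hz => ?_⟩ f
  · have hy := mem_cls.1 (mem_coe.1 hy)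
    exact mem_coe.2 (mem_cls.2 ⟨he.mapsTo hy.1, (hk y hy.1 x hx).1 hy.2⟩)
  · exact he.injOn (cls_subset hy) (cls_subset hz) h
  · have hz := mem_cls.1 (mem_coe.1 hz)
    obtain ⟨y, hy, rfl⟩ := he.surjOn hz.1
    exact ⟨y, mem_coe.2 (mem_cls.2 ⟨hy, (hk y hy x hx).2 hz.2⟩), rfl⟩

/-- Commutation criterion: if for `k1`-equivalent points the `k2`-classes are matched by a
bijection moving points within `k1`-classes, then the projections commute. -/
theorem cE_comm {β' : Type*} {J : Finset α} {k1 : α → β} {k2 : α → β'}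
    (h : ∀ x ∈ J, ∀ x' ∈ J, k1 x = k1 x' → ∃ e : α → α,
      Set.BijOn e (cls J k2 x) (cls J k2 x') ∧ ∀ y ∈ cls J k2 x, k1 (e y) = k1 y)
    (f g : α → ℝ) : ip J (cE J k1 f) (cE J k2 g) = ip J (cE J k2 f) (cE J k1 g) := by
  have inv : ∀ f : α → ℝ, ∀ x ∈ J, cE J k1 (cE J k2 (cE J k1 f)) x = cE J k2 (cE J k1 f) x := by
    intro f x hx
    refine cE_of_inv hx fun y hy hxy => ?_
    obtain ⟨e, he, hk⟩ := h y hy x hx hxy
    unfold cE
    rw [← avg_bij e he]
    exact avg_congr fun z hz => (cE_key f (hk z hz)).symm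
  calc ip J (cE J k1 f) (cE J k2 g) = ip J (cE J k2 (cE J k1 f)) g := by rw [ip_cE_symm J k2]
    _ = ip J (cE J k1 (cE J k2 (cE J k1 f))) g :=
        ip_congr (fun x hx => (inv f x hx).symm) fun _ _ => rfl
    _ = ip J f (cE J k1 (cE J k2 (cE J k1 g))) := by
        rw [ip_cE_symm, ip_cE_symm, ip_cE_symm]
    _ = ip J f (cE J k2 (cE J k1 g)) := ip_congr (fun _ _ => rfl) fun x hx => inv g x hx
    _ = ip J (cE J k2 f) (cE J k1 g) := by rw [ip_cE_symm J k2]

/-- Spectral lemma: a quadratic inequality holds for a symmetric operator as soon as it holds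
for its eigenvalues. -/
theorem spectral_quad (J : Finset α) (T : (α → ℝ) → (α → ℝ))
    (hadd : ∀ f g x, x ∈ J → T (fun y => f y + g y) x = T f x + T g x)
    (hmul : ∀ (c : ℝ) f x, x ∈ J → T (fun y => c * f y) x = c * T f x)
    (hloc : ∀ f g, (∀ x ∈ J, f x = g x) → ∀ x ∈ J, T f x = T g x)
    (hsym : ∀ f g, ip J (T f) g = ip J f (T g)) (a b c : ℝ)
    (heig : ∀ (μ : ℝ) (v : α → ℝ), (∃ x ∈ J, v x ≠ 0) → (∀ x ∈ J, T v x = μ * v x) →
      0 ≤ a * μ ^ 2 + b * μ + c) (f : α → ℝ) :
    0 ≤ a * ip J (T f) (T f) + b * ip J f (T f) + c * ip J f f := by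
  classical
  let ext : EuclideanSpace ℝ J → α → ℝ := fun v x => if h : x ∈ J then v ⟨x, h⟩ else 0
  let res : (α → ℝ) → EuclideanSpace ℝ J := fun g => WithLp.toLp 2 fun x => g x
  have hres : ∀ g x, x ∈ J → ext (res g) x = g x := by
    intro g x hx; simp [ext, res, hx]
  have hinner : ∀ g h : α → ℝ, inner ℝ (res g) (res h) = ip J g h := by
    intro g h
    simp only [res, PiLp.inner_apply, ip]
    rw [← sum_coe_sort J]
    refine sum_congr rfl fun x _ => ?_
    simp [mul_comm]
  have hre : ∀ v, res (ext v) = v := by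
    intro v; ext x; simp [ext, res]
  let L : EuclideanSpace ℝ J →ₗ[ℝ] EuclideanSpace ℝ J :=
    { toFun := fun v => res (T (ext v))
      map_add' := by
        intro v w; ext x
        have : T (ext (v + w)) x = T (fun y => ext v y + ext w y) x :=
          hloc _ _ (fun y hy => by simp [ext, hy]) x x.2
        simp only [res, PiLp.add_apply]
        rw [this, hadd _ _ _ x.2]
      map_smul' := by
        intro c v; ext x
        have : T (ext (c • v)) x = T (fun y => c * ext v y) x :=
          hloc _ _ (fun y hy => by simp [ext, hy]) x x.2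
        simp only [res, PiLp.smul_apply, RingHom.id_apply, smul_eq_mul]
        rw [this, hmul _ _ _ x.2] }
  have hL : L.IsSymmetric := by
    intro v w
    show inner ℝ (res (T (ext v))) w = inner ℝ v (res (T (ext w)))
    conv_lhs => rw [← hre w]
    conv_rhs => rw [← hre v]
    rw [hinner, hinner, hsym]
  have hLf : L (res f) = res (T f) := by
    ext x
    exact hloc _ _ (fun y hy => hres f y hy) x x.2
  have hdim : Module.finrank ℝ (EuclideanSpace ℝ J) = Fintype.card J := by simp
  set B := hL.eigenvectorBasis hdim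
  set ev := hL.eigenvalues hdim
  have hB : ∀ i, L (B i) = ev i • B i := fun i => hL.apply_eigenvectorBasis hdim i
  have hev : ∀ i, 0 ≤ a * ev i ^ 2 + b * ev i + c := by
    intro i
    refine heig (ev i) (ext (B i)) ?_ ?_
    · by_contra hcon
      push Not at hcon
      apply B.orthonormal.ne_zero i
      ext x
      have := hcon x x.2
      simpa [ext] using this
    · intro x hx
      have := congrArg (fun v : EuclideanSpace ℝ J => v ⟨x, hx⟩) (hB i)
      simpa [L, res, ext, hx] using this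
  have hcoef : ∀ i, inner ℝ (B i) (L (res f)) = ev i * inner ℝ (B i) (res f) := by
    intro i; rw [← hL, hB, inner_smul_left]; simp
  rw [← hinner, ← hinner, ← hinner, ← hLf, ← B.sum_inner_mul_inner (L (res f)) (L (res f)),
    ← B.sum_inner_mul_inner (res f) (L (res f)), ← B.sum_inner_mul_inner (res f) (res f),
    mul_sum, mul_sum, mul_sum, ← sum_add_distrib, ← sum_add_distrib]
  refine sum_nonneg fun i _ => ?_
  rw [real_inner_comm (B i) (L (res f)), real_inner_comm (B i) (res f), hcoef]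
  have := mul_nonneg (hev i) (sq_nonneg (inner ℝ (B i) (res f)))
  nlinarith [this]

end Vale.Agent.P335
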