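import Vale.Agent.P335.Graph

/-! Any two graphs with the same degrees are joined by switches. -/

namespace Vale.Agent.P335

open Finset

variable {V : Type*} [Fintype V] [DecidableEq V]

open Classical in
/-- Ordered pairs on which two graphs differ. -/
noncomputable def dif (G H : SimpleGraph V) : Finset (V × V) :=
  univ.filter fun p => ¬ (G.Adj p.1 p.2 ↔ H.Adj p.1 p.2)

omit [DecidableEq V] in
theorem mem_dif {G H : SimpleGraph V} {p : V × V} :
    p ∈ dif G H ↔ ¬ (G.Adj p.1 p.2 ↔ H.Adj p.1 p.2) := by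
  unfold dif; simp

omit [DecidableEq V] in
theorem dif_comm (G H : SimpleGraph V) : dif G H = dif H G := by
  ext p; rw [mem_dif, mem_dif]; tauto

theorem prop_aux1 {a b c : Prop} (hc : c) (h : ¬ (¬ (a ↔ c) ↔ b)) : ¬ (a ↔ b) → False := by
  tauto

theorem prop_aux2 {a b c : Prop} (hc : ¬ c) (h : ¬ (¬ (a ↔ c) ↔ b)) : ¬ (a ↔ b) := by
  tauto

theorem dif_sw_lt {G H : SimpleGraph V} {i j k l : V} (hd : Dist4 i j k l) (hA : Alt G i j k l)
    (h1 : ¬ (G.Adj i k ↔ H.Adj i k)) (h2 : ¬ (G.Adj j k ↔ H.Adj j k))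
    (h3 : ¬ (G.Adj j l ↔ H.Adj j l)) : (dif (sw i j k l G) H).card < (dif G H).card := by
  obtain ⟨d1, d2, d3, d4, d5, d6⟩ := id hd
  have hsub : dif (sw i j k l G) H ⊆ (dif G H \ {(i, k), (j, k), (j, l)}) ∪ {(i, l), (l, i)} := by
    rintro ⟨u, v⟩ hp
    rw [mem_dif, sw_adj hA, cyc_adj hd] at hp
    simp only [mem_union, mem_sdiff, mem_dif, mem_insert, mem_singleton, Prod.mk.injEq]
    simp only at hp
    by_cases hc : ((u = i ∨ u = j) ∧ (v = k ∨ v = l)) ∨ ((v = i ∨ v = j) ∧ (u = k ∨ u = l))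
    · have hp' : ¬ (G.Adj u v ↔ H.Adj u v) → False := prop_aux1 hc hp
      have hp'' : ¬ (G.Adj v u ↔ H.Adj v u) → False := by
        rw [G.adj_comm, H.adj_comm]; exact hp'
      rcases hc with ⟨rfl | rfl, rfl | rfl⟩ | ⟨rfl | rfl, rfl | rfl⟩
      · exact (hp' h1).elim
      · right; left; exact ⟨rfl, rfl⟩
      · exact (hp' h2).elim
      · exact (hp' h3).elim
      · exact (hp'' h1).elim
      · right; right; exact ⟨rfl, rfl⟩
      · exact (hp'' h2).elim
      · exact (hp'' h3).elim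
    · left
      refine ⟨prop_aux2 hc hp, ?_⟩
      rintro (⟨rfl, rfl⟩ | ⟨rfl, rfl⟩ | ⟨rfl, rfl⟩) <;> exact hc (by simp)
  have hs3 : ({(i, k), (j, k), (j, l)} : Finset (V × V)) ⊆ dif G H := by
    intro p hp
    simp only [mem_insert, mem_singleton] at hp
    rcases hp with rfl | rfl | rfl <;> exact mem_dif.2 ‹_›
  have hc3 : ({(i, k), (j, k), (j, l)} : Finset (V × V)).card = 3 := by
    rw [card_eq_three]; exact ⟨_, _, _, by simp [d1], by simp [d1], by simp [d6], rfl⟩
  have h4 := card_le_card hsub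
  have h5 := card_union_le (dif G H \ {(i, k), (j, k), (j, l)}) {(i, l), (l, i)}
  have h6 := card_sdiff_of_subset hs3
  have h7 := card_le_card hs3
  have h8 : ({(i, l), (l, i)} : Finset (V × V)).card ≤ 2 := card_le_two
  omega

open Classical in
/-- Neighbours in `G` which are not neighbours in `H`. -/
noncomputable def red (G H : SimpleGraph V) (u : V) : Finset V :=
  univ.filter fun w => G.Adj u w ∧ ¬ H.Adj u w

omit [DecidableEq V] in
theorem mem_red {G H : SimpleGraph V} {u w : V} : w ∈ red G H u ↔ G.Adj u w ∧ ¬ H.Adj u w := by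
  unfold red; simp

theorem card_red {G H : SimpleGraph V} {u : V} (h : deg G u = deg H u) :
    (red G H u).card = (red H G u).card := by
  classical
  unfold deg at h
  have := card_sdiff_comm h
  convert this using 2 <;> ext w <;> simp [mem_red]

theorem reduce_or {d : V → ℕ} {f : SimpleGraph V → ℝ}
    (h : ∀ i j k l : V, Dist4 i j k l → ∀ G ∈ Om d, f (sw i j k l G) = f G)
    {G H : SimpleGraph V} (hG : G ∈ Om d) (hH : H ∈ Om d) {u0 u1 u2 : V}
    (h0 : u0 ∈ red G H u1) (h2 : u2 ∈ red H G u1) :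
    (∃ G' ∈ Om d, ∃ H' ∈ Om d, f G' = f G ∧ f H' = f H ∧ (dif G' H').card < (dif G H).card) ∨
      (red H G u0).card < (red H G u2).card := by
  rw [mem_red] at h0 h2
  by_cases hw : ∃ w ∈ red H G u0, w ≠ u2 ∧ w ∉ red H G u2
  · left
    obtain ⟨w, hw1, hw2, hw3⟩ := hw
    rw [mem_red] at hw1 hw3
    have hd : Dist4 w u1 u0 u2 := by
      refine ⟨?_, ?_, hw2, h0.1.ne, h2.1.ne, ?_⟩
      · rintro rfl; exact hw1.2 h0.1.symm
      · exact hw1.1.ne.symm
      · rintro rfl; exact h2.2 h0.1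
    have a1 : H.Adj w u0 := hw1.1.symm
    have a2 : ¬ G.Adj w u0 := fun h => hw1.2 h.symm
    by_cases hGw : G.Adj w u2
    · have hA : Alt G w u1 u0 u2 := by unfold Alt; tauto
      exact ⟨_, sw_mem hd hG, H, hH, h _ _ _ _ hd G hG, rfl,
        dif_sw_lt hd hA (by tauto) (by tauto) (by tauto)⟩
    · have hHw : ¬ H.Adj w u2 := fun h => hw3 ⟨h.symm, fun h' => hGw h'.symm⟩
      have hA : Alt H w u1 u0 u2 := by unfold Alt; tauto
      refine ⟨G, hG, _, sw_mem hd hH, rfl, h _ _ _ _ hd H hH, ?_⟩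
      rw [dif_comm G, dif_comm G]
      exact dif_sw_lt hd hA (by tauto) (by tauto) (by tauto)
  · right
    push Not at hw
    have hsub : (red H G u0).image (Equiv.swap u0 u2) ⊆ (red H G u2).erase u1 := by
      intro x hx
      obtain ⟨w, hw1, rfl⟩ := mem_image.1 hx
      have hw1' := mem_red.1 hw1
      by_cases hw2 : w = u2
      · subst hw2
        rw [Equiv.swap_apply_right, mem_erase, mem_red]
        exact ⟨h0.1.ne.symm, hw1'.1.symm, fun h => hw1'.2 h.symm⟩
      · rw [Equiv.swap_apply_of_ne_of_ne hw1'.1.ne.symm hw2, mem_erase]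
        refine ⟨?_, hw w hw1 hw2⟩
        rintro rfl; exact hw1'.2 h0.1.symm
    have h3 := card_le_card hsub
    rw [card_image_of_injective _ (Equiv.swap u0 u2).injective] at h3
    have h4 : u1 ∈ red H G u2 := mem_red.2 ⟨h2.1.symm, fun h => h2.2 h.symm⟩
    exact h3.trans_lt (card_erase_lt_of_mem h4)

theorem const_of_sw (d : V → ℕ) (f : SimpleGraph V → ℝ)
    (h : ∀ i j k l : V, Dist4 i j k l → ∀ G ∈ Om d, f (sw i j k l G) = f G) :
    ∀ G ∈ Om d, ∀ G' ∈ Om d, f G = f G' := by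
  intro G hG H hH
  induction hn : (dif G H).card using Nat.strong_induction_on generalizing G H with
  | _ n ih =>
    by_cases hGH : G = H
    · rw [hGH]
    have hdeg : ∀ u, (red G H u).card = (red H G u).card := fun u =>
      card_red ((mem_Om.1 hG u).trans (mem_Om.1 hH u).symm)
    obtain ⟨u1, hu1⟩ : ∃ u, (red G H u).Nonempty ∨ (red H G u).Nonempty := by
      by_contra hcon
      push Not at hcon
      apply hGH
      ext u v
      have h1 : v ∉ red G H u := by rw [(hcon u).1]; exact notMem_empty _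
      have h2 : v ∉ red H G u := by rw [(hcon u).2]; exact notMem_empty _
      rw [mem_red] at h1 h2
      tauto
    obtain ⟨⟨u0, h0⟩, ⟨u2, h2⟩⟩ : (red G H u1).Nonempty ∧ (red H G u1).Nonempty := by
      simp only [← card_pos] at hu1 ⊢
      have := hdeg u1
      omega
    rcases reduce_or h hG hH h0 h2 with ⟨G', hG', H', hH', e1, e2, hlt⟩ | hlt
    · rw [← e1, ← e2]; exact ih _ (hn ▸ hlt) G' hG' H' hH' rfl
    rcases reduce_or h hH hG h2 h0 with ⟨G', hG', H', hH', e1, e2, hlt'⟩ | hlt'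
    · rw [dif_comm H G] at hlt'
      rw [← e1, ← e2]; exact (ih _ (hn ▸ hlt') G' hG' H' hH' rfl).symm
    · have := hdeg u0; have := hdeg u2; omega

end Vale.Agent.P335
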