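import Vale.Agent.P335.JohnsonDefs

/-! Connectivity of the Johnson graph and an up-down coupling. -/

namespace Vale.Agent.P335

open Finset

variable {C : Type*} [DecidableEq C]

theorem tr_sdiff {S S' : Finset C} {k l : C} (hk : k ∈ S \ S') (hl : l ∈ S' \ S) :
    tr k l S \ S' = (S \ S').erase k := by
  rw [mem_sdiff] at hk hl
  ext x
  rw [mem_sdiff, mem_tr, mem_erase, mem_sdiff]
  by_cases h1 : x = k
  · subst h1; simp [hl.2]
  by_cases h2 : x = l
  · subst h2; simp [hl.1]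
  rw [Equiv.swap_apply_of_ne_of_ne h1 h2]; simp [h1]

theorem johnson_const (F : Finset C) (κ : ℕ) (g : Finset C → ℝ)
    (h : ∀ S ∈ powersetCard κ F, ∀ k ∈ F, ∀ l ∈ F, g (tr k l S) = g S) :
    ∀ S ∈ powersetCard κ F, ∀ S' ∈ powersetCard κ F, g S = g S' := by
  intro S hS S' hS'
  induction hn : (S \ S').card generalizing S with
  | zero =>
    rw [card_eq_zero, sdiff_eq_empty_iff_subset] at hn
    rw [eq_of_subset_of_card_le hn
      (by rw [(mem_powersetCard.1 hS).2, (mem_powersetCard.1 hS').2])]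
  | succ n ih =>
    obtain ⟨k, hk⟩ : (S \ S').Nonempty := card_pos.1 (by omega)
    have hc : (S' \ S).card = (S \ S').card :=
      card_sdiff_comm (by rw [(mem_powersetCard.1 hS).2, (mem_powersetCard.1 hS').2])
    obtain ⟨l, hl⟩ : (S' \ S).Nonempty := card_pos.1 (by omega)
    have hkF := (mem_powersetCard.1 hS).1 (mem_sdiff.1 hk).1
    have hlF := (mem_powersetCard.1 hS').1 (mem_sdiff.1 hl).1
    rw [← h S hS k hkF l hlF]
    refine ih _ (tr_mem_powersetCard hkF hlF hS) ?_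
    rw [tr_sdiff hk hl, card_erase_of_mem hk, hn]; rfl

theorem avg_bireg {α γ : Type*} (A : Finset α) (B : Finset γ) (ρ : α → γ → Prop)
    [∀ x y, Decidable (ρ x y)] (p q : ℕ) (hp : 0 < p) (hq : 0 < q)
    (hA : ∀ x ∈ A, (B.filter fun y => ρ x y).card = p)
    (hB : ∀ y ∈ B, (A.filter fun x => ρ x y).card = q) (hne : A.Nonempty)
    (g : α → ℝ) (g' : γ → ℝ) (L : ℝ) (h : ∀ x ∈ A, ∀ y ∈ B, ρ x y → |g x - g' y| ≤ L) :
    |avg A g - avg B g'| ≤ L := by
  have e1 : ∀ φ : α → ℝ, ∑ x ∈ A, ∑ y ∈ B, (if ρ x y then φ x else 0) = p * ∑ x ∈ A, φ x := by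
    intro φ
    rw [mul_sum]
    refine sum_congr rfl fun x hx => ?_
    rw [← sum_filter, sum_const, hA x hx, nsmul_eq_mul]
  have e2 : ∀ φ : γ → ℝ, ∑ x ∈ A, ∑ y ∈ B, (if ρ x y then φ y else 0) = q * ∑ y ∈ B, φ y := by
    intro φ
    rw [mul_sum, sum_comm]
    refine sum_congr rfl fun y hy => ?_
    rw [← sum_filter, sum_const, hB y hy, nsmul_eq_mul]
  have hR : (p : ℝ) * A.card = q * B.card := by
    have h1 := e1 fun _ => 1
    have h2 := e2 fun _ => 1
    simp only [sum_const, nsmul_eq_mul, mul_one] at h1 h2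
    rw [← h1, ← h2]
  have hp' : (0 : ℝ) < p := by exact_mod_cast hp
  have hq' : (0 : ℝ) < q := by exact_mod_cast hq
  have hA' : (0 : ℝ) < A.card := by exact_mod_cast hne.card_pos
  have hR' : (0 : ℝ) < p * A.card := mul_pos hp' hA'
  have key : (p * A.card) * (avg A g - avg B g') =
      ∑ x ∈ A, ∑ y ∈ B, (if ρ x y then g x - g' y else 0) := by
    rw [mul_sub, mul_assoc, card_mul_avg, hR, mul_assoc, card_mul_avg, ← e1, ← e2,
      ← sum_sub_distrib]
    refine sum_congr rfl fun x _ => ?_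
    rw [← sum_sub_distrib]
    refine sum_congr rfl fun y _ => ?_
    split_ifs <;> simp
  have bound : |∑ x ∈ A, ∑ y ∈ B, (if ρ x y then g x - g' y else 0)| ≤ (p * A.card) * L := by
    have h1 := e1 fun _ => L
    rw [sum_const, nsmul_eq_mul, ← mul_assoc] at h1
    rw [← h1]
    refine (abs_sum_le_sum_abs _ _).trans (sum_le_sum fun x hx => ?_)
    refine (abs_sum_le_sum_abs _ _).trans (sum_le_sum fun y hy => ?_)
    split_ifs with hρ
    · exact h x hx y hy hρ
    · simp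
  rw [← key, abs_mul, abs_of_pos hR'] at bound
  exact le_of_mul_le_mul_left bound hR'

theorem avg_nested_le (F : Finset C) (m m' : ℕ) (hm : m ≤ m') (hm' : m' ≤ F.card)
    (g g' : Finset C → ℝ) (L : ℝ)
    (h : ∀ S ∈ powersetCard m F, ∀ S' ∈ powersetCard m' F, S ⊆ S' → |g S - g' S'| ≤ L) :
    |avg (powersetCard m F) g - avg (powersetCard m' F) g'| ≤ L := by
  refine avg_bireg _ _ (fun S S' => S ⊆ S') ((F.card - m).choose (m' - m)) (m'.choose m)
    (Nat.choose_pos (by omega)) (Nat.choose_pos hm) (fun S hS => ?_) (fun S' hS' => ?_)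
    (powersetCard_nonempty.2 (hm.trans hm')) g g' L h
  · obtain ⟨h1, h2⟩ := mem_powersetCard.1 hS
    rw [card_filter_powersetCard_subset S F m' h1 (by omega), h2]
  · obtain ⟨h1, h2⟩ := mem_powersetCard.1 hS'
    rw [← h2, ← card_powersetCard]
    congr 1
    ext S
    simp only [mem_filter, mem_powersetCard]
    exact ⟨fun h => ⟨h.2, h.1.2⟩, fun h => ⟨⟨h.1.trans h1, h.2⟩, h.1⟩⟩

theorem avg_nested (F : Finset C) (m m' : ℕ) (hm : m ≤ F.card) (hm' : m' ≤ F.card)
    (g g' : Finset C → ℝ) (L : ℝ)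
    (h : ∀ S ∈ powersetCard m F, ∀ S' ∈ powersetCard m' F, (S ⊆ S' ∨ S' ⊆ S) →
      |g S - g' S'| ≤ L) :
    |avg (powersetCard m F) g - avg (powersetCard m' F) g'| ≤ L := by
  rcases le_total m m' with hle | hle
  · exact avg_nested_le F m m' hle hm' g g' L fun S hS S' hS' hs => h S hS S' hS' (Or.inl hs)
  · rw [abs_sub_comm]
    exact avg_nested_le F m' m hle hm g' g L fun S hS S' hS' hs => by
      rw [abs_sub_comm]; exact h S' hS' S hS (Or.inr hs)

theorem abs_avg_sub_le_of_cls {α β : Type*} {J : Finset α} (hJ : J.Nonempty) (K : α → β)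
    (g : α → ℝ) (a L : ℝ) (h : ∀ x ∈ J, |avg (cls J K x) g - a| ≤ L) : |avg J g - a| ≤ L := by
  have hc : (0 : ℝ) < J.card := by exact_mod_cast hJ.card_pos
  have h1 : ∑ x ∈ J, g x ≤ ∑ _x ∈ J, (a + L) := by
    refine sum_le_of_cls K fun x hx => ?_
    rw [← card_mul_avg, sum_const, nsmul_eq_mul]
    exact mul_le_mul_of_nonneg_left (by linarith [(abs_le.1 (h x hx)).2]) (Nat.cast_nonneg _)
  have h2 : ∑ _x ∈ J, (a - L) ≤ ∑ x ∈ J, g x := by
    refine sum_le_of_cls K fun x hx => ?_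
    rw [← card_mul_avg _ g, sum_const, nsmul_eq_mul]
    exact mul_le_mul_of_nonneg_left (by linarith [(abs_le.1 (h x hx)).1]) (Nat.cast_nonneg _)
  rw [← card_mul_avg, sum_const, nsmul_eq_mul] at h1
  rw [← card_mul_avg _ g, sum_const, nsmul_eq_mul] at h2
  have h3 := le_of_mul_le_mul_left h1 hc
  have h4 := le_of_mul_le_mul_left h2 hc
  rw [abs_le]; constructor <;> linarith

theorem johnson_couple (F : Finset C) (u v : C) (hu : u ∉ F) (hv : v ∉ F) (huv : u ≠ v) (κ : ℕ)
    (hκ : κ ≤ F.card) (g g' : Finset C → ℝ) (L : ℝ)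
    (h : ∀ S ∈ powersetCard (κ + 1) (insert u (insert v F)), ∀ S' ∈ powersetCard κ F,
      (S ∩ F ⊆ S' ∨ S' ⊆ S ∩ F) → |g S - g' S'| ≤ L) :
    |avg (powersetCard (κ + 1) (insert u (insert v F))) g - avg (powersetCard κ F) g'| ≤ L := by
  set F' := insert u (insert v F) with hF'
  have hFF : F ⊆ F' := (subset_insert _ _).trans (subset_insert _ _)
  have hcard : F'.card = F.card + 2 := by
    rw [hF', card_insert_of_notMem (by simp [hu, huv]), card_insert_of_notMem hv]
  refine abs_avg_sub_le_of_cls (powersetCard_nonempty.2 (by omega)) (fun S => S \ F) g _ L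
    fun S0 hS0 => ?_
  obtain ⟨hS01, hS02⟩ := mem_powersetCard.1 hS0
  have hsplit : ∀ S : Finset C, (S ∩ F).card + (S \ F).card = S.card := fun S =>
    card_inter_add_card_sdiff S F
  have hdis : ∀ T : Finset C, T ⊆ F → Disjoint T (S0 \ F) := fun T hT =>
    disjoint_left.2 fun x hx hx' => (mem_sdiff.1 hx').2 (hT hx)
  have hint : ∀ T : Finset C, T ⊆ F → (T ∪ S0 \ F) ∩ F = T := by
    intro T hT; ext x; simp only [mem_inter, mem_union, mem_sdiff]
    exact ⟨fun h => h.1.elim id fun h' => absurd h.2 h'.2, fun h => ⟨Or.inl h, hT h⟩⟩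
  have hmem : ∀ T ∈ powersetCard (S0 ∩ F).card F, T ∪ S0 \ F ∈ powersetCard (κ + 1) F' := by
    intro T hT
    obtain ⟨h1, h2⟩ := mem_powersetCard.1 hT
    refine mem_powersetCard.2 ⟨union_subset (h1.trans hFF) (sdiff_subset.trans hS01), ?_⟩
    rw [card_union_of_disjoint (hdis T h1), h2, hsplit, hS02]
  have hbij : Set.BijOn (fun T => T ∪ S0 \ F) (powersetCard (S0 ∩ F).card F)
      (cls (powersetCard (κ + 1) F') (fun S => S \ F) S0) := by
    refine ⟨fun T hT => ?_, fun T hT T' hT' hTT => ?_, fun S hS => ?_⟩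
    · have hT := mem_coe.1 hT
      refine mem_coe.2 (mem_cls.2 ⟨hmem T hT, ?_⟩)
      have h1 := (mem_powersetCard.1 hT).1
      ext x; simp only [mem_union, mem_sdiff]
      exact ⟨fun h => h.1.elim (fun h' => absurd (h1 h') h.2) id, fun h => ⟨Or.inr h, h.2⟩⟩
    · have h1 := hint T (mem_powersetCard.1 (mem_coe.1 hT)).1
      have h2 := hint T' (mem_powersetCard.1 (mem_coe.1 hT')).1
      simp only at hTT
      rw [← h1, ← h2, hTT]
    · obtain ⟨h1, h2⟩ := mem_cls.1 (mem_coe.1 hS)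
      obtain ⟨h3, h4⟩ := mem_powersetCard.1 h1
      refine ⟨S ∩ F, mem_coe.2 (mem_powersetCard.2 ⟨inter_subset_right, ?_⟩), ?_⟩
      · have := hsplit S; have := hsplit S0; rw [h2] at *; omega
      · simp only; rw [← h2]; ext x; simp only [mem_union, mem_inter, mem_sdiff]; tauto
  rw [← avg_bij _ hbij]
  refine avg_nested F _ κ (card_le_card inter_subset_right) hκ _ g' L fun T hT S' hS' hs => ?_
  refine h _ (hmem T hT) S' hS' ?_
  rwa [hint T (mem_powersetCard.1 hT).1]

end Vale.Agent.P335
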