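import Vale.Agent.P335.ThreeRowDefs
import Vale.Agent.P335.JohnsonA

/-! The three-row inequality. -/

namespace Vale.Agent.P335

open Finset

variable {C : Type*} [DecidableEq C]

theorem t3_tr_eq {a b : C} {S : Finset C} (ha : a ∈ S) (hb : b ∉ S) :
    tr a b S = insert b (S.erase a) := by
  ext x
  rw [mem_tr, mem_insert, mem_erase]
  by_cases h1 : x = a
  · subst h1
    have : x ≠ b := fun h => hb (h ▸ ha)
    simp [hb, this]
  by_cases h2 : x = b
  · subst h2; simp [ha]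
  rw [Equiv.swap_apply_of_ne_of_ne h1 h2]; simp [h1, h2]

theorem t3_col {i j k : Fin 3} (hij : i ≠ j) (hik : i ≠ k) (hjk : j ≠ k)
    (M : Fin 3 → Finset C) (v : C) : col M v =
    (if v ∈ M i then 1 else 0) + (if v ∈ M j then 1 else 0) + (if v ∈ M k then 1 else 0) := by
  rw [col_eq]
  fin_cases i <;> fin_cases j <;> fin_cases k <;> simp at hij hik hjk ⊢ <;> omega

theorem t3_cases {i j k : Fin 3} (hij : i ≠ j) (hik : i ≠ k) (hjk : j ≠ k) (t : Fin 3) :
    t = i ∨ t = j ∨ t = k := by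
  revert i j k t; decide

theorem t3_others (k : Fin 3) : ∃ i j : Fin 3, i ≠ j ∧ i ≠ k ∧ j ≠ k := by
  revert k; decide

variable [Fintype C]

theorem t3_tau_mem {r : Fin 3 → ℕ} {c : C → ℕ} {u v : C} (huv : c u = c v)
    {M : Fin 3 → Finset C} (hM : M ∈ rows3 r c) : (fun t => tr u v (M t)) ∈ rows3 r c := by
  rw [mem_rows3] at hM ⊢
  refine ⟨fun t => by rw [card_tr, hM.1], fun w => ?_⟩
  have h1 : col (fun t => tr u v (M t)) w = col M (Equiv.swap u v w) := by
    rw [col_eq, col_eq]; simp only [mem_tr]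
  rw [h1, hM.2]
  by_cases h2 : w = u
  · subst h2; simp [huv]
  by_cases h3 : w = v
  · subst h3; simp [huv]
  rw [Equiv.swap_apply_of_ne_of_ne h2 h3]

theorem t3_step1 {r : Fin 3 → ℕ} {c : C → ℕ} (φ : Fin 3 → Finset C → ℝ) (μ : ℝ) (hμ : 2 < μ)
    (hE : ∀ i j k : Fin 3, i ≠ j → i ≠ k → j ≠ k → ∀ M ∈ rows3 r c,
      (μ - 1) * φ k (M k) = cE (rows3 r c) (fun N => N k) (fun N => φ i (N i) + φ j (N j)) M)
    {u v : C} (huv : c u = c v) (t : Fin 3) {M : Fin 3 → Finset C} (hM : M ∈ rows3 r c) :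
    φ t (tr u v (M t)) = φ t (M t) := by
  set J := rows3 r c with hJ
  let τ : (Fin 3 → Finset C) → (Fin 3 → Finset C) := fun N t => tr u v (N t)
  have hττ : ∀ N, τ (τ N) = N := fun N => by funext t; exact tr_tr _ _ _
  have hbij : Set.BijOn τ J J := by
    refine ⟨fun N hN => t3_tau_mem huv hN, fun N _ N' _ h => ?_, fun N hN => ?_⟩
    · rw [← hττ N, h, hττ]
    · exact ⟨τ N, t3_tau_mem huv hN, hττ N⟩
  let ψ : Fin 3 → Finset C → ℝ := fun t S => φ t S - φ t (tr u v S)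
  have hψ : ∀ i j k : Fin 3, i ≠ j → i ≠ k → j ≠ k → ∀ M ∈ J,
      (μ - 1) * ψ k (M k) = cE J (fun N => N k) (fun N => ψ i (N i) + ψ j (N j)) M := by
    intro i j k hij hik hjk M hM
    have h1 := hE i j k hij hik hjk M hM
    have h2 := hE i j k hij hik hjk (τ M) (hbij.mapsTo hM)
    have h3 := cE_bij τ hbij (k := fun N => N k) (k' := fun N => N k)
      (fun x _ y _ => ⟨fun h => by simp only [τ]; rw [h], fun h => by
        have := congrArg (tr u v) h
        simpa only [τ, tr_tr] using this⟩) (fun N => φ i (N i) + φ j (N j)) hM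
    have h4 := cE_sub J (fun N => N k) (fun N => φ i (N i) + φ j (N j))
      (fun N => φ i (τ N i) + φ j (τ N j)) M
    have h5 : cE J (fun N => N k) (fun N => ψ i (N i) + ψ j (N j)) M =
        cE J (fun N => N k) (fun N => (φ i (N i) + φ j (N j)) - (φ i (τ N i) + φ j (τ N j))) M := by
      congr 1; funext N; simp only [ψ, τ]; ring
    rw [h5, h4, h3, ← h1, ← h2]
    simp only [ψ, τ]; ring
  obtain ⟨⟨k, M0⟩, hmem, hmax⟩ := exists_max_image ((univ : Finset (Fin 3)) ×ˢ J)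
    (fun p => |ψ p.1 (p.2 p.1)|) ⟨(t, M), mem_product.2 ⟨mem_univ _, hM⟩⟩
  have hM0 : M0 ∈ J := (mem_product.1 hmem).2
  have hmax' : ∀ s, ∀ N ∈ J, |ψ s (N s)| ≤ |ψ k (M0 k)| := fun s N hN =>
    hmax (s, N) (mem_product.2 ⟨mem_univ _, hN⟩)
  have hzero : ∀ s (S : Finset C), (u ∈ S ↔ v ∈ S) → ψ s S = 0 := by
    intro s S h; simp only [ψ]; rw [tr_of_iff h, sub_self]
  have hm : |ψ k (M0 k)| = 0 := by
    by_cases hsep : (u ∈ M0 k ↔ v ∈ M0 k)
    · rw [hzero _ _ hsep, abs_zero]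
    obtain ⟨i, j, hij, hik, hjk⟩ := t3_others k
    have h1 := hψ i j k hij hik hjk M0 hM0
    have h2 : |cE J (fun N => N k) (fun N => ψ i (N i) + ψ j (N j)) M0| ≤ |ψ k (M0 k)| := by
      refine abs_cE_le (abs_nonneg _) fun N hN hNk => ?_
      have hcu := (mem_rows3.1 hN).2 u
      have hcv := (mem_rows3.1 hN).2 v
      rw [t3_col hij hik hjk] at hcu hcv
      rw [hNk] at hcu hcv
      by_cases hi : (u ∈ N i ↔ v ∈ N i)
      · rw [hzero _ _ hi, zero_add]; exact hmax' j N hN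
      by_cases hj : (u ∈ N j ↔ v ∈ N j)
      · rw [hzero _ _ hj, add_zero]; exact hmax' i N hN
      exfalso
      by_cases a1 : u ∈ N i <;> by_cases a2 : v ∈ N i <;> by_cases a3 : u ∈ N j <;>
        by_cases a4 : v ∈ N j <;> by_cases a5 : u ∈ M0 k <;> by_cases a6 : v ∈ M0 k <;>
        simp [a1, a2, a3, a4, a5, a6] at hi hj hsep hcu hcv <;> omega
    rw [← h1, abs_mul, abs_of_pos (by linarith : (0 : ℝ) < μ - 1)] at h2
    have h3 := abs_nonneg (ψ k (M0 k))
    nlinarith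
  have h6 := hmax' t M hM
  rw [hm] at h6
  have h7 : ψ t (M t) = 0 := abs_nonpos_iff.1 h6
  simp only [ψ] at h7
  linarith

/-- Columns that are forced into both remaining rows. -/
def t3D (c : C → ℕ) (A : Finset C) : Finset C :=
  univ.filter fun w => (w ∈ A ∧ c w = 3) ∨ (w ∉ A ∧ c w = 2)

/-- Columns that lie in exactly one of the remaining rows. -/
def t3F (c : C → ℕ) (A : Finset C) : Finset C :=
  univ.filter fun w => (w ∈ A ∧ c w = 2) ∨ (w ∉ A ∧ c w = 1)

theorem t3_memD {c : C → ℕ} {A : Finset C} {w : C} :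
    w ∈ t3D c A ↔ (w ∈ A ∧ c w = 3) ∨ (w ∉ A ∧ c w = 2) := by unfold t3D; simp

theorem t3_memF {c : C → ℕ} {A : Finset C} {w : C} :
    w ∈ t3F c A ↔ (w ∈ A ∧ c w = 2) ∨ (w ∉ A ∧ c w = 1) := by unfold t3F; simp

theorem t3_disj (c : C → ℕ) (A : Finset C) {S : Finset C} (hS : S ⊆ t3F c A) :
    Disjoint (t3D c A) S := by
  refine disjoint_left.2 fun w h1 h2 => ?_
  have h3 := hS h2
  rw [t3_memD] at h1; rw [t3_memF] at h3
  by_cases h : w ∈ A <;> simp [h] at h1 h3 <;> omega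

theorem t3_surj {r : Fin 3 → ℕ} {c : C → ℕ} {i j k : Fin 3} (hij : i ≠ j) (hik : i ≠ k)
    (hjk : j ≠ k) {N : Fin 3 → Finset C} (hN : N ∈ rows3 r c) :
    ∃ S ∈ powersetCard (r i - (t3D c (N k)).card) (t3F c (N k)),
      N i = t3D c (N k) ∪ S ∧ N j = t3D c (N k) ∪ (t3F c (N k) \ S) ∧
      (t3D c (N k)).card + S.card = r i := by
  have hc := (mem_rows3.1 hN).2
  have e1 : N i = t3D c (N k) ∪ (N i ∩ t3F c (N k)) := by
    ext w
    have := hc w
    rw [t3_col hij hik hjk] at this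
    rw [mem_union, mem_inter, t3_memD, t3_memF]
    by_cases a1 : w ∈ N i <;> by_cases a2 : w ∈ N j <;> by_cases a3 : w ∈ N k <;>
      simp [a1, a2, a3] at this ⊢ <;> omega
  have e2 : N j = t3D c (N k) ∪ (t3F c (N k) \ (N i ∩ t3F c (N k))) := by
    ext w
    have := hc w
    rw [t3_col hij hik hjk] at this
    rw [mem_union, mem_sdiff, mem_inter, t3_memD, t3_memF]
    by_cases a1 : w ∈ N i <;> by_cases a2 : w ∈ N j <;> by_cases a3 : w ∈ N k <;>
      simp [a1, a2, a3] at this ⊢ <;> omega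
  have e3 : (t3D c (N k)).card + (N i ∩ t3F c (N k)).card = r i := by
    rw [← card_union_of_disjoint (t3_disj c _ inter_subset_right), ← e1, (mem_rows3.1 hN).1]
  exact ⟨_, mem_powersetCard.2 ⟨inter_subset_right, by omega⟩, e1, e2, e3⟩

theorem t3_dec_mem {r : Fin 3 → ℕ} {c : C → ℕ} {i j k : Fin 3} (hij : i ≠ j) (hik : i ≠ k)
    (hjk : j ≠ k) {N : Fin 3 → Finset C} (hN : N ∈ rows3 r c) {S : Finset C}
    (hS : S ∈ powersetCard (r i - (t3D c (N k)).card) (t3F c (N k))) :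
    (fun t => if t = k then N k else if t = i then t3D c (N k) ∪ S
      else t3D c (N k) ∪ (t3F c (N k) \ S)) ∈ rows3 r c := by
  obtain ⟨S0, hS0, e1, e2, e3⟩ := t3_surj hij hik hjk hN
  obtain ⟨h1, h2⟩ := mem_powersetCard.1 hS
  obtain ⟨h3, h4⟩ := mem_powersetCard.1 hS0
  have hr := (mem_rows3.1 hN).1
  refine mem_rows3.2 ⟨fun t => ?_, fun w => ?_⟩
  · rcases t3_cases hij hik hjk t with rfl | rfl | rfl
    · rw [if_neg hik, if_pos rfl, card_union_of_disjoint (t3_disj c _ h1)]; omega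
    · rw [if_neg hjk, if_neg hij.symm, ← hr, e2, card_union_of_disjoint (t3_disj c _ sdiff_subset),
        card_union_of_disjoint (t3_disj c _ sdiff_subset), card_sdiff_of_subset h1,
        card_sdiff_of_subset h3, h2, h4]
    · rw [if_pos rfl, hr]
  · have := (mem_rows3.1 hN).2 w
    rw [t3_col hij hik hjk] at this ⊢
    simp only [if_neg hik, if_neg hjk, if_neg hij.symm, if_true, mem_union, mem_sdiff]
    have h5 : w ∈ S → w ∈ t3F c (N k) := fun h => h1 h
    rw [t3_memF] at h5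
    simp only [t3_memD, t3_memF]
    by_cases a1 : w ∈ N i <;> by_cases a2 : w ∈ N j <;> by_cases a3 : w ∈ N k <;>
      by_cases a4 : w ∈ S <;> simp [a1, a2, a3, a4] at this h5 ⊢ <;> simp [← this] at h5 ⊢

theorem t3_param {r : Fin 3 → ℕ} {c : C → ℕ} {i j k : Fin 3} (hij : i ≠ j) (hik : i ≠ k)
    (hjk : j ≠ k) {N : Fin 3 → Finset C} (hN : N ∈ rows3 r c) (G : Finset C → Finset C → ℝ) :
    cE (rows3 r c) (fun M => M k) (fun M => G (M i) (M j)) N =
      avg (powersetCard (r i - (t3D c (N k)).card) (t3F c (N k)))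
        (fun S => G (t3D c (N k) ∪ S) (t3D c (N k) ∪ (t3F c (N k) \ S))) := by
  let e : Finset C → (Fin 3 → Finset C) := fun S t => if t = k then N k else
    if t = i then t3D c (N k) ∪ S else t3D c (N k) ∪ (t3F c (N k) \ S)
  have ei : ∀ S, e S i = t3D c (N k) ∪ S := fun S => by simp [e, hik]
  have ej : ∀ S, e S j = t3D c (N k) ∪ (t3F c (N k) \ S) := fun S => by simp [e, hjk, hij.symm]
  have ek : ∀ S, e S k = N k := fun S => by simp [e]
  have hbij : Set.BijOn e (powersetCard (r i - (t3D c (N k)).card) (t3F c (N k)))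
      (cls (rows3 r c) (fun M => M k) N) := by
    refine ⟨fun S hS => ?_, fun S hS S' hS' h => ?_, fun M hM => ?_⟩
    · exact mem_coe.2 (mem_cls.2 ⟨t3_dec_mem hij hik hjk hN (mem_coe.1 hS), ek S⟩)
    · have h1 := congrFun h i
      rw [ei, ei] at h1
      have d1 := t3_disj c _ (mem_powersetCard.1 (mem_coe.1 hS)).1
      have d2 := t3_disj c _ (mem_powersetCard.1 (mem_coe.1 hS')).1
      rw [← union_sdiff_cancel_left d1, h1, union_sdiff_cancel_left d2]
    · obtain ⟨h1, h2⟩ := mem_cls.1 (mem_coe.1 hM)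
      obtain ⟨S, hS, e1, e2, _⟩ := t3_surj hij hik hjk h1
      rw [h2] at hS e1 e2
      refine ⟨S, mem_coe.2 hS, funext fun t => ?_⟩
      rcases t3_cases hij hik hjk t with rfl | rfl | rfl
      · rw [ei, e1]
      · rw [ej, e2]
      · rw [ek, h2]
  unfold cE
  rw [← avg_bij e hbij]
  simp only [ei, ej]

theorem t3_rows {r : Fin 3 → ℕ} {c : C → ℕ} {i j k : Fin 3} (hij : i ≠ j) (hik : i ≠ k)
    (hjk : j ≠ k) {N : Fin 3 → Finset C} (hN : N ∈ rows3 r c) {S : Finset C}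
    (hS : S ∈ powersetCard (r i - (t3D c (N k)).card) (t3F c (N k))) :
    ∃ M ∈ rows3 r c, M i = t3D c (N k) ∪ S ∧ M j = t3D c (N k) ∪ (t3F c (N k) \ S) :=
  ⟨_, t3_dec_mem hij hik hjk hN hS, by simp [hik], by simp [hjk, hij.symm]⟩

omit [Fintype C] in
theorem t3_sets (D F0 S S' : Finset C) (u v : C) (κ : ℕ) (huD : u ∉ D) (hvD : v ∉ D)
    (hu : u ∉ F0) (hv : v ∉ F0) (huv : u ≠ v) (hDF : ∀ w ∈ F0, w ∉ D)
    (hS : S ∈ powersetCard (κ + 1) (insert u (insert v F0))) (hS' : S' ∈ powersetCard κ F0)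
    (hsub : S ∩ F0 ⊆ S' ∨ S' ⊆ S ∩ F0) :
    (insert u D ∪ S' = D ∪ S ∧
      insert u D ∪ (F0 \ S') = tr v u (D ∪ (insert u (insert v F0) \ S))) ∨
    (insert u D ∪ S' = tr v u (D ∪ S) ∧
      insert u D ∪ (F0 \ S') = D ∪ (insert u (insert v F0) \ S)) ∨
    (∃ w ∈ F0, insert u D ∪ S' = tr v w (D ∪ S) ∧
      insert u D ∪ (F0 \ S') = tr w u (D ∪ (insert u (insert v F0) \ S))) ∨
    (∃ w ∈ F0, insert u D ∪ S' = tr w u (D ∪ S) ∧
      insert u D ∪ (F0 \ S') = tr v w (D ∪ (insert u (insert v F0) \ S))) := by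
  obtain ⟨h1, h2⟩ := mem_powersetCard.1 hS
  obtain ⟨h3, h4⟩ := mem_powersetCard.1 hS'
  have h1' : ∀ x ∈ S, x = u ∨ x = v ∨ x ∈ F0 := fun x hx => by simpa using h1 hx
  have h3' : ∀ x ∈ S', x ∈ F0 := fun x hx => h3 hx
  have huI : u ∉ S ∩ F0 := fun h => hu (mem_inter.1 h).2
  have hvI : v ∉ S ∩ F0 := fun h => hv (mem_inter.1 h).2
  have heq : (S ∩ F0).card = κ → S' = S ∩ F0 := fun hc => by
    rcases hsub with h | h
    · exact (eq_of_subset_of_card_le h (by omega)).symm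
    · exact eq_of_subset_of_card_le h (by omega)
  by_cases a1 : u ∈ S <;> by_cases a2 : v ∈ S
  · have e : S = insert u (insert v (S ∩ F0)) := by ext x; simp only [mem_insert, mem_inter]; grind
    have hc : S.card = (S ∩ F0).card + 2 := by
      conv_lhs => rw [e]
      rw [card_insert_of_notMem (by simp [huv, hu]), card_insert_of_notMem hvI]
    have hs : S ∩ F0 ⊆ S' := by
      rcases hsub with h | h
      · exact h
      · have := card_le_card h; omega
    obtain ⟨w, hw⟩ := card_eq_one.1 (show (S' \ (S ∩ F0)).card = 1 by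
      rw [card_sdiff_of_subset hs]; omega)
    have hw' : ∀ x, (x ∈ S' ∧ ¬ (x ∈ S ∧ x ∈ F0)) ↔ x = w := fun x => by
      rw [← mem_inter, ← mem_sdiff, hw, mem_singleton]
    have hs' : ∀ x, x ∈ S → x ∈ F0 → x ∈ S' := fun x a b => hs (mem_inter.2 ⟨a, b⟩)
    have hw1 := (hw' w).2 rfl
    have hwF := h3' w hw1.1
    have hwS : w ∉ S := fun h => hw1.2 ⟨h, hwF⟩
    refine Or.inr (Or.inr (Or.inl ⟨w, hwF, ?_, ?_⟩))
    · rw [t3_tr_eq (by simp [a2]) (by simp [hwS, hDF w hwF])]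
      ext x; simp only [mem_union, mem_insert, mem_erase]; grind
    · rw [t3_tr_eq (by simp [hwS, hwF]) (by simp [a1, huD])]
      ext x; simp only [mem_union, mem_insert, mem_erase, mem_sdiff]; grind
  · have e : S = insert u (S ∩ F0) := by ext x; simp only [mem_insert, mem_inter]; grind
    have hc : S.card = (S ∩ F0).card + 1 := by
      conv_lhs => rw [e]
      rw [card_insert_of_notMem huI]
    have e' := heq (by omega)
    have hw' : ∀ x, x ∈ S' ↔ (x ∈ S ∧ x ∈ F0) := fun x => by rw [e', mem_inter]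
    refine Or.inl ⟨?_, ?_⟩
    · ext x; simp only [mem_union, mem_insert]; grind
    · rw [t3_tr_eq (by simp [a2]) (by simp [a1, huD])]
      ext x; simp only [mem_union, mem_insert, mem_erase, mem_sdiff]; grind
  · have e : S = insert v (S ∩ F0) := by ext x; simp only [mem_insert, mem_inter]; grind
    have hc : S.card = (S ∩ F0).card + 1 := by
      conv_lhs => rw [e]
      rw [card_insert_of_notMem hvI]
    have e' := heq (by omega)
    have hw' : ∀ x, x ∈ S' ↔ (x ∈ S ∧ x ∈ F0) := fun x => by rw [e', mem_inter]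
    refine Or.inr (Or.inl ⟨?_, ?_⟩)
    · rw [t3_tr_eq (by simp [a2]) (by simp [a1, huD])]
      ext x; simp only [mem_union, mem_insert, mem_erase]; grind
    · ext x; simp only [mem_union, mem_insert, mem_sdiff]; grind
  · have e : S = S ∩ F0 := by ext x; simp only [mem_inter]; grind
    have hs : S' ⊆ S := by
      rcases hsub with h | h
      · have := card_le_card h; rw [← e] at this; omega
      · rwa [← e] at h
    obtain ⟨w, hw⟩ := card_eq_one.1 (show (S \ S').card = 1 by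
      rw [card_sdiff_of_subset hs]; omega)
    have hw' : ∀ x, (x ∈ S ∧ x ∉ S') ↔ x = w := fun x => by
      rw [← mem_sdiff, hw, mem_singleton]
    have hs' : ∀ x, x ∈ S' → x ∈ S := fun x a => hs a
    have hw1 := (hw' w).2 rfl
    have hwF : w ∈ F0 := by have := h1' w hw1.1; grind
    refine Or.inr (Or.inr (Or.inr ⟨w, hwF, ?_, ?_⟩))
    · rw [t3_tr_eq (by simp [hw1.1]) (by simp [a1, huD])]
      ext x; simp only [mem_union, mem_insert, mem_erase]; grind
    · rw [t3_tr_eq (by simp [a2]) (by simp [hw1.1, hDF w hwF])]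
      ext x; simp only [mem_union, mem_insert, mem_erase, mem_sdiff]; grind

theorem t3_couple {r : Fin 3 → ℕ} {c : C → ℕ} (φ : Fin 3 → Finset C → ℝ) (L : ℝ)
    (h0 : ∀ u v, c u = c v → ∀ t, ∀ M ∈ rows3 r c, φ t (tr u v (M t)) = φ t (M t))
    (hL : ∀ t, ∀ M ∈ rows3 r c, ∀ M' ∈ rows3 r c, ∀ u v, M' t = tr u v (M t) →
      |φ t (M' t) - φ t (M t)| ≤ L)
    {i j k : Fin 3} (hij : i ≠ j) (hik : i ≠ k) (hjk : j ≠ k)
    {M M' : Fin 3 → Finset C} (hM : M ∈ rows3 r c) (hM' : M' ∈ rows3 r c) {u v : C}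
    (hu : u ∈ M k) (hv : v ∉ M k) (hMM : M' k = tr u v (M k)) (hcu : c u = 2) (hcv : c v = 1) :
    |cE (rows3 r c) (fun N => N k) (fun N => φ i (N i) + φ j (N j)) M -
      cE (rows3 r c) (fun N => N k) (fun N => φ i (N i) + φ j (N j)) M'| ≤ L := by
  have huv : u ≠ v := fun h => hv (h ▸ hu)
  have hA : ∀ x, x ∈ M' k ↔ (x = v ∨ (x ≠ u ∧ x ∈ M k)) := fun x => by
    rw [hMM, t3_tr_eq hu hv, mem_insert, mem_erase]
  have eF : t3F c (M k) = insert u (insert v (t3F c (M' k))) := by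
    ext x; simp only [mem_insert, t3_memF, hA]; grind
  have eD : t3D c (M' k) = insert u (t3D c (M k)) := by
    ext x; simp only [mem_insert, t3_memD, hA]; grind
  have huD : u ∉ t3D c (M k) := by simp only [t3_memD]; grind
  have hvD : v ∉ t3D c (M k) := by simp only [t3_memD]; grind
  have huF : u ∉ t3F c (M' k) := by simp only [t3_memF, hA]; grind
  have hvF : v ∉ t3F c (M' k) := by simp only [t3_memF, hA]; grind
  have hDF : ∀ w ∈ t3F c (M' k), w ∉ t3D c (M k) := by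
    intro w hw; simp only [t3_memF, t3_memD, hA] at hw ⊢; grind
  have hcw : ∀ w ∈ t3F c (M' k), c w = c v ∨ c w = c u := by
    intro w hw; simp only [t3_memF] at hw; grind
  obtain ⟨S0, hS0, -, -, e3⟩ := t3_surj hij hik hjk hM'
  obtain ⟨hS01, hS02⟩ := mem_powersetCard.1 hS0
  have hcD : (t3D c (M' k)).card = (t3D c (M k)).card + 1 := by
    rw [eD, card_insert_of_notMem huD]
  have hκ : r i - (t3D c (M k)).card = (r i - (t3D c (M' k)).card) + 1 := by omega
  have p1 := t3_param hij hik hjk hM (fun X Y => φ i X + φ j Y)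
  have p2 := t3_param hij hik hjk hM' (fun X Y => φ i X + φ j Y)
  have q1 := fun S => t3_rows (S := S) hij hik hjk hM
  have q2 := fun S => t3_rows (S := S) hij hik hjk hM'
  rw [p1, p2]
  rw [hκ, eF] at q1 ⊢
  refine johnson_couple _ u v huF hvF huv _ (by have := card_le_card hS01; omega) _ _ L
    fun S hS S' hS' hsub => ?_
  obtain ⟨N, hN, n1, n2⟩ := q1 S hS
  obtain ⟨N', hN', n1', n2'⟩ := q2 S' hS'
  have hs := t3_sets (t3D c (M k)) (t3F c (M' k)) S S' u v _ huD hvD huF hvF huv hDF hS hS' hsub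
  rw [← eD, ← n1, ← n2, ← n1', ← n2'] at hs
  rw [← n1, ← n2, ← n1', ← n2']
  have A1 : φ i (N' i) = φ i (N i) → |φ j (N' j) - φ j (N j)| ≤ L →
      |φ i (N i) + φ j (N j) - (φ i (N' i) + φ j (N' j))| ≤ L := by
    intro a b
    rw [abs_sub_comm] at b
    rw [a]; convert b using 2; ring
  have A2 : φ j (N' j) = φ j (N j) → |φ i (N' i) - φ i (N i)| ≤ L →
      |φ i (N i) + φ j (N j) - (φ i (N' i) + φ j (N' j))| ≤ L := by
    intro a b
    rw [abs_sub_comm] at b
    rw [a]; convert b using 2; ring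
  rcases hs with ⟨a, b⟩ | ⟨a, b⟩ | ⟨w, hw, a, b⟩ | ⟨w, hw, a, b⟩
  · exact A1 (by rw [a]) (hL j N hN N' hN' _ _ b)
  · exact A2 (by rw [b]) (hL i N hN N' hN' _ _ a)
  · rcases hcw w hw with h | h
    · exact A1 (by rw [a, h0 v w h.symm i N hN]) (hL j N hN N' hN' _ _ b)
    · exact A2 (by rw [b, h0 w u h j N hN]) (hL i N hN N' hN' _ _ a)
  · rcases hcw w hw with h | h
    · exact A2 (by rw [b, h0 v w h.symm j N hN]) (hL i N hN N' hN' _ _ a)
    · exact A1 (by rw [a, h0 w u h i N hN]) (hL j N hN N' hN' _ _ b)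

theorem t3_step2 {r : Fin 3 → ℕ} {c : C → ℕ} (φ : Fin 3 → Finset C → ℝ) (μ : ℝ) (hμ : 2 < μ)
    (hE : ∀ i j k : Fin 3, i ≠ j → i ≠ k → j ≠ k → ∀ M ∈ rows3 r c,
      (μ - 1) * φ k (M k) = cE (rows3 r c) (fun N => N k) (fun N => φ i (N i) + φ j (N j)) M)
    (t : Fin 3) {M M' : Fin 3 → Finset C} (hM : M ∈ rows3 r c) (hM' : M' ∈ rows3 r c) {u v : C}
    (h : M' t = tr u v (M t)) : φ t (M' t) = φ t (M t) := by
  have h0 : ∀ u v, c u = c v → ∀ t, ∀ M ∈ rows3 r c, φ t (tr u v (M t)) = φ t (M t) :=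
    fun u v huv t M hM => t3_step1 φ μ hμ hE huv t hM
  obtain ⟨⟨k, N, N', a, b⟩, hmem, hmax⟩ := exists_max_image
    ((univ : Finset (Fin 3 × (Fin 3 → Finset C) × (Fin 3 → Finset C) × C × C)).filter
      fun p => p.2.1 ∈ rows3 r c ∧ p.2.2.1 ∈ rows3 r c ∧
        p.2.2.1 p.1 = tr p.2.2.2.1 p.2.2.2.2 (p.2.1 p.1))
    (fun p => |φ p.1 (p.2.2.1 p.1) - φ p.1 (p.2.1 p.1)|)
    ⟨(t, M, M', u, v), mem_filter.2 ⟨mem_univ _, hM, hM', h⟩⟩
  obtain ⟨hN, hN', hNN⟩ := (mem_filter.1 hmem).2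
  simp only at hN hN' hNN hmax
  have hL : ∀ t, ∀ M ∈ rows3 r c, ∀ M' ∈ rows3 r c, ∀ u v, M' t = tr u v (M t) →
      |φ t (M' t) - φ t (M t)| ≤ |φ k (N' k) - φ k (N k)| := fun t M hM M' hM' u v h =>
    hmax (t, M, M', u, v) (mem_filter.2 ⟨mem_univ _, hM, hM', h⟩)
  obtain ⟨i, j, hij, hik, hjk⟩ := t3_others k
  have key : ∀ a b, a ∈ N k → b ∉ N k → N' k = tr a b (N k) →
      |φ k (N' k) - φ k (N k)| = 0 := by
    intro a b ha hb hab
    by_cases hc : c a = c b
    · rw [hab, h0 a b hc k N hN, sub_self, abs_zero]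
    have hab' : a ≠ b := fun h => hb (h ▸ ha)
    have ha' : a ∉ N' k := by rw [hab, t3_tr_eq ha hb]; simp [hab']
    have hb' : b ∈ N' k := by rw [hab, t3_tr_eq ha hb]; simp
    have c1 := (mem_rows3.1 hN).2 a
    have c2 := (mem_rows3.1 hN).2 b
    have c3 := (mem_rows3.1 hN').2 a
    have c4 := (mem_rows3.1 hN').2 b
    rw [t3_col hij hik hjk] at c1 c2 c3 c4
    rw [if_pos ha] at c1; rw [if_neg hb] at c2; rw [if_neg ha'] at c3; rw [if_pos hb'] at c4
    have b1 : 1 ≤ c a := by omega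
    have b2 : c b ≤ 2 := by split_ifs at c2 <;> omega
    have b3 : c a ≤ 2 := by split_ifs at c3 <;> omega
    have b4 : 1 ≤ c b := by omega
    have hb2 : |cE (rows3 r c) (fun N => N k) (fun N => φ i (N i) + φ j (N j)) N -
        cE (rows3 r c) (fun N => N k) (fun N => φ i (N i) + φ j (N j)) N'| ≤
        |φ k (N' k) - φ k (N k)| := by
      by_cases hca : c a = 2
      · exact t3_couple φ _ h0 hL hij hik hjk hN hN' ha hb hab hca (by omega)
      · rw [abs_sub_comm]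
        exact t3_couple φ _ h0 hL hij hik hjk hN' hN hb' ha'
          (by rw [hab, tr_comm b a, tr_tr]) (by omega) (by omega)
    rw [← hE i j k hij hik hjk N hN, ← hE i j k hij hik hjk N' hN', ← mul_sub, abs_mul,
      abs_of_pos (by linarith : (0 : ℝ) < μ - 1), abs_sub_comm] at hb2
    have h3 := abs_nonneg (φ k (N' k) - φ k (N k))
    nlinarith
  have hz : |φ k (N' k) - φ k (N k)| = 0 := by
    by_cases a1 : a ∈ N k <;> by_cases a2 : b ∈ N k
    · rw [hNN, tr_of_iff (by simp [a1, a2]), sub_self, abs_zero]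
    · exact key a b a1 a2 hNN
    · exact key b a a2 a1 (by rw [hNN, tr_comm])
    · rw [hNN, tr_of_iff (by simp [a1, a2]), sub_self, abs_zero]
  have h6 := hL t M hM M' hM' u v h
  rw [hz] at h6
  have := abs_nonpos_iff.1 h6
  linarith

theorem t3_step3 {r : Fin 3 → ℕ} {c : C → ℕ} (φ : Fin 3 → Finset C → ℝ) (μ : ℝ) (hμ : 2 < μ)
    (hE : ∀ i j k : Fin 3, i ≠ j → i ≠ k → j ≠ k → ∀ M ∈ rows3 r c,
      (μ - 1) * φ k (M k) = cE (rows3 r c) (fun N => N k) (fun N => φ i (N i) + φ j (N j)) M)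
    {i j k : Fin 3} (hij : i ≠ j) (hik : i ≠ k) (hjk : j ≠ k)
    {M : Fin 3 → Finset C} (hM : M ∈ rows3 r c) :
    (μ - 1) * φ k (M k) = φ i (M i) + φ j (M j) := by
  rw [hE i j k hij hik hjk M hM]
  refine cE_of_inv (f := fun N => φ i (N i) + φ j (N j)) hM fun N hN hNk => ?_
  obtain ⟨S, hS, e1, e2, -⟩ := t3_surj hij hik hjk hM
  obtain ⟨S', hS', e1', e2', -⟩ := t3_surj hij hik hjk hN
  rw [hNk] at hS' e1' e2'
  rw [e1, e2, e1', e2']
  refine johnson_const _ _ (fun S => φ i (t3D c (M k) ∪ S) + φ j (t3D c (M k) ∪ (t3F c (M k) \ S)))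
    (fun T hT a ha b hb => ?_) S' hS' S hS
  obtain ⟨X, hX, x1, x2⟩ := t3_rows hij hik hjk hM hT
  obtain ⟨Y, hY, y1, y2⟩ := t3_rows hij hik hjk hM (tr_mem_powersetCard ha hb hT)
  have haD : a ∉ t3D c (M k) := fun h => disjoint_left.1 (t3_disj c _ subset_rfl) h ha
  have hbD : b ∉ t3D c (M k) := fun h => disjoint_left.1 (t3_disj c _ subset_rfl) h hb
  have z1 : Y i = tr a b (X i) := by
    rw [x1, y1]; ext x
    simp only [mem_union, mem_tr]
    by_cases h1 : x = a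
    · subst h1; simp [haD, hbD]
    by_cases h2 : x = b
    · subst h2; simp [haD, hbD]
    rw [Equiv.swap_apply_of_ne_of_ne h1 h2]
  have z2 : Y j = tr a b (X j) := by
    rw [x2, y2]; ext x
    simp only [mem_union, mem_sdiff, mem_tr]
    by_cases h1 : x = a
    · subst h1; simp [haD, hbD, ha, hb]
    by_cases h2 : x = b
    · subst h2; simp [haD, hbD, ha, hb]
    rw [Equiv.swap_apply_of_ne_of_ne h1 h2]
  rw [← x1, ← x2, ← y1, ← y2, t3_step2 φ μ hμ hE i hX hY z1, t3_step2 φ μ hμ hE j hX hY z2]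

theorem t3_eig (r : Fin 3 → ℕ) (c : C → ℕ) (μ : ℝ) (F : (Fin 3 → Finset C) → ℝ)
    (hne : ∃ x ∈ rows3 r c, F x ≠ 0)
    (hF : ∀ x ∈ rows3 r c, cE (rows3 r c) (fun M => M 0) F x + cE (rows3 r c) (fun M => M 1) F x
      + cE (rows3 r c) (fun M => M 2) F x = μ * F x) : 0 ≤ 1 * μ ^ 2 + (-5) * μ + 6 := by
  by_cases hμ : μ ≤ 2
  · nlinarith
  push Not at hμ
  set J := rows3 r c with hJ
  let φ : Fin 3 → Finset C → ℝ := fun t S => cE J (fun M => M t) F (fun _ => S)
  have hφ : ∀ t M, φ t (M t) = cE J (fun M => M t) F M := fun t M => cE_key F rfl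
  have hsum : ∀ i j k : Fin 3, i ≠ j → i ≠ k → j ≠ k → ∀ M ∈ J,
      φ i (M i) + φ j (M j) + φ k (M k) = μ * F M := by
    intro i j k hij hik hjk M hM
    rw [← hF M hM, ← hφ, ← hφ, ← hφ]
    fin_cases i <;> fin_cases j <;> fin_cases k <;> simp at hij hik hjk ⊢ <;> ring
  have hE : ∀ i j k : Fin 3, i ≠ j → i ≠ k → j ≠ k → ∀ M ∈ J,
      (μ - 1) * φ k (M k) = cE J (fun N => N k) (fun N => φ i (N i) + φ j (N j)) M := by
    intro i j k hij hik hjk M hM
    have h1 : cE J (fun N => N k) (fun N => φ i (N i) + φ j (N j)) M =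
        cE J (fun N => N k) (fun N => μ * F N - cE J (fun N => N k) F N) M :=
      cE_congr (fun N hN => by rw [← hsum i j k hij hik hjk N hN, ← hφ]; ring) M
    rw [h1, cE_sub, cE_mul, cE_cE F hM, hφ]; ring
  obtain ⟨x, hx, hx0⟩ := hne
  have s0 := t3_step3 φ μ hμ hE (i := 1) (j := 2) (k := 0) (by decide) (by decide) (by decide) hx
  have s1 := t3_step3 φ μ hμ hE (i := 0) (j := 2) (k := 1) (by decide) (by decide) (by decide) hx
  have s2 := t3_step3 φ μ hμ hE (i := 0) (j := 1) (k := 2) (by decide) (by decide) (by decide) hx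
  have s3 := hsum 0 1 2 (by decide) (by decide) (by decide) x hx
  have s4 : (μ - 3) * (μ * F x) = 0 := by rw [← s3]; linarith
  have s5 : μ * F x ≠ 0 := mul_ne_zero (by linarith) hx0
  have s6 : μ = 3 := by have := (mul_eq_zero.1 s4).resolve_right s5; linarith
  rw [s6]; norm_num

theorem threeRow (r : Fin 3 → ℕ) (c : C → ℕ) (f : (Fin 3 → Finset C) → ℝ) :
    0 ≤ ip (rows3 r c) (cH (rows3 r c) (fun M => M 0) f) (cH (rows3 r c) (fun M => M 1) f)
      + ip (rows3 r c) (cH (rows3 r c) (fun M => M 0) f) (cH (rows3 r c) (fun M => M 2) f)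
      + ip (rows3 r c) (cH (rows3 r c) (fun M => M 1) f) (cH (rows3 r c) (fun M => M 2) f) := by
  set J := rows3 r c with hJ
  have h := spectral_quad J (fun g x => cE J (fun M => M 0) g x + cE J (fun M => M 1) g x
      + cE J (fun M => M 2) g x)
    (fun f g x _ => by simp only [cE_add]; ring)
    (fun a f x _ => by simp only [cE_mul]; ring)
    (fun f g hfg x _ => by simp only [cE_congr hfg])
    (fun f g => by
      rw [ip_add_left, ip_add_left, ip_add_right, ip_add_right, ip_cE_symm, ip_cE_symm, ip_cE_symm])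
    1 (-5) 6 (fun μ v hv hT => t3_eig r c μ v hv hT) f
  have d0 := ip_cE_cE J (fun M => M 0) f f
  have d1 := ip_cE_cE J (fun M => M 1) f f
  have d2 := ip_cE_cE J (fun M => M 2) f f
  unfold cH
  simp only [ip_add_left, ip_add_right] at h
  simp only [ip_sub_left, ip_sub_right]
  have c0 := ip_comm J (cE J (fun M => M 0) f) f
  have c1 := ip_comm J (cE J (fun M => M 1) f) f
  have c2 := ip_comm J (cE J (fun M => M 2) f) f
  have c01 := ip_comm J (cE J (fun M => M 0) f) (cE J (fun M => M 1) f)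
  have c02 := ip_comm J (cE J (fun M => M 0) f) (cE J (fun M => M 2) f)
  have c12 := ip_comm J (cE J (fun M => M 1) f) (cE J (fun M => M 2) f)
  linarith

end Vale.Agent.P335
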