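import Vale.Agent.P335.Keys
import Vale.Agent.P335.ThreeRow

/-! Fibres of a vertex triple are three-row systems. -/

namespace Vale.Agent.P335

open Finset

variable {V : Type*} [Fintype V] [DecidableEq V]

open Classical in
/-- The three-row matrix of a graph at the triple `t`; the extra column records the missing
edges inside the triple. -/
noncomputable def enc3 (t : Fin 3 → V) (G : SimpleGraph V) (r : Fin 3) : Finset (Option V) :=
  univ.filter fun o => o.elim (¬ G.Adj (t (r + 1)) (t (r + 2)))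
    fun v => v ∉ univ.image t ∧ G.Adj (t r) v

theorem some_mem_enc3 {t : Fin 3 → V} {G : SimpleGraph V} {r : Fin 3} {v : V} :
    some v ∈ enc3 t G r ↔ v ∉ univ.image t ∧ G.Adj (t r) v := by
  classical
  unfold enc3; rw [mem_filter]; exact ⟨fun h => h.2, fun h => ⟨mem_univ _, h⟩⟩

theorem none_mem_enc3 {t : Fin 3 → V} {G : SimpleGraph V} {r : Fin 3} :
    none ∈ enc3 t G r ↔ ¬ G.Adj (t (r + 1)) (t (r + 2)) := by
  classical
  unfold enc3; rw [mem_filter]; exact ⟨fun h => h.2, fun h => ⟨mem_univ _, h⟩⟩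

/-- The graph with matrix `M` at the triple `t`, agreeing with `G0` elsewhere. -/
def dec3 (t : Fin 3 → V) (G0 : SimpleGraph V) (M : Fin 3 → Finset (Option V)) : SimpleGraph V :=
  SimpleGraph.fromRel fun u v => (u ∉ univ.image t ∧ v ∉ univ.image t ∧ G0.Adj u v) ∨
    (∃ r, u = t r ∧ v ∉ univ.image t ∧ some v ∈ M r) ∨
    (∃ r, u = t (r + 1) ∧ v = t (r + 2) ∧ none ∉ M r)

omit [Fintype V] in
theorem mem_img (t : Fin 3 → V) (r : Fin 3) : t r ∈ univ.image t :=
  mem_image_of_mem t (mem_univ r)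

omit [Fintype V] in
theorem dec3_out {t : Fin 3 → V} {G0 : SimpleGraph V} {M : Fin 3 → Finset (Option V)} {u v : V}
    (hu : u ∉ univ.image t) (hv : v ∉ univ.image t) : (dec3 t G0 M).Adj u v ↔ G0.Adj u v := by
  unfold dec3; rw [SimpleGraph.fromRel_adj]
  constructor
  · rintro ⟨_, h | h⟩
    · rcases h with h | ⟨r, rfl, _⟩ | ⟨r, rfl, _⟩
      · exact h.2.2
      · exact absurd (mem_img t _) hu
      · exact absurd (mem_img t _) hu
    · rcases h with h | ⟨r, rfl, _⟩ | ⟨r, rfl, _⟩
      · exact h.2.2.symm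
      · exact absurd (mem_img t _) hv
      · exact absurd (mem_img t _) hv
  · intro h; exact ⟨h.ne, Or.inl (Or.inl ⟨hu, hv, h⟩)⟩

omit [Fintype V] in
theorem dec3_cross {t : Fin 3 → V} (ht : Function.Injective t) {G0 : SimpleGraph V}
    {M : Fin 3 → Finset (Option V)} {r : Fin 3} {v : V} (hv : v ∉ univ.image t) :
    (dec3 t G0 M).Adj (t r) v ↔ some v ∈ M r := by
  unfold dec3; rw [SimpleGraph.fromRel_adj]
  constructor
  · rintro ⟨_, h | h⟩
    · rcases h with h | ⟨s, h1, _, h2⟩ | ⟨s, _, rfl, _⟩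
      · exact absurd (mem_img t _) h.1
      · rw [ht h1]; exact h2
      · exact absurd (mem_img t _) hv
    · rcases h with h | ⟨s, rfl, _⟩ | ⟨s, rfl, _⟩
      · exact absurd (mem_img t _) h.2.1
      · exact absurd (mem_img t _) hv
      · exact absurd (mem_img t _) hv
  · intro h
    exact ⟨fun h' => hv (h' ▸ mem_img t r), Or.inl (Or.inr (Or.inl ⟨r, rfl, hv, h⟩))⟩

omit [Fintype V] in
theorem dec3_in {t : Fin 3 → V} (ht : Function.Injective t) {G0 : SimpleGraph V}
    {M : Fin 3 → Finset (Option V)} {r : Fin 3} :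
    (dec3 t G0 M).Adj (t (r + 1)) (t (r + 2)) ↔ none ∉ M r := by
  unfold dec3; rw [SimpleGraph.fromRel_adj]
  constructor
  · rintro ⟨_, h | h⟩
    · rcases h with h | ⟨s, _, h, _⟩ | ⟨s, h1, _, h2⟩
      · exact absurd (mem_img t _) h.1
      · exact absurd (mem_img t _) h
      · rw [add_right_cancel (ht h1)]; exact h2
    · rcases h with h | ⟨s, _, h, _⟩ | ⟨s, h1, h2, _⟩
      · exact absurd (mem_img t _) h.1
      · exact absurd (mem_img t _) h
      · exfalso
        have a := ht h1
        have b := ht h2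
        clear * - a b
        revert r s; decide
  · intro h
    refine ⟨fun h' => ?_, Or.inl (Or.inr (Or.inr ⟨r, rfl, rfl, h⟩))⟩
    have a := ht h'
    clear * - a
    revert r; decide

omit [Fintype V] in
theorem graph_ext3 {t : Fin 3 → V} {G H : SimpleGraph V}
    (h1 : ∀ u ∉ univ.image t, ∀ v ∉ univ.image t, (G.Adj u v ↔ H.Adj u v))
    (h2 : ∀ r, ∀ v ∉ univ.image t, (G.Adj (t r) v ↔ H.Adj (t r) v))
    (h3 : ∀ r, G.Adj (t (r + 1)) (t (r + 2)) ↔ H.Adj (t (r + 1)) (t (r + 2))) : G = H := by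
  ext u v
  by_cases hu : u ∈ univ.image t <;> by_cases hv : v ∈ univ.image t
  · obtain ⟨a, -, rfl⟩ := mem_image.1 hu
    obtain ⟨b, -, rfl⟩ := mem_image.1 hv
    have : a = b ∨ (∃ r, a = r + 1 ∧ b = r + 2) ∨ ∃ r, b = r + 1 ∧ a = r + 2 := by
      clear * -
      revert a b; decide
    rcases this with rfl | ⟨r, rfl, rfl⟩ | ⟨r, rfl, rfl⟩
    · simp
    · exact h3 r
    · rw [G.adj_comm, H.adj_comm]; exact h3 r
  · obtain ⟨a, -, rfl⟩ := mem_image.1 hu
    exact h2 a v hv
  · obtain ⟨a, -, rfl⟩ := mem_image.1 hv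
    rw [G.adj_comm, H.adj_comm]; exact h2 a u hu
  · exact h1 u hu v hv

theorem col_enc3_some {t : Fin 3 → V} (ht : Function.Injective t) (G : SimpleGraph V) {v : V}
    (hv : v ∉ univ.image t) : col (enc3 t G) (some v) = ∑ w ∈ univ.image t, ind G v w := by
  rw [sum_image fun a _ b _ h => ht h]
  unfold col
  rw [card_filter]
  refine sum_congr rfl fun r _ => ?_
  rw [ind_comm]
  by_cases h : G.Adj (t r) v
  · rw [ind_pos h, if_pos (some_mem_enc3.2 ⟨hv, h⟩)]
  · rw [ind_neg h, if_neg fun h' => h (some_mem_enc3.1 h').2]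

theorem col_enc3_in {t : Fin 3 → V} (G : SimpleGraph V) {v : V}
    (hv : v ∈ univ.image t) : col (enc3 t G) (some v) = 0 := by
  unfold col
  rw [card_eq_zero, filter_eq_empty_iff]
  exact fun r _ h => (some_mem_enc3.1 h).1 hv

theorem ite_none {t : Fin 3 → V} (G : SimpleGraph V) (r : Fin 3) :
    (if none ∈ enc3 t G r then 1 else 0) + ind G (t (r + 1)) (t (r + 2)) = 1 := by
  by_cases h : G.Adj (t (r + 1)) (t (r + 2))
  · rw [ind_pos h, if_neg fun h' => none_mem_enc3.1 h' h]
  · rw [ind_neg h, if_pos (none_mem_enc3.2 h)]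

theorem col_enc3_none {t : Fin 3 → V} (G : SimpleGraph V) :
    col (enc3 t G) none + (ind G (t 0) (t 1) + ind G (t 0) (t 2) + ind G (t 1) (t 2)) = 3 := by
  rw [col_eq]
  have h0 := ite_none (t := t) G 0
  have h1 := ite_none (t := t) G 1
  have h2 := ite_none (t := t) G 2
  change _ + ind G (t 1) (t 2) = 1 at h0
  change _ + ind G (t 2) (t 0) = 1 at h1
  change _ + ind G (t 0) (t 1) = 1 at h2
  rw [ind_comm G (t 2)] at h1
  omega

theorem card_enc3 {t : Fin 3 → V} (G : SimpleGraph V) (r : Fin 3) :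
    (enc3 t G r).card = (if none ∈ enc3 t G r then 1 else 0) +
      ∑ w ∈ (univ.image t)ᶜ, ind G (t r) w := by
  have : (enc3 t G r).card = ∑ o, if o ∈ enc3 t G r then 1 else 0 := by simp
  rw [this, Fintype.sum_option]
  congr 1
  rw [← sum_add_sum_compl (univ.image t), sum_eq_zero, zero_add]
  · refine sum_congr rfl fun w hw => ?_
    by_cases h : G.Adj (t r) w
    · rw [ind_pos h, if_pos (some_mem_enc3.2 ⟨mem_compl.1 hw, h⟩)]
    · rw [ind_neg h, if_neg fun h' => h (some_mem_enc3.1 h').2]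
  · exact fun w hw => if_neg fun h' => (some_mem_enc3.1 h').1 hw

theorem deg_enc3 {t : Fin 3 → V} (ht : Function.Injective t) (G : SimpleGraph V) (r : Fin 3) :
    deg G (t r) + col (enc3 t G) none = (enc3 t G r).card + 2 := by
  have h1 := col_enc3_none (t := t) G
  have h2 := card_enc3 (t := t) G r
  have h3 := deg_split (univ.image t) G (t r)
  have h4 := ite_none (t := t) G r
  rw [sum_image fun a _ b _ h => ht h, Fin.sum_univ_three] at h3
  have e0 := ind_self G (t r)
  have e1 := ind_comm G (t 1) (t 0)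
  have e2 := ind_comm G (t 2) (t 0)
  have e3 := ind_comm G (t 2) (t 1)
  obtain rfl | rfl | rfl : r = 0 ∨ r = 1 ∨ r = 2 := by clear * -; revert r; decide
  · change _ + ind G (t 1) (t 2) = 1 at h4
    omega
  · change _ + ind G (t 2) (t 0) = 1 at h4
    omega
  · change _ + ind G (t 0) (t 1) = 1 at h4
    omega

theorem enc3_dec3 {t : Fin 3 → V} (ht : Function.Injective t) {G0 : SimpleGraph V}
    {M : Fin 3 → Finset (Option V)} (hM : ∀ v, col M v = col (enc3 t G0) v) :
    enc3 t (dec3 t G0 M) = M := by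
  funext r
  ext o
  cases o with
  | none => rw [none_mem_enc3, dec3_in ht, not_not]
  | some v =>
    rw [some_mem_enc3]
    by_cases hv : v ∈ univ.image t
    · have h := (hM (some v)).trans (col_enc3_in G0 hv)
      unfold col at h
      rw [card_eq_zero, filter_eq_empty_iff] at h
      exact iff_of_false (fun h' => h'.1 hv) (h (mem_univ r))
    · rw [dec3_cross ht hv]; exact ⟨fun h => h.2, fun h => ⟨hv, h⟩⟩

theorem triple_bij {d : V → ℕ} {t : Fin 3 → V} (ht : Function.Injective t) {G0 : SimpleGraph V}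
    (h0 : G0 ∈ Om d) :
    Set.BijOn (dec3 t G0) (rows3 (fun r => (enc3 t G0 r).card) (col (enc3 t G0)))
      (cls (Om d) (outK (univ.image t)) G0) := by
  refine ⟨fun M hM => ?_, fun M hM M' hM' h => ?_, fun G hG => ?_⟩
  · obtain ⟨h1, h2⟩ := mem_rows3.1 (mem_coe.1 hM)
    have he := enc3_dec3 ht h2
    refine mem_coe.2 (mem_cls.2 ⟨mem_Om.2 fun v => ?_,
      outK_eq_iff.2 fun u hu v hv => dec3_out hu hv⟩)
    rw [← mem_Om.1 h0 v]
    by_cases hv : v ∈ univ.image t
    · obtain ⟨r, -, rfl⟩ := mem_image.1 hv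
      have a := deg_enc3 ht (dec3 t G0 M) r
      have b := deg_enc3 ht G0 r
      rw [he, h1, h2] at a
      omega
    · rw [deg_split (univ.image t), deg_split (univ.image t), ← col_enc3_some ht _ hv,
        ← col_enc3_some ht _ hv, he, h2]
      congr 1
      exact sum_congr rfl fun w hw => ind_congr (dec3_out hv (mem_compl.1 hw))
  · rw [← enc3_dec3 ht (mem_rows3.1 (mem_coe.1 hM)).2,
      ← enc3_dec3 ht (mem_rows3.1 (mem_coe.1 hM')).2, h]
  · obtain ⟨h1, h2⟩ := mem_cls.1 (mem_coe.1 hG)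
    have hnone : col (enc3 t G) none = col (enc3 t G0) none := by
      have a := sum_inside_eq h1 h0 h2
      simp only [sum_image fun a _ b _ h => ht h, Fin.sum_univ_three, ind_self,
        ind_comm _ (t 1) (t 0), ind_comm _ (t 2) (t 0), ind_comm _ (t 2) (t 1)] at a
      have b := col_enc3_none (t := t) G
      have c := col_enc3_none (t := t) G0
      omega
    refine ⟨enc3 t G, mem_coe.2 (mem_rows3.2 ⟨fun r => ?_, fun o => ?_⟩), ?_⟩
    · have a := deg_enc3 ht G r
      have b := deg_enc3 ht G0 r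
      rw [mem_Om.1 h1] at a
      rw [mem_Om.1 h0] at b
      omega
    · cases o with
      | none => exact hnone
      | some v =>
        by_cases hv : v ∈ univ.image t
        · rw [col_enc3_in _ hv, col_enc3_in _ hv]
        · rw [col_enc3_some ht _ hv, col_enc3_some ht _ hv, sum_in_eq h1 h0 h2 hv]
    · refine graph_ext3 (t := t) (fun u hu v hv => ?_) (fun r v hv => ?_) fun r => ?_
      · rw [dec3_out hu hv]; exact (outK_eq_iff.1 h2 u hu v hv).symm
      · rw [dec3_cross ht hv, some_mem_enc3]; exact ⟨fun h => h.2, fun h => ⟨hv, h⟩⟩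
      · rw [dec3_in ht, none_mem_enc3, not_not]

theorem triple_key {d : V → ℕ} {t : Fin 3 → V} (ht : Function.Injective t) {G0 : SimpleGraph V}
    (h0 : G0 ∈ Om d) (r : Fin 3) :
    ∀ M ∈ rows3 (fun r => (enc3 t G0 r).card) (col (enc3 t G0)),
      ∀ M' ∈ rows3 (fun r => (enc3 t G0 r).card) (col (enc3 t G0)), M r = M' r ↔
        outK {t (r + 1), t (r + 2)} (dec3 t G0 M) = outK {t (r + 1), t (r + 2)} (dec3 t G0 M') := by
  intro M hM M' hM'
  have hcase : ∀ u, u ∉ ({t (r + 1), t (r + 2)} : Finset V) → u ∈ univ.image t → u = t r := by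
    intro u hu hu'
    obtain ⟨a, -, rfl⟩ := mem_image.1 hu'
    have : a = r ∨ a = r + 1 ∨ a = r + 2 := by clear * -; revert a r; decide
    rcases this with rfl | rfl | rfl
    · rfl
    · exact absurd (by simp) hu
    · exact absurd (by simp) hu
  have hne : t (r + 1) ≠ t (r + 2) := fun h => by
    have a := ht h
    clear * - a
    revert r; decide
  have hr : t r ∉ ({t (r + 1), t (r + 2)} : Finset V) := by
    simp only [mem_insert, mem_singleton, ht.eq_iff]
    clear * -
    revert r; decide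
  constructor
  · intro h
    refine outK_eq_iff.2 fun u hu v hv => ?_
    by_cases h1 : u ∈ univ.image t <;> by_cases h2 : v ∈ univ.image t
    · rw [hcase u hu h1, hcase v hv h2]; simp
    · rw [hcase u hu h1, dec3_cross ht h2, dec3_cross ht h2, h]
    · rw [hcase v hv h2, SimpleGraph.adj_comm, (dec3 t G0 M').adj_comm, dec3_cross ht h1,
        dec3_cross ht h1, h]
    · rw [dec3_out h1 h2, dec3_out h1 h2]
  · intro h
    have a := (mem_cls.1 ((triple_bij ht h0).mapsTo hM)).1
    have b := (mem_cls.1 ((triple_bij ht h0).mapsTo hM')).1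
    rw [← enc3_dec3 ht (mem_rows3.1 hM).2, ← enc3_dec3 ht (mem_rows3.1 hM').2]
    ext o
    cases o with
    | none => rw [none_mem_enc3, none_mem_enc3, adj_iff_of_ind (pair_edge hne a b h)]
    | some v =>
      rw [some_mem_enc3, some_mem_enc3]
      refine and_congr_right fun hv => outK_eq_iff.1 h _ hr v fun hv' => hv ?_
      simp only [mem_insert, mem_singleton] at hv'
      rcases hv' with rfl | rfl <;> exact mem_img t _

theorem triple_ineq {d : V → ℕ} {i j k : V} (hij : i ≠ j) (hik : i ≠ k) (hjk : j ≠ k)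
    (f : SimpleGraph V → ℝ) :
    0 ≤ ip (Om d) (cH (Om d) (outK {j, k}) f) (cH (Om d) (outK {k, i}) f)
      + ip (Om d) (cH (Om d) (outK {j, k}) f) (cH (Om d) (outK {i, j}) f)
      + ip (Om d) (cH (Om d) (outK {k, i}) f) (cH (Om d) (outK {i, j}) f) := by
  set t : Fin 3 → V := ![i, j, k] with htdef
  have ht : Function.Injective t := by
    intro a b h
    fin_cases a <;> fin_cases b <;> simp_all
  unfold ip
  rw [← sum_add_distrib, ← sum_add_distrib, ← sum_const_zero (s := Om d)]
  refine sum_le_of_cls (outK (univ.image t)) fun G0 h0 => ?_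
  have hb := triple_bij ht h0
  have key := threeRow (fun r => (enc3 t G0 r).card) (col (enc3 t G0)) fun M => f (dec3 t G0 M)
  have tr : ∀ r : Fin 3, ∀ M ∈ rows3 (fun r => (enc3 t G0 r).card) (col (enc3 t G0)),
      cH (rows3 (fun r => (enc3 t G0 r).card) (col (enc3 t G0))) (fun M => M r)
        (fun M => f (dec3 t G0 M)) M =
      cH (Om d) (outK {t (r + 1), t (r + 2)}) f (dec3 t G0 M) := by
    intro r M hM
    unfold cH
    rw [cE_bij (dec3 t G0) hb (triple_key ht h0 r) f hM, cE_restrict _ f (hb.mapsTo hM)]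
    intro x _ y _ h
    refine outK_mono (fun u hu => ?_) h
    simp only [mem_insert, mem_singleton] at hu
    rcases hu with rfl | rfl <;> exact mem_img t _
  rw [ip_congr (tr 0) (tr 1), ip_congr (tr 0) (tr 2), ip_congr (tr 1) (tr 2)] at key
  unfold ip at key
  rw [← sum_add_distrib, ← sum_add_distrib] at key
  rw [sum_const_zero]
  refine key.trans (le_of_eq ?_)
  exact sum_nbij (dec3 t G0) (fun _ hx => hb.mapsTo hx) hb.injOn hb.surjOn fun _ _ => rfl

end Vale.Agent.P335
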