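import Vale.Agent.P335.Disj
import Vale.Agent.P335.Triple
import Vale.Agent.P335.Connect

/-! The Bochner inequality for the sum of the pair projections and the Poincaré inequality. -/

namespace Vale.Agent.P335

open Finset

variable {V : Type*} [Fintype V] [DecidableEq V]

/-- The pair projection, zero on the diagonal. -/
noncomputable def hop (d : V → ℕ) (u v : V) (f : SimpleGraph V → ℝ) (G : SimpleGraph V) : ℝ :=
  if u = v then 0 else cH (Om d) (outK {u, v}) f G

/-- The sum of all pair projections. -/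
noncomputable def hsum (d : V → ℕ) (f : SimpleGraph V → ℝ) (G : SimpleGraph V) : ℝ :=
  ∑ u, ∑ v, hop d u v f G

theorem hop_comm (d : V → ℕ) (u v : V) (f : SimpleGraph V → ℝ) : hop d u v f = hop d v u f := by
  funext G; unfold hop; rw [pair_comm]; exact if_congr eq_comm rfl rfl

theorem hop_self (d : V → ℕ) (u : V) (f : SimpleGraph V → ℝ) : hop d u u f = fun _ => 0 := by
  funext G; unfold hop; rw [if_pos rfl]

theorem hop_of_ne (d : V → ℕ) {u v : V} (h : u ≠ v) (f : SimpleGraph V → ℝ) :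
    hop d u v f = cH (Om d) (outK {u, v}) f := by
  funext G; unfold hop; rw [if_neg h]

theorem sum_split2 {u v : V} (h : u ≠ v) (φ : V → ℝ) :
    ∑ k, φ k = φ u + φ v + ∑ k, if k ≠ u ∧ k ≠ v then φ k else 0 := by
  have : ∀ k, φ k = (if k = u then φ k else 0) + (if k = v then φ k else 0) +
      if k ≠ u ∧ k ≠ v then φ k else 0 := by
    intro k
    by_cases h1 : k = u
    · subst h1; simp [h]
    by_cases h2 : k = v
    · subst h2; simp [h1]
    · simp [h1, h2]
  rw [sum_congr rfl fun k _ => this k, sum_add_distrib, sum_add_distrib]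
  simp

omit [DecidableEq V] in
theorem sum4_swap (φ : V → V → V → V → ℝ) :
    ∑ u, ∑ v, ∑ k, ∑ l, φ k l u v = ∑ u, ∑ v, ∑ k, ∑ l, φ u v k l := by
  have h := sum_comm (s := (univ : Finset (V × V))) (t := (univ : Finset (V × V)))
    (f := fun p q => φ q.1 q.2 p.1 p.2)
  simpa only [Fintype.sum_prod_type] using h

theorem ip_hop_symm (d : V → ℕ) (u v : V) (f g : SimpleGraph V → ℝ) :
    ip (Om d) (hop d u v f) g = ip (Om d) f (hop d u v g) := by
  by_cases h : u = v
  · subst h; rw [hop_self, hop_self]; simp [ip]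
  · rw [hop_of_ne d h, hop_of_ne d h, ip_cH_symm]

theorem ip_hop_hop (d : V → ℕ) (u v : V) (f : SimpleGraph V → ℝ) :
    ip (Om d) (hop d u v f) (hop d u v f) = ip (Om d) f (hop d u v f) := by
  by_cases h : u = v
  · subst h; rw [hop_self]; simp [ip]
  · rw [hop_of_ne d h, ip_cH_cH]

theorem ip_hsum (d : V → ℕ) (f : SimpleGraph V → ℝ) : ip (Om d) f (hsum d f) =
    ∑ u, ∑ v, ip (Om d) (hop d u v f) (hop d u v f) := by
  unfold hsum
  rw [ip_sum_right]
  refine sum_congr rfl fun u _ => ?_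
  rw [ip_sum_right]
  exact sum_congr rfl fun v _ => (ip_hop_hop d u v f).symm

theorem bochner (d : V → ℕ) (f : SimpleGraph V → ℝ) :
    2 * ip (Om d) f (hsum d f) ≤ ip (Om d) (hsum d f) (hsum d f) := by
  classical
  set c : V → V → V → V → ℝ := fun u v k l => ip (Om d) (hop d u v f) (hop d k l f) with hc
  have c0 : ∀ u v k, c u v k k = 0 := fun u v k => by simp [hc, hop_self, ip]
  have c0' : ∀ u k l, c u u k l = 0 := fun u k l => by simp [hc, hop_self, ip]
  have c1 : ∀ u v k l, c u v k l = c v u k l := fun u v k l => by simp only [hc, hop_comm d u v]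
  have c2 : ∀ u v k l, c u v k l = c u v l k := fun u v k l => by simp only [hc, hop_comm d k l]
  set a : V → V → V → ℝ := fun u v w => if u ≠ v ∧ w ≠ u ∧ w ≠ v then c u v u w else 0 with ha
  set b : V → V → V → V → ℝ := fun u v k l => if Dist4 u v k l then c u v k l else 0 with hb
  have hsplit : ∀ u v, ∑ k, ∑ l, c u v k l =
      2 * c u v u v + 2 * ∑ w, a u v w + 2 * ∑ w, a v u w + ∑ k, ∑ l, b u v k l := by
    intro u v
    by_cases h : u = v
    · subst h; simp [ha, hb, c0', Dist4]
    have h' : v ≠ u := Ne.symm h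
    have e1 : ∑ w, a u v w = ∑ w, if w ≠ u ∧ w ≠ v then c u v u w else 0 :=
      sum_congr rfl fun w _ => by simp only [ha]; exact if_congr (by simp [h]) rfl rfl
    have e2 : ∑ w, a v u w = ∑ w, if w ≠ u ∧ w ≠ v then c u v v w else 0 :=
      sum_congr rfl fun w _ => by
        simp only [ha]; exact if_congr (by simp [h', and_comm]) (c1 _ _ _ _) rfl
    have e3 : ∑ k, (if k ≠ u ∧ k ≠ v then ∑ l, c u v k l else 0) =
        ∑ w, a u v w + ∑ w, a v u w + ∑ k, ∑ l, b u v k l := by
      rw [e1, e2, ← sum_add_distrib, ← sum_add_distrib]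
      refine sum_congr rfl fun k _ => ?_
      by_cases hk : k ≠ u ∧ k ≠ v
      · rw [if_pos hk, if_pos hk, if_pos hk, sum_split2 h, c2 u v k u, c2 u v k v]
        congr 1
        refine sum_congr rfl fun l _ => ?_
        simp only [hb]
        by_cases hkl : k = l
        · subst hkl; simp [c0]
        · exact if_congr ⟨fun hl => ⟨h, hk.1.symm, hl.1.symm, hk.2.symm, hl.2.symm, hkl⟩,
            fun hd => ⟨hd.2.2.1.symm, hd.2.2.2.2.1.symm⟩⟩ rfl rfl
      · rw [if_neg hk, if_neg hk, if_neg hk, sum_eq_zero, add_zero, add_zero]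
        intro l _
        simp only [hb]
        exact if_neg fun hd => hk ⟨hd.2.1.symm, hd.2.2.2.1.symm⟩
    rw [sum_split2 h, e3, sum_split2 h fun l => c u v u l, sum_split2 h fun l => c u v v l,
      ← e1, ← e2, c0, c0, c2 u v v u]
    ring
  have hO : 0 ≤ ∑ u, ∑ v, ∑ w, a u v w := by
    have p1 : ∑ i, ∑ j, ∑ k, a k j i = ∑ u, ∑ v, ∑ w, a u v w := by
      rw [sum_comm]
      rw [sum_congr rfl fun j _ => sum_comm, sum_comm]
    have p2 : ∑ i, ∑ j, ∑ k, a j k i = ∑ u, ∑ v, ∑ w, a u v w := by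
      rw [sum_comm]
      exact sum_congr rfl fun j _ => sum_comm
    have p3 : ∑ i, ∑ j, ∑ k, a i k j = ∑ u, ∑ v, ∑ w, a u v w :=
      sum_congr rfl fun i _ => sum_comm
    have p : 0 ≤ ∑ i, ∑ j, ∑ k, (a k j i + a j k i + a i k j) := by
      refine sum_nonneg fun i _ => sum_nonneg fun j _ => sum_nonneg fun k _ => ?_
      by_cases h : i ≠ j ∧ i ≠ k ∧ j ≠ k
      · obtain ⟨h1, h2, h3⟩ := h
        simp only [ha]
        rw [if_pos ⟨h3.symm, h2, h1⟩, if_pos ⟨h3, h1, h2⟩, if_pos ⟨h2, h1.symm, h3⟩, c1 k j,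
          c2 j k j i, c1 i k]
        simp only [hc]
        rw [hop_of_ne d h1, hop_of_ne d h2.symm, hop_of_ne d h3]
        exact triple_ineq h1 h2 h3 f
      · simp only [ha]
        rw [if_neg fun h' => h ⟨h'.2.2, h'.2.1, h'.1.symm⟩,
          if_neg fun h' => h ⟨h'.2.1, h'.2.2, h'.1⟩,
          if_neg fun h' => h ⟨h'.2.1.symm, h'.1, h'.2.2⟩]
        simp
    simp only [sum_add_distrib] at p
    linarith
  have hD : 0 ≤ ∑ u, ∑ v, ∑ k, ∑ l, b u v k l := by
    have q1 : ∑ u, ∑ v, ∑ k, ∑ l, swT d f k l u v = ∑ u, ∑ v, ∑ k, ∑ l, swT d f u v k l := by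
      exact sum4_swap fun u v k l => swT d f u v k l
    have q2 : ∑ u, ∑ v, 4 * ∑ k, ∑ l, swT d f u v k l ≤ ∑ u, ∑ v, ∑ k, ∑ l, swE d f u v k l := by
      refine sum_le_sum fun u _ => sum_le_sum fun v _ => ?_
      by_cases h : u = v
      · subst h; simp [swT, swE, Dist4]
      · exact pair_T h f
    have q3 : ∑ u, ∑ v, ∑ k, ∑ l,
        (swE d f u v k l / 4 - swT d f u v k l / 2 - swT d f k l u v / 2) ≤
        ∑ u, ∑ v, ∑ k, ∑ l, b u v k l := by
      refine sum_le_sum fun u _ => sum_le_sum fun v _ => sum_le_sum fun k _ =>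
        sum_le_sum fun l _ => ?_
      simp only [hb]
      by_cases hd : Dist4 u v k l
      · rw [if_pos hd]
        simp only [hc]
        rw [hop_of_ne d hd.1, hop_of_ne d hd.2.2.2.2.2]
        exact disj_ineq hd f
      · have hd' : ¬ Dist4 k l u v := fun h => hd h.swap
        simp [swE, swT, hd, hd']
    simp only [sum_sub_distrib, ← sum_div, ← mul_sum] at q2 q3
    linarith
  have hH : ip (Om d) (hsum d f) (hsum d f) = ∑ u, ∑ v, ∑ k, ∑ l, c u v k l := by
    unfold hsum
    rw [ip_sum_left]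
    refine sum_congr rfl fun u _ => ?_
    rw [ip_sum_left]
    refine sum_congr rfl fun v _ => ?_
    rw [ip_sum_right]
    refine sum_congr rfl fun k _ => ?_
    rw [ip_sum_right]
  have hswap : ∑ u, ∑ v, ∑ w, a v u w = ∑ u, ∑ v, ∑ w, a u v w := sum_comm
  rw [hH, ip_hsum]
  simp only [hsplit, sum_add_distrib, ← mul_sum]
  linarith

theorem hsum_gap (d : V → ℕ) (f : SimpleGraph V → ℝ) :
    2 * ip (Om d) f (cH (Om d) (fun _ => ()) f) ≤ ip (Om d) f (hsum d f) := by
  have hop_add : ∀ u v (f g : SimpleGraph V → ℝ) G,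
      hop d u v (fun y => f y + g y) G = hop d u v f G + hop d u v g G := by
    intro u v f g G; unfold hop cH; rw [cE_add]; split_ifs <;> ring
  have hop_mul : ∀ u v (c : ℝ) (f : SimpleGraph V → ℝ) G,
      hop d u v (fun y => c * f y) G = c * hop d u v f G := by
    intro u v c f G; unfold hop cH; rw [cE_mul]; split_ifs <;> ring
  have hop_loc : ∀ u v (f g : SimpleGraph V → ℝ), (∀ x ∈ Om d, f x = g x) → ∀ x ∈ Om d,
      hop d u v f x = hop d u v g x := by
    intro u v f g h x hx; unfold hop; rw [cH_congr h hx]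
  have hsym : ∀ f g, ip (Om d) (hsum d f) g = ip (Om d) f (hsum d g) := by
    intro f g
    unfold hsum
    rw [ip_sum_left, ip_sum_right]
    refine sum_congr rfl fun u _ => ?_
    rw [ip_sum_left, ip_sum_right]
    exact sum_congr rfl fun v _ => ip_hop_symm d u v f g
  have key := spectral_quad (Om d) (fun f G => hsum d f G - 2 * cH (Om d) (fun _ => ()) f G)
    (fun f g x _ => by
      simp only [hsum, hop_add, sum_add_distrib, cH, cE_add]; ring)
    (fun c f x _ => by
      simp only [hsum, hop_mul, ← mul_sum, cH, cE_mul]; ring)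
    (fun f g h x hx => by
      simp only [hsum]
      rw [cH_congr h hx, sum_congr rfl fun u _ => sum_congr rfl fun v _ => hop_loc u v f g h x hx])
    (fun f g => by
      rw [ip_sub_left, ip_sub_right, ip_mul_left, ip_mul_right, hsym, ip_cH_symm])
    0 1 0 ?_ f
  · rw [zero_mul, zero_mul, zero_add, add_zero, one_mul, ip_sub_right, ip_mul_right] at key
    linarith
  intro μ w ⟨x0, hx0, hw0⟩ heig
  simp only [zero_mul, one_mul, zero_add, add_zero]
  by_contra hμ
  push Not at hμ
  have hone : ∀ x ∈ Om d, hsum d (fun _ => 1) x = 0 := by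
    intro x hx
    refine sum_eq_zero fun u _ => sum_eq_zero fun v _ => ?_
    unfold hop cH
    rw [cE_of_inv hx fun _ _ _ => rfl]; simp
  have hmean : ip (Om d) w (fun _ => 1) = 0 := by
    have h1 : ip (Om d) (fun x => μ * w x) (fun _ => 1) = 0 := by
      rw [← ip_congr heig fun _ _ => rfl, ip_sub_left, ip_mul_left, hsym, ip_zero_right hone,
        ip_cH_symm, ip_zero_right, mul_zero, sub_zero]
      intro x hx
      unfold cH
      rw [cE_of_inv hx fun _ _ _ => rfl, sub_self]
    rw [ip_mul_left] at h1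
    exact (mul_eq_zero.1 h1).resolve_left hμ.ne
  have hE : ∀ x, cE (Om d) (fun _ => ()) w x = 0 := by
    intro x
    unfold cE avg
    have : cls (Om d) (fun _ => ()) x = Om d := by ext y; simp [mem_cls]
    rw [this]
    simp only [ip, mul_one] at hmean
    rw [hmean, zero_div]
  have hw : ∀ x ∈ Om d, hsum d w x = (μ + 2) * w x := by
    intro x hx
    have := heig x hx
    simp only [cH, hE] at this
    linarith
  have hpos : 0 < ip (Om d) w w :=
    sum_pos' (fun _ _ => mul_self_nonneg _) ⟨x0, hx0, mul_self_pos.2 hw0⟩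
  have hb := bochner d w
  have hn : 0 ≤ ip (Om d) w (hsum d w) := by
    rw [ip_hsum]; exact sum_nonneg fun _ _ => sum_nonneg fun _ _ => ip_self_nonneg _ _
  have e1 : ip (Om d) w (hsum d w) = (μ + 2) * ip (Om d) w w := by
    rw [ip_congr (fun _ _ => rfl) hw, ip_mul_right]
  have e2 : ip (Om d) (hsum d w) (hsum d w) = (μ + 2) * ((μ + 2) * ip (Om d) w w) := by
    rw [ip_congr hw hw, ip_mul_left, ip_mul_right]
  have hz : ip (Om d) w (hsum d w) = 0 := by
    rw [e2, ← e1] at hb
    nlinarith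
  rw [ip_hsum] at hz
  have hconst := const_of_sw d w fun i j k l hd G hG => by
    have h1 := (sum_eq_zero_iff_of_nonneg fun _ _ => ip_self_nonneg _ _).1
      ((sum_eq_zero_iff_of_nonneg fun _ _ => sum_nonneg fun _ _ => ip_self_nonneg _ _).1 hz i
        (mem_univ _)) j (mem_univ _)
    rw [hop_of_ne d hd.1] at h1
    have h2 := (sum_eq_zero_iff_of_nonneg fun _ _ => mul_self_nonneg _).1 h1
    have h3 := mul_self_eq_zero.1 (h2 G hG)
    have h4 := mul_self_eq_zero.1 (h2 _ (sw_mem hd hG))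
    unfold cH at h3 h4
    rw [cE_key w (outK_sw hd G).1] at h4
    linarith
  have := cE_of_inv (k := fun _ => ()) hx0 fun y hy _ => hconst y hy x0 hx0
  exact hw0 (this.symm.trans (hE x0))

theorem poincare (d : V → ℕ) : Poincare d := by
  classical
  intro f hf
  have h1 := hsum_gap d f
  have h2 : ip (Om d) f (cH (Om d) (fun _ => ()) f) = ∑ G ∈ Om d, f G ^ 2 := by
    refine sum_congr rfl fun x _ => ?_
    unfold cH cE avg
    have : cls (Om d) (fun _ => ()) x = Om d := by ext y; simp [mem_cls]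
    rw [this, hf, zero_div, sub_zero, sq]
  have h3 : ∑ u, ∑ v, 8 * ip (Om d) (hop d u v f) (hop d u v f) ≤
      ∑ u, ∑ v, ∑ k, ∑ l, swE d f u v k l := by
    refine sum_le_sum fun u _ => sum_le_sum fun v _ => ?_
    by_cases h : u = v
    · subst h; simp [hop_self, ip, swE, Dist4]
    · rw [hop_of_ne d h]; exact pair_gap h f
  have h4 : ∑ q ∈ quads V, ∑ G ∈ Om d, (f G - f (sw q.1 q.2.1 q.2.2.1 q.2.2.2 G)) ^ 2 =
      ∑ u, ∑ v, ∑ k, ∑ l, swE d f u v k l := by
    unfold quads
    rw [sum_filter]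
    simp only [Fintype.sum_prod_type]
    rfl
  rw [ip_hsum, h2] at h1
  simp only [← mul_sum] at h3
  linarith

end Vale.Agent.P335
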