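import Mathlib

/-! Lazy symmetric chains: a Poincaré inequality gives an `L²` contraction. -/

namespace Vale.Agent.P335

open Finset

variable {Ω : Type} [Fintype Ω] [DecidableEq Ω]

theorem ch_contract (P Q : Matrix Ω Ω ℝ) (γ : ℝ)
    (hP : ∀ x y, P x y = (1 / 2) * (if x = y then 1 else 0) + (1 / 2) * Q x y)
    (hs : ∀ x y, Q x y = Q y x) (h0 : ∀ x y, 0 ≤ Q x y) (h1 : ∀ x, ∑ y, Q x y = 1)
    (f : Ω → ℝ) (hf : γ * ∑ x, f x ^ 2 ≤ (1 / 4) * ∑ x, ∑ y, Q x y * (f x - f y) ^ 2) :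
    ∑ x, (∑ y, P x y * f y) ^ 2 ≤ (1 - γ) * ∑ x, f x ^ 2 := by
  have h1' : ∀ y, ∑ x, Q x y = 1 := fun y => by simp only [fun x => hs x y, h1]
  have e1 : ∀ x, ∑ y, P x y * f y = (1 / 2) * (f x + ∑ y, Q x y * f y) := by
    intro x
    simp only [hP, add_mul, sum_add_distrib, mul_assoc, ← mul_sum, ite_mul, one_mul, zero_mul,
      sum_ite_eq, mem_univ, if_true]
    ring
  have e2 : ∑ x, ∑ y, Q x y * f y ^ 2 = ∑ x, f x ^ 2 := by
    rw [sum_comm]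
    simp only [← sum_mul, h1', one_mul]
  have e3 : ∀ x, (∑ y, Q x y * f y) ^ 2 ≤ ∑ y, Q x y * f y ^ 2 := by
    intro x
    obtain ⟨m, hm⟩ : ∃ m, m = ∑ y, Q x y * f y := ⟨_, rfl⟩
    rw [← hm]
    have a1 : 0 ≤ ∑ y, Q x y * (f y - m) ^ 2 := sum_nonneg fun y _ => mul_nonneg (h0 x y) (sq_nonneg _)
    have a2 : ∑ y, Q x y * (f y - m) ^ 2 =
        ∑ y, Q x y * f y ^ 2 - 2 * m * ∑ y, Q x y * f y + m ^ 2 * ∑ y, Q x y := by
      rw [mul_sum, mul_sum, ← sum_sub_distrib, ← sum_add_distrib]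
      exact sum_congr rfl fun y _ => by ring
    rw [a2, h1, ← hm] at a1
    linarith
  have e4 : ∑ x, ∑ y, Q x y * (f x - f y) ^ 2 =
      2 * ∑ x, f x ^ 2 - 2 * ∑ x, f x * ∑ y, Q x y * f y := by
    have : ∀ x, ∑ y, Q x y * (f x - f y) ^ 2 =
        f x ^ 2 + ∑ y, Q x y * f y ^ 2 - 2 * (f x * ∑ y, Q x y * f y) := by
      intro x
      have : f x ^ 2 = ∑ y, Q x y * f x ^ 2 := by rw [← sum_mul, h1, one_mul]
      rw [this, mul_sum, mul_sum, ← sum_add_distrib, ← sum_sub_distrib]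
      exact sum_congr rfl fun y _ => by ring
    simp only [this, sum_sub_distrib, sum_add_distrib, e2, ← mul_sum]
    ring
  have e5 : ∑ x, (∑ y, P x y * f y) ^ 2 = (1 / 4) * (∑ x, f x ^ 2 +
      2 * ∑ x, f x * ∑ y, Q x y * f y + ∑ x, (∑ y, Q x y * f y) ^ 2) := by
    rw [mul_sum, ← sum_add_distrib, ← sum_add_distrib, mul_sum]
    exact sum_congr rfl fun x _ => by rw [e1]; ring
  have e6 : ∑ x, (∑ y, Q x y * f y) ^ 2 ≤ ∑ x, f x ^ 2 := e2 ▸ sum_le_sum fun x _ => e3 x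
  rw [e4] at hf
  rw [e5]
  linarith

theorem ch_l2 (P Q : Matrix Ω Ω ℝ) (γ : ℝ) (hγ : γ ≤ 1)
    (hP : ∀ x y, P x y = (1 / 2) * (if x = y then 1 else 0) + (1 / 2) * Q x y)
    (hs : ∀ x y, Q x y = Q y x) (h0 : ∀ x y, 0 ≤ Q x y) (h1 : ∀ x, ∑ y, Q x y = 1)
    (hf : ∀ f : Ω → ℝ, ∑ x, f x = 0 →
      γ * ∑ x, f x ^ 2 ≤ (1 / 4) * ∑ x, ∑ y, Q x y * (f x - f y) ^ 2) (x : Ω) (t : ℕ) :
    ∑ y, ((P ^ t) x y - 1 / (Fintype.card Ω : ℝ)) = 0 ∧
      ∑ y, ((P ^ t) x y - 1 / (Fintype.card Ω : ℝ)) ^ 2 ≤ (1 - γ) ^ t := by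
  have hN : (0 : ℝ) < Fintype.card Ω := by exact_mod_cast Fintype.card_pos_iff.2 ⟨x⟩
  have hN1 : (1 : ℝ) ≤ Fintype.card Ω := by exact_mod_cast Fintype.card_pos_iff.2 ⟨x⟩
  have hPs : ∀ x y, P x y = P y x := fun x y => by simp only [hP, hs x y, eq_comm]
  have hP1 : ∀ x, ∑ y, P x y = 1 := fun x => by
    simp only [hP, sum_add_distrib, ← mul_sum, h1, sum_ite_eq, mem_univ, if_true]
    norm_num
  induction t with
  | zero =>
    constructor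
    · simp only [pow_zero, Matrix.one_apply, sum_sub_distrib, sum_ite_eq, mem_univ, if_true,
        sum_const, card_univ, nsmul_eq_mul]
      field_simp
      ring
    · have : ∀ y, ((if x = y then (1 : ℝ) else 0) - 1 / (Fintype.card Ω : ℝ)) ^ 2 =
          (if x = y then (1 - 2 / (Fintype.card Ω : ℝ)) else 0) + (1 / (Fintype.card Ω : ℝ)) ^ 2 := by
        intro y
        split_ifs <;> ring
      simp only [pow_zero, Matrix.one_apply, this, sum_add_distrib, sum_ite_eq, mem_univ, if_true,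
        sum_const, card_univ, nsmul_eq_mul]
      have : (Fintype.card Ω : ℝ) * (1 / (Fintype.card Ω : ℝ)) ^ 2 = 1 / (Fintype.card Ω : ℝ) := by
        field_simp
      rw [this]
      have h3 : 0 < 1 / (Fintype.card Ω : ℝ) := by positivity
      have h4 : 2 / (Fintype.card Ω : ℝ) = 2 * (1 / (Fintype.card Ω : ℝ)) := by ring
      linarith
  | succ t ih =>
    have e1 : ∀ y, (P ^ (t + 1)) x y - 1 / (Fintype.card Ω : ℝ) =
        ∑ z, P y z * ((P ^ t) x z - 1 / (Fintype.card Ω : ℝ)) := by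
      intro y
      rw [pow_succ, Matrix.mul_apply]
      simp only [mul_sub, sum_sub_distrib, ← sum_mul, hP1, one_mul]
      congr 1
      exact sum_congr rfl fun z _ => by rw [hPs z y, mul_comm]
    simp only [e1]
    constructor
    · rw [sum_comm]
      simp only [← sum_mul, fun y z => hPs y z]
      simp only [hP1, one_mul]
      exact ih.1
    · refine (ch_contract P Q γ hP hs h0 h1 _ (hf _ ih.1)).trans ?_
      rw [pow_succ']
      exact mul_le_mul_of_nonneg_left ih.2 (by linarith)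

theorem ch_tv (P Q : Matrix Ω Ω ℝ) (γ : ℝ) (hγ : γ ≤ 1)
    (hP : ∀ x y, P x y = (1 / 2) * (if x = y then 1 else 0) + (1 / 2) * Q x y)
    (hs : ∀ x y, Q x y = Q y x) (h0 : ∀ x y, 0 ≤ Q x y) (h1 : ∀ x, ∑ y, Q x y = 1)
    (hf : ∀ f : Ω → ℝ, ∑ x, f x = 0 →
      γ * ∑ x, f x ^ 2 ≤ (1 / 4) * ∑ x, ∑ y, Q x y * (f x - f y) ^ 2) (x : Ω) (t : ℕ)
    (ht : (Fintype.card Ω : ℝ) * (1 - γ) ^ t ≤ 1 / 4) :
    (1 / 2) * ∑ y, |(P ^ t) x y - 1 / (Fintype.card Ω : ℝ)| ≤ 1 / 4 := by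
  have h2 := (ch_l2 P Q γ hγ hP hs h0 h1 hf x t).2
  have h3 := sq_sum_le_card_mul_sum_sq (s := (univ : Finset Ω))
    (f := fun y => |(P ^ t) x y - 1 / (Fintype.card Ω : ℝ)|)
  simp only [sq_abs, card_univ] at h3
  have h4 := mul_le_mul_of_nonneg_left h2 (show (0 : ℝ) ≤ Fintype.card Ω by positivity)
  have h5 : (∑ y, |(P ^ t) x y - 1 / (Fintype.card Ω : ℝ)|) ^ 2 ≤ (1 / 2) ^ 2 := by linarith
  have h6 := abs_le_of_sq_le_sq' h5 (by norm_num)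
  linarith [h6.2]

theorem ch_numeric (n N : ℕ) (hn : 4 ≤ n) (hN : N ≤ 2 ^ (n ^ 2)) :
    (N : ℝ) * (1 - 1 / (n : ℝ) ^ 4) ^ (n ^ 6) ≤ 1 / 4 := by
  have hn' : (4 : ℝ) ≤ n := by exact_mod_cast hn
  have h4 : (1 : ℝ) ≤ (n : ℝ) ^ 4 := one_le_pow₀ (by linarith)
  have h1 : (1 - 1 / (n : ℝ) ^ 4) ^ (n ^ 6) ≤ Real.exp (-1) ^ (n ^ 2) := by
    have a1 : 1 - 1 / (n : ℝ) ^ 4 ≤ Real.exp (-(1 / (n : ℝ) ^ 4)) := by
      linarith [Real.add_one_le_exp (-(1 / (n : ℝ) ^ 4))]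
    have a0 : 0 ≤ 1 - 1 / (n : ℝ) ^ 4 := by
      rw [sub_nonneg, div_le_one (by linarith)]
      exact h4
    refine (pow_le_pow_left₀ a0 a1 _).trans (le_of_eq ?_)
    rw [← Real.exp_nat_mul, ← Real.exp_nat_mul]
    congr 1
    push_cast
    field_simp
  have hm : 16 ≤ n ^ 2 := by nlinarith
  generalize n ^ 2 = m at h1 hN hm
  have h2 : (N : ℝ) ≤ 2 ^ m := by exact_mod_cast hN
  have h3 : (2 : ℝ) ^ m * Real.exp (-1) ^ m ≤ (3 / 4) ^ m := by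
    rw [← mul_pow]
    refine pow_le_pow_left₀ (by positivity) ?_ m
    rw [Real.exp_neg, ← div_eq_mul_inv, div_le_iff₀ (Real.exp_pos 1)]
    linarith [Real.exp_one_gt_d9]
  have h5 : ((3 : ℝ) / 4) ^ m ≤ (3 / 4) ^ 16 := pow_le_pow_of_le_one (by norm_num) (by norm_num) hm
  calc (N : ℝ) * (1 - 1 / (n : ℝ) ^ 4) ^ (n ^ 6) ≤ 2 ^ m * Real.exp (-1) ^ m := by
        refine mul_le_mul h2 h1 (pow_nonneg ?_ _) (by positivity)
        rw [sub_nonneg, div_le_one (by linarith)]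
        exact h4
    _ ≤ (3 / 4) ^ 16 := h3.trans h5
    _ ≤ 1 / 4 := by norm_num

end Vale.Agent.P335
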