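import Vale.Agent.P335.Basic

/-! Graphs with given degrees and the switch involution. -/

namespace Vale.Agent.P335

open Finset

variable {V : Type*} [Fintype V] [DecidableEq V]

open Classical in
/-- Degree as the size of a filter. -/
noncomputable def deg (G : SimpleGraph V) (v : V) : ℕ := (univ.filter fun w => G.Adj v w).card

open Classical in
/-- All graphs with degree vector `d`. -/
noncomputable def Om (d : V → ℕ) : Finset (SimpleGraph V) :=
  univ.filter fun G => ∀ v, deg G v = d v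

theorem mem_Om {d : V → ℕ} {G : SimpleGraph V} : G ∈ Om d ↔ ∀ v, deg G v = d v := by
  unfold Om; simp

/-- The four-cycle `i k j l` alternates in `G`. -/
def Alt (G : SimpleGraph V) (i j k l : V) : Prop :=
  (G.Adj i k ↔ G.Adj j l) ∧ (G.Adj i l ↔ G.Adj j k) ∧ ¬ (G.Adj i k ↔ G.Adj i l)

/-- The complete bipartite graph between `{i, j}` and `{k, l}`. -/
def cyc (i j k l : V) : SimpleGraph V :=
  SimpleGraph.fromRel fun u v => (u = i ∨ u = j) ∧ (v = k ∨ v = l)

open Classical in
/-- The switch along the four-cycle `i k j l`, the identity if it does not alternate. -/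
noncomputable def sw (i j k l : V) (G : SimpleGraph V) : SimpleGraph V :=
  if Alt G i j k l then symmDiff G (cyc i j k l) else G

/-- Four distinct vertices. -/
def Dist4 (i j k l : V) : Prop := i ≠ j ∧ i ≠ k ∧ i ≠ l ∧ j ≠ k ∧ j ≠ l ∧ k ≠ l

open Classical in
/-- Ordered quadruples of distinct vertices. -/
noncomputable def quads (V : Type*) [Fintype V] : Finset (V × V × V × V) :=
  univ.filter fun q => Dist4 q.1 q.2.1 q.2.2.1 q.2.2.2

omit [DecidableEq V] in
theorem mem_quads {q : V × V × V × V} : q ∈ quads V ↔ Dist4 q.1 q.2.1 q.2.2.1 q.2.2.2 := by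
  unfold quads; simp

omit [Fintype V] [DecidableEq V] in
theorem cyc_adj {i j k l u v : V} (h : Dist4 i j k l) : (cyc i j k l).Adj u v ↔
    ((u = i ∨ u = j) ∧ (v = k ∨ v = l)) ∨ ((v = i ∨ v = j) ∧ (u = k ∨ u = l)) := by
  obtain ⟨h1, h2, h3, h4, h5, h6⟩ := h
  unfold cyc
  rw [SimpleGraph.fromRel_adj]
  constructor
  · exact fun h => h.2
  · intro h
    refine ⟨?_, h⟩
    rintro rfl
    rcases h with ⟨rfl | rfl, rfl | rfl⟩ | ⟨rfl | rfl, rfl | rfl⟩ <;> simp_all

omit [Fintype V] [DecidableEq V] in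
theorem symmDiff_adj {G H : SimpleGraph V} {u v : V} :
    (symmDiff G H).Adj u v ↔ ¬ (G.Adj u v ↔ H.Adj u v) := by
  rw [symmDiff_def, SimpleGraph.sup_adj, SimpleGraph.sdiff_adj, SimpleGraph.sdiff_adj]
  tauto

omit [Fintype V] [DecidableEq V] in
theorem sw_of_not {G : SimpleGraph V} {i j k l : V} (h : ¬ Alt G i j k l) : sw i j k l G = G := by
  unfold sw; rw [if_neg h]

omit [Fintype V] [DecidableEq V] in
theorem sw_adj {G : SimpleGraph V} {i j k l : V} (h : Alt G i j k l) (u v : V) :
    (sw i j k l G).Adj u v ↔ ¬ (G.Adj u v ↔ (cyc i j k l).Adj u v) := by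
  unfold sw; rw [if_pos h, symmDiff_adj]

omit [Fintype V] [DecidableEq V] in
/-- Away from the cycle the switch changes nothing. -/
theorem sw_adj_of_not_cyc {G : SimpleGraph V} {i j k l u v : V}
    (h : ¬ (cyc i j k l).Adj u v) : (sw i j k l G).Adj u v ↔ G.Adj u v := by
  by_cases hA : Alt G i j k l
  · rw [sw_adj hA]; tauto
  · rw [sw_of_not hA]

omit [Fintype V] [DecidableEq V] in
theorem alt_sw {G : SimpleGraph V} {i j k l : V} (hd : Dist4 i j k l) :
    Alt (sw i j k l G) i j k l ↔ Alt G i j k l := by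
  by_cases hA : Alt G i j k l
  · have h1 : (cyc i j k l).Adj i k := (cyc_adj hd).2 (by simp)
    have h2 : (cyc i j k l).Adj i l := (cyc_adj hd).2 (by simp)
    have h3 : (cyc i j k l).Adj j k := (cyc_adj hd).2 (by simp)
    have h4 : (cyc i j k l).Adj j l := (cyc_adj hd).2 (by simp)
    have hA' := hA
    unfold Alt at hA' ⊢
    simp only [sw_adj hA, h1, h2, h3, h4]
    tauto
  · rw [sw_of_not hA]

omit [Fintype V] [DecidableEq V] in
theorem sw_sw {G : SimpleGraph V} {i j k l : V} (hd : Dist4 i j k l) :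
    sw i j k l (sw i j k l G) = G := by
  by_cases hA : Alt G i j k l
  · have h2 := (alt_sw hd).2 hA
    conv_lhs => unfold sw
    unfold sw at h2
    rw [if_pos hA] at h2 ⊢
    rw [if_pos h2, symmDiff_symmDiff_cancel_right]
  · rw [sw_of_not hA, sw_of_not hA]

omit [DecidableEq V] in
/-- A bijection of neighbourhoods gives equal degrees. -/
theorem deg_eq_of_equiv {G H : SimpleGraph V} {u v : V} (e : V ≃ V)
    (h : ∀ w, G.Adj u w ↔ H.Adj v (e w)) : deg G u = deg H v := by
  unfold deg
  refine card_bij (fun w _ => e w) (fun w hw => ?_) (fun _ _ _ _ h => e.injective h) fun w hw => ?_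
  · simpa [h] using hw
  · exact ⟨e.symm w, by simpa [h] using hw, by simp⟩

theorem deg_sw {G : SimpleGraph V} {i j k l : V} (hd : Dist4 i j k l) (v : V) :
    deg (sw i j k l G) v = deg G v := by
  by_cases hA : Alt G i j k l
  swap
  · rw [sw_of_not hA]
  have hA' := hA
  obtain ⟨h1, h2, h3, h4, h5, h6⟩ := id hd
  obtain ⟨a1, a2, a3⟩ := hA'
  by_cases hv : v = i ∨ v = j
  · refine deg_eq_of_equiv (Equiv.swap k l) fun w => ?_
    rw [sw_adj hA, cyc_adj hd]
    by_cases hk : w = k
    · subst hk; rcases hv with rfl | rfl <;> simp <;> tauto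
    by_cases hl : w = l
    · subst hl; rcases hv with rfl | rfl <;> simp <;> tauto
    rw [Equiv.swap_apply_of_ne_of_ne hk hl]
    rcases hv with rfl | rfl <;> simp [*]
  by_cases hv' : v = k ∨ v = l
  · refine deg_eq_of_equiv (Equiv.swap i j) fun w => ?_
    rw [sw_adj hA, cyc_adj hd]
    by_cases hk : w = i
    · subst hk; rcases hv' with rfl | rfl <;> simp [G.adj_comm v] <;> tauto
    by_cases hl : w = j
    · subst hl; rcases hv' with rfl | rfl <;> simp [G.adj_comm v] <;> tauto
    rw [Equiv.swap_apply_of_ne_of_ne hk hl]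
    rcases hv' with rfl | rfl <;> simp [*]
  · refine deg_eq_of_equiv (Equiv.refl V) fun w => ?_
    rw [sw_adj hA, cyc_adj hd]
    simp only [Equiv.refl_apply]
    tauto

theorem sw_mem {d : V → ℕ} {G : SimpleGraph V} {i j k l : V} (hd : Dist4 i j k l)
    (hG : G ∈ Om d) : sw i j k l G ∈ Om d :=
  mem_Om.2 fun v => (deg_sw hd v).trans (mem_Om.1 hG v)

/-- The Poincaré inequality for the switch graph, in the form used for the chain. -/
def Poincare (d : V → ℕ) : Prop :=
  ∀ f : SimpleGraph V → ℝ, ∑ G ∈ Om d, f G = 0 →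
    16 * ∑ G ∈ Om d, f G ^ 2 ≤
      ∑ q ∈ quads V, ∑ G ∈ Om d, (f G - f (sw q.1 q.2.1 q.2.2.1 q.2.2.2 G)) ^ 2

end Vale.Agent.P335
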