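import Vale.Agent.P335.Defs
import Vale.Agent.P335.Graph
import Vale.Agent.P335.ChainAbs

/-! From the Poincaré inequality to the mixing time. -/

namespace Vale.Agent.P335

open Finset

variable {n : ℕ}

/-- The matching with edges `a b` and `c d`. -/
def chMt (a b c d : Fin n) : Finset (Sym2 (Fin n)) := {s(a, b), s(c, d)}

theorem ch_mem_matchings {S : Finset (Fin n)} {F : Finset (Sym2 (Fin n))} :
    F ∈ matchings S ↔
      (∀ e ∈ F, ¬ e.IsDiag ∧ ∀ v ∈ e, v ∈ S) ∧ ∀ v ∈ S, ∃! e, e ∈ F ∧ v ∈ e := by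
  unfold matchings
  simp only [mem_filter, mem_univ, true_and]

theorem ch_mt_mem {a b c d : Fin n} (h : Dist4 a b c d) {S : Finset (Fin n)}
    (hS : ∀ v, v ∈ S ↔ v = a ∨ v = b ∨ v = c ∨ v = d) : chMt a b c d ∈ matchings S := by
  obtain ⟨h1, h2, h3, h4, h5, h6⟩ := h
  rw [ch_mem_matchings]
  constructor
  · intro e he
    simp only [chMt, mem_insert, mem_singleton] at he
    rcases he with rfl | rfl
    · refine ⟨by simpa using h1, fun v hv => ?_⟩
      rw [hS]
      rcases Sym2.mem_iff.1 hv with h | h <;> simp [h]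
    · refine ⟨by simpa using h6, fun v hv => ?_⟩
      rw [hS]
      rcases Sym2.mem_iff.1 hv with h | h <;> simp [h]
  · intro v hv
    rcases (hS v).1 hv with rfl | rfl | rfl | rfl
    · refine ⟨s(v, b), by simp [chMt], fun e he => ?_⟩
      simp only [chMt, mem_insert, mem_singleton] at he
      rcases he with ⟨rfl | rfl, h⟩
      · rfl
      · rcases Sym2.mem_iff.1 h with h | h <;> contradiction
    · refine ⟨s(a, v), by simp [chMt], fun e he => ?_⟩
      simp only [chMt, mem_insert, mem_singleton] at he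
      rcases he with ⟨rfl | rfl, h⟩
      · rfl
      · rcases Sym2.mem_iff.1 h with h | h <;> contradiction
    · refine ⟨s(v, d), by simp [chMt], fun e he => ?_⟩
      simp only [chMt, mem_insert, mem_singleton] at he
      rcases he with ⟨rfl | rfl, h⟩
      · rcases Sym2.mem_iff.1 h with h | h
        · exact absurd h.symm h2
        · exact absurd h.symm h4
      · rfl
    · refine ⟨s(c, v), by simp [chMt], fun e he => ?_⟩
      simp only [chMt, mem_insert, mem_singleton] at he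
      rcases he with ⟨rfl | rfl, h⟩
      · rcases Sym2.mem_iff.1 h with h | h
        · exact absurd h.symm h3
        · exact absurd h.symm h5
      · rfl

theorem ch_eq_mt {a b c d : Fin n} (h : Dist4 a b c d) {S : Finset (Fin n)}
    (hS : ∀ v, v ∈ S ↔ v = a ∨ v = b ∨ v = c ∨ v = d) {F : Finset (Sym2 (Fin n))}
    (hF : F ∈ matchings S) (hab : s(a, b) ∈ F) : F = chMt a b c d := by
  obtain ⟨h1, h2, h3, h4, h5, h6⟩ := h
  obtain ⟨g1, g2⟩ := ch_mem_matchings.1 hF
  have uq : ∀ v e e', e ∈ F → e' ∈ F → v ∈ e → v ∈ e' → e = e' := fun v e e' he he' hv hv' =>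
    (g2 v ((g1 e he).2 v hv)).unique ⟨he, hv⟩ ⟨he', hv'⟩
  have hcd : s(c, d) ∈ F := by
    obtain ⟨e, ⟨he, hc⟩, -⟩ := g2 c ((hS c).2 (by simp))
    obtain ⟨y, rfl⟩ := Sym2.mem_iff_exists.1 hc
    have hy := (hS y).1 ((g1 _ he).2 y (by simp))
    have hne := (g1 _ he).1
    rcases hy with rfl | rfl | rfl | rfl
    · have := uq y _ _ he hab (by simp) (by simp)
      rcases Sym2.eq_iff.1 this with h | h
      · exact absurd h.1.symm h2
      · exact absurd h.1.symm h4
    · have := uq y _ _ he hab (by simp) (by simp)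
      rcases Sym2.eq_iff.1 this with h | h
      · exact absurd h.1.symm h2
      · exact absurd h.1.symm h4
    · simp at hne
    · exact he
  ext e
  simp only [chMt, mem_insert, mem_singleton]
  constructor
  · intro he
    induction e using Sym2.ind with
    | _ x y =>
    rcases (hS x).1 ((g1 _ he).2 x (by simp)) with rfl | rfl | rfl | rfl
    · exact Or.inl (uq x _ _ he hab (by simp) (by simp))
    · exact Or.inl (uq x _ _ he hab (by simp) (by simp))
    · exact Or.inr (uq x _ _ he hcd (by simp) (by simp))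
    · exact Or.inr (uq x _ _ he hcd (by simp) (by simp))
  · rintro (rfl | rfl)
    · exact hab
    · exact hcd

theorem ch_matchings_eq {a b c d : Fin n} (h : Dist4 a b c d) :
    matchings {a, b, c, d} = {chMt a b c d, chMt a c b d, chMt a d b c} := by
  have hS : ∀ v, v ∈ ({a, b, c, d} : Finset (Fin n)) ↔ v = a ∨ v = b ∨ v = c ∨ v = d := by simp
  obtain ⟨h1, h2, h3, h4, h5, h6⟩ := id h
  have k2 : Dist4 a c b d := ⟨h2, h1, h3, h4.symm, h6, h5⟩
  have k3 : Dist4 a d b c := ⟨h3, h1, h2, h5.symm, h6.symm, h4⟩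
  have hS2 : ∀ v, v ∈ ({a, b, c, d} : Finset (Fin n)) ↔ v = a ∨ v = c ∨ v = b ∨ v = d :=
    fun v => by rw [hS]; tauto
  have hS3 : ∀ v, v ∈ ({a, b, c, d} : Finset (Fin n)) ↔ v = a ∨ v = d ∨ v = b ∨ v = c :=
    fun v => by rw [hS]; tauto
  ext F
  simp only [mem_insert, mem_singleton]
  constructor
  · intro hF
    obtain ⟨g1, g2⟩ := ch_mem_matchings.1 hF
    obtain ⟨e, ⟨he, ha⟩, -⟩ := g2 a ((hS a).2 (by simp))
    obtain ⟨y, rfl⟩ := Sym2.mem_iff_exists.1 ha
    have hne := (g1 _ he).1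
    rcases (hS y).1 ((g1 _ he).2 y (by simp)) with rfl | rfl | rfl | rfl
    · simp at hne
    · exact Or.inl (ch_eq_mt h hS hF he)
    · exact Or.inr (Or.inl (ch_eq_mt k2 hS2 hF he))
    · exact Or.inr (Or.inr (ch_eq_mt k3 hS3 hF he))
  · rintro (rfl | rfl | rfl)
    · exact ch_mt_mem h hS
    · exact ch_mt_mem k2 hS2
    · exact ch_mt_mem k3 hS3

theorem ch_partner {a b c d b' c' d' : Fin n} (h1 : a ≠ c') (h2 : a ≠ d')
    (h : chMt a b c d = chMt a b' c' d') (hb : a ≠ b') : b = b' := by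
  have : s(a, b) ∈ chMt a b' c' d' := h ▸ (by simp [chMt])
  simp only [chMt, mem_insert, mem_singleton, Sym2.eq_iff] at this
  rcases this with (h | h) | (h | h)
  · exact h.2
  · exact absurd h.1 hb
  · exact absurd h.1 h1
  · exact absurd h.1 h2

theorem ch_mt_swap (a b c d : Fin n) : chMt a b c d = chMt a b d c := by
  simp only [chMt, Sym2.eq_swap (a := c)]

theorem ch_four {S : Finset (Fin n)} (hS : S ∈ powersetCard 4 (univ : Finset (Fin n))) :
    ∃ a b c d, Dist4 a b c d ∧ S = {a, b, c, d} := by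
  obtain ⟨a, b, c, d, h1, h2, h3, h4, h5, h6, rfl⟩ := card_eq_four.1 (mem_powersetCard.1 hS).2
  exact ⟨a, b, c, d, ⟨h1, h2, h3, h4, h5, h6⟩, rfl⟩

theorem ch_card_offDiag {S : Finset (Fin n)} (hS : S ∈ powersetCard 4 (univ : Finset (Fin n))) :
    (matchings S).offDiag.card = 6 := by
  obtain ⟨a, b, c, d, h, rfl⟩ := ch_four hS
  obtain ⟨h1, h2, h3, h4, h5, h6⟩ := id h
  have : (matchings ({a, b, c, d} : Finset (Fin n))).card = 3 := by
    rw [ch_matchings_eq h]
    refine card_eq_three.2 ⟨_, _, _, fun e => ?_, fun e => ?_, fun e => ?_, rfl⟩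
    · exact h4 (ch_partner h1 h3 e h2)
    · exact h5 (ch_partner h1 h2 e h3)
    · exact h6 (ch_partner h1 h2 e h3)
  rw [offDiag_card, this]

theorem ch_offDiag_form {S : Finset (Fin n)} (hS : S ∈ powersetCard 4 (univ : Finset (Fin n)))
    {p : Finset (Sym2 (Fin n)) × Finset (Sym2 (Fin n))} (hp : p ∈ (matchings S).offDiag) :
    ∃ i j k l, Dist4 i j k l ∧ p = (chMt i k j l, chMt i l j k) := by
  obtain ⟨a, b, c, d, h, rfl⟩ := ch_four hS
  obtain ⟨h1, h2, h3, h4, h5, h6⟩ := id h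
  obtain ⟨F, F'⟩ := p
  rw [mem_offDiag, ch_matchings_eq h] at hp
  simp only [mem_insert, mem_singleton] at hp
  obtain ⟨g1, g2, g3⟩ := hp
  rcases g1 with rfl | rfl | rfl <;> rcases g2 with rfl | rfl | rfl
  · exact absurd rfl g3
  · exact ⟨a, d, b, c, ⟨h3, h1, h2, h5.symm, h6.symm, h4⟩, by
      rw [ch_mt_swap a b c d, ch_mt_swap a c b d]⟩
  · exact ⟨a, c, b, d, ⟨h2, h1, h3, h4.symm, h6, h5⟩, by rw [ch_mt_swap a d b c]⟩
  · exact ⟨a, d, c, b, ⟨h3, h2, h1, h6.symm, h5.symm, h4.symm⟩, by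
      rw [ch_mt_swap a b c d, ch_mt_swap a c b d]⟩
  · exact absurd rfl g3
  · exact ⟨a, b, c, d, h, rfl⟩
  · exact ⟨a, c, d, b, ⟨h2, h3, h1, h6, h4.symm, h5.symm⟩, by rw [ch_mt_swap a d b c]⟩
  · exact ⟨a, b, d, c, ⟨h1, h3, h2, h5, h4, h6.symm⟩, rfl⟩
  · exact absurd rfl g3

theorem ch_form_mem {i j k l : Fin n} (h : Dist4 i j k l) :
    (chMt i k j l, chMt i l j k) ∈ (matchings ({i, j, k, l} : Finset (Fin n))).offDiag := by
  obtain ⟨h1, h2, h3, h4, h5, h6⟩ := id h
  rw [mem_offDiag, ch_matchings_eq h]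
  exact ⟨by simp, by simp, fun e => h6 (ch_partner h1 h2 e h3)⟩

theorem ch_try_neg {i j k l : Fin n} (G : SimpleGraph (Fin n))
    (hG : ¬ (G.Adj i k ∧ G.Adj j l ∧ ¬ G.Adj i l ∧ ¬ G.Adj j k)) :
    trySwitch G (chMt i k j l) (chMt i l j k) = G := by
  unfold trySwitch
  rw [if_neg]
  intro h
  apply hG
  simp only [chMt, mem_insert, mem_singleton, forall_eq_or_imp, forall_eq,
    SimpleGraph.mem_edgeSet] at h
  tauto

theorem ch_try_pos {i j k l : Fin n} (h : Dist4 i j k l) (G : SimpleGraph (Fin n))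
    (hG : G.Adj i k ∧ G.Adj j l ∧ ¬ G.Adj i l ∧ ¬ G.Adj j k) :
    trySwitch G (chMt i k j l) (chMt i l j k) = sw i j k l G := by
  have hA : Alt G i j k l := by unfold Alt; tauto
  obtain ⟨g1, g2, g3, g4⟩ := hG
  unfold trySwitch
  rw [if_pos (by
    simp only [chMt, mem_insert, mem_singleton, forall_eq_or_imp, forall_eq,
      SimpleGraph.mem_edgeSet]
    tauto)]
  ext u v
  rw [sw_adj hA, cyc_adj h, SimpleGraph.fromEdgeSet_adj]
  obtain ⟨h1, h2, h3, h4, h5, h6⟩ := h
  simp only [chMt, coe_insert, coe_singleton, Set.mem_union, Set.mem_sdiff,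
    SimpleGraph.mem_edgeSet, Set.mem_insert_iff, Set.mem_singleton_iff, Sym2.eq_iff]
  have g1' := g1.symm
  have g2' := g2.symm
  have g3' : ¬ G.Adj l i := fun h => g3 h.symm
  have g4' : ¬ G.Adj k j := fun h => g4 h.symm
  constructor
  · rintro ⟨⟨a1, a2⟩ | a1, a3⟩
    · intro a4
      rcases a4.1 a1 with ⟨rfl | rfl, rfl | rfl⟩ | ⟨rfl | rfl, rfl | rfl⟩ <;> tauto
    · rcases a1 with (⟨rfl, rfl⟩ | ⟨rfl, rfl⟩) | (⟨rfl, rfl⟩ | ⟨rfl, rfl⟩) <;> tauto
  · intro a1
    by_cases a2 : G.Adj u v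
    · refine ⟨Or.inl ⟨a2, fun a3 => a1 ⟨fun _ => ?_, fun _ => a2⟩⟩, a2.ne⟩
      rcases a3 with (⟨rfl, rfl⟩ | ⟨rfl, rfl⟩) | (⟨rfl, rfl⟩ | ⟨rfl, rfl⟩) <;> tauto
    · have a3 : ((u = i ∨ u = j) ∧ (v = k ∨ v = l)) ∨ ((v = i ∨ v = j) ∧ (u = k ∨ u = l)) := by
        by_contra a3
        exact a1 ⟨fun h => absurd h a2, fun h => absurd h a3⟩
      rcases a3 with ⟨rfl | rfl, rfl | rfl⟩ | ⟨rfl | rfl, rfl | rfl⟩
      · exact absurd g1 a2
      · exact ⟨Or.inr (by tauto), h3⟩
      · exact ⟨Or.inr (by tauto), h4⟩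
      · exact absurd g2 a2
      · exact absurd g1' a2
      · exact ⟨Or.inr (by tauto), h3.symm⟩
      · exact ⟨Or.inr (by tauto), h4.symm⟩
      · exact absurd g2' a2

theorem ch_sw_swap {i j k l : Fin n} (G : SimpleGraph (Fin n)) :
    sw i j l k G = sw i j k l G := by
  have h1 : cyc i j l k = cyc i j k l := by
    unfold cyc
    simp only [or_comm]
  have h2 : Alt G i j l k ↔ Alt G i j k l := by unfold Alt; tauto
  unfold sw
  rw [h1, propext h2]

theorem ch_dist_swap {i j k l : Fin n} (h : Dist4 i j k l) : Dist4 i j l k :=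
  ⟨h.1, h.2.2.1, h.2.1, h.2.2.2.2.1, h.2.2.2.1, h.2.2.2.2.2.symm⟩

theorem ch_try_back {i j k l : Fin n} (h : Dist4 i j k l) (G G' : SimpleGraph (Fin n))
    (hne : G ≠ G') (hG : trySwitch G (chMt i k j l) (chMt i l j k) = G') :
    trySwitch G' (chMt i l j k) (chMt i k j l) = G := by
  by_cases hp : G.Adj i k ∧ G.Adj j l ∧ ¬ G.Adj i l ∧ ¬ G.Adj j k
  · rw [ch_try_pos h G hp] at hG
    subst hG
    have hA : Alt G i j k l := by unfold Alt; tauto
    have h1 : (cyc i j k l).Adj i k := (cyc_adj h).2 (by simp)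
    have h2 : (cyc i j k l).Adj i l := (cyc_adj h).2 (by simp)
    have h3 : (cyc i j k l).Adj j k := (cyc_adj h).2 (by simp)
    have h4 : (cyc i j k l).Adj j l := (cyc_adj h).2 (by simp)
    rw [ch_try_pos (ch_dist_swap h), ch_sw_swap, sw_sw h]
    simp only [sw_adj hA, h1, h2, h3, h4]
    tauto
  · rw [ch_try_neg G hp] at hG
    exact absurd hG hne

theorem ch_sq_le {i j k l : Fin n} (h : Dist4 i j k l) (G : SimpleGraph (Fin n))
    (f : SimpleGraph (Fin n) → ℝ) :
    (f G - f (sw i j k l G)) ^ 2 ≤ (f G - f (trySwitch G (chMt i k j l) (chMt i l j k))) ^ 2 +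
      (f G - f (trySwitch G (chMt i l j k) (chMt i k j l))) ^ 2 := by
  by_cases hA : Alt G i j k l
  · by_cases hp : G.Adj i k
    · rw [ch_try_pos h G (by unfold Alt at hA; tauto)]
      exact le_add_of_nonneg_right (sq_nonneg _)
    · rw [ch_try_pos (ch_dist_swap h) G (by unfold Alt at hA; tauto), ch_sw_swap]
      exact le_add_of_nonneg_left (sq_nonneg _)
  · rw [sw_of_not hA, sub_self]
    nlinarith [sq_nonneg (f G - f (trySwitch G (chMt i k j l) (chMt i l j k))),
      sq_nonneg (f G - f (trySwitch G (chMt i l j k) (chMt i k j l)))]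

theorem ch_mem_Om {d : Fin n → ℕ} {G : SimpleGraph (Fin n)} :
    G ∈ Om d ↔ ∀ i, (G.neighborSet i).ncard = d i := by
  classical
  rw [mem_Om]
  refine forall_congr' fun i => ?_
  have : (G.neighborSet i).ncard = deg G i := by
    unfold deg
    rw [← Set.ncard_coe_finset]
    congr 1
    ext w
    simp
  rw [this]

theorem ch_try_mem {d : Fin n → ℕ} {S : Finset (Fin n)}
    (hS : S ∈ powersetCard 4 (univ : Finset (Fin n)))
    {p : Finset (Sym2 (Fin n)) × Finset (Sym2 (Fin n))} (hp : p ∈ (matchings S).offDiag)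
    {G : SimpleGraph (Fin n)} (hG : G ∈ Om d) : trySwitch G p.1 p.2 ∈ Om d := by
  obtain ⟨i, j, k, l, h, rfl⟩ := ch_offDiag_form hS hp
  by_cases hq : G.Adj i k ∧ G.Adj j l ∧ ¬ G.Adj i l ∧ ¬ G.Adj j k
  · rw [ch_try_pos h G hq]
    exact sw_mem h hG
  · rwa [ch_try_neg G hq]

theorem ch_sum_swap (S : Finset (Fin n))
    (E : Finset (Sym2 (Fin n)) × Finset (Sym2 (Fin n)) → ℝ) :
    ∑ p ∈ (matchings S).offDiag, E p.swap = ∑ p ∈ (matchings S).offDiag, E p := by
  refine sum_nbij' Prod.swap Prod.swap ?_ ?_ (fun _ _ => rfl) (fun _ _ => rfl) fun _ _ => rfl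
  · intro p hp
    rw [mem_offDiag] at hp ⊢
    exact ⟨hp.2.1, hp.1, hp.2.2.symm⟩
  · intro p hp
    rw [mem_offDiag] at hp ⊢
    exact ⟨hp.2.1, hp.1, hp.2.2.symm⟩

theorem ch_fiber (E : Finset (Sym2 (Fin n)) × Finset (Sym2 (Fin n)) → ℝ) (hE : ∀ p, 0 ≤ E p) :
    ∑ q ∈ quads (Fin n), E (chMt q.1 q.2.2.1 q.2.1 q.2.2.2, chMt q.1 q.2.2.2 q.2.1 q.2.2.1) ≤
      4 * ∑ S ∈ powersetCard 4 (univ : Finset (Fin n)), ∑ p ∈ (matchings S).offDiag, E p := by
  classical
  rw [sum_sigma', mul_sum]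
  rw [← sum_fiberwise_of_maps_to (s := quads (Fin n))
    (t := (powersetCard 4 (univ : Finset (Fin n))).sigma fun S => (matchings S).offDiag)
    (g := fun q => ⟨{q.1, q.2.1, q.2.2.1, q.2.2.2},
      (chMt q.1 q.2.2.1 q.2.1 q.2.2.2, chMt q.1 q.2.2.2 q.2.1 q.2.2.1)⟩)]
  · refine sum_le_sum fun x hx => ?_
    rw [sum_congr rfl (g := fun _ => E x.2) (fun q hq => by rw [← (mem_filter.1 hq).2]), sum_const,
      nsmul_eq_mul]
    refine mul_le_mul_of_nonneg_right ?_ (hE _)
    have h4 : x.1.card = 4 := (mem_powersetCard.1 (mem_sigma.1 hx).1).2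
    have : (filter (fun q : Fin n × Fin n × Fin n × Fin n =>
        (⟨{q.1, q.2.1, q.2.2.1, q.2.2.2},
          (chMt q.1 q.2.2.1 q.2.1 q.2.2.2, chMt q.1 q.2.2.2 q.2.1 q.2.2.1)⟩ :
            Σ _ : Finset (Fin n), Finset (Sym2 (Fin n)) × Finset (Sym2 (Fin n))) = x)
        (quads (Fin n))).card ≤ x.1.card := by
      refine card_le_card_of_injOn (fun q => q.1) ?_ ?_
      · intro q hq
        have := (mem_filter.1 (mem_coe.1 hq)).2
        rw [← this]
        simp
      · rintro ⟨i, j, k, l⟩ hq ⟨i', j', k', l'⟩ hq' hi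
        obtain ⟨a1, a2⟩ := mem_filter.1 (mem_coe.1 hq)
        obtain ⟨b1, b2⟩ := mem_filter.1 (mem_coe.1 hq')
        have hi : i = i' := hi
        subst hi
        obtain ⟨h1, h2, h3, h4, h5, h6⟩ := mem_quads.1 a1
        obtain ⟨g1, g2, g3, g4, g5, g6⟩ := mem_quads.1 b1
        have e := a2.trans b2.symm
        simp only [Sigma.mk.injEq, heq_eq_eq, Prod.mk.injEq] at e
        obtain ⟨-, e1, e2⟩ := e
        have ek : k = k' := ch_partner g1 g3 e1 g2
        have el : l = l' := ch_partner g1 g2 e2 g3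
        subst ek el
        have : s(j, l) ∈ chMt i k j' l := e1 ▸ (by simp [chMt])
        simp only [chMt, mem_insert, mem_singleton, Sym2.eq_iff] at this
        rcases this with (h | h) | (h | h)
        · exact absurd h.1.symm h1
        · exact absurd h.1 h4
        · rw [h.1]
        · exact absurd h.1 h5
    rw [h4] at this
    exact_mod_cast this
  · intro q hq
    have h := mem_quads.1 hq
    refine mem_sigma.2 ⟨mem_powersetCard.2 ⟨subset_univ _, ?_⟩, ch_form_mem h⟩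
    obtain ⟨h1, h2, h3, h4, h5, h6⟩ := h
    exact card_eq_four.2 ⟨_, _, _, _, h1, h2, h3, h4, h5, h6, rfl⟩

open Classical in
/-- The non-lazy part of the chain. -/
noncomputable def chQ (d : Fin n → ℕ) : Matrix (Realization d) (Realization d) ℝ :=
  Matrix.of fun G G' => ∑ S ∈ powersetCard 4 (univ : Finset (Fin n)), (1 / (n.choose 4 : ℝ)) *
      ∑ p ∈ (matchings S).offDiag, (1 / 6) * (if trySwitch G.1 p.1 p.2 = G'.1 then 1 else 0)

theorem chQ_symm (d : Fin n → ℕ) (G G' : Realization d) : chQ d G G' = chQ d G' G := by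
  classical
  by_cases h : G = G'
  · rw [h]
  have hne : G.1 ≠ G'.1 := fun e => h (Subtype.ext e)
  simp only [chQ, Matrix.of_apply]
  refine sum_congr rfl fun S hS => ?_
  congr 1
  rw [← ch_sum_swap]
  refine sum_congr rfl fun p hp => ?_
  obtain ⟨i, j, k, l, hd, rfl⟩ := ch_offDiag_form hS hp
  congr 1
  refine if_congr ⟨fun e => ?_, fun e => ?_⟩ rfl rfl
  · exact ch_try_back (ch_dist_swap hd) _ _ hne e
  · exact ch_try_back hd _ _ hne.symm e

theorem chQ_nonneg (d : Fin n → ℕ) (G G' : Realization d) : 0 ≤ chQ d G G' := by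
  simp only [chQ, Matrix.of_apply]
  refine sum_nonneg fun S _ => mul_nonneg (by positivity) (sum_nonneg fun p _ => ?_)
  split_ifs <;> norm_num

theorem chQ_sum (d : Fin n → ℕ) [Fintype (Realization d)] (G : Realization d)
    (H : SimpleGraph (Fin n) → ℝ) :
    ∑ G', chQ d G G' * H G'.1 = ∑ S ∈ powersetCard 4 (univ : Finset (Fin n)),
      (1 / (n.choose 4 : ℝ)) * ∑ p ∈ (matchings S).offDiag, (1 / 6) * H (trySwitch G.1 p.1 p.2) := by
  classical
  simp only [chQ, Matrix.of_apply, sum_mul]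
  rw [sum_comm]
  refine sum_congr rfl fun S hS => ?_
  simp only [mul_assoc, ← mul_sum]
  congr 2
  simp only [sum_mul]
  rw [sum_comm]
  refine sum_congr rfl fun p hp => ?_
  have hm := ch_mem_Om.1 (ch_try_mem hS hp (ch_mem_Om.2 G.2))
  rw [Fintype.sum_eq_single (⟨_, hm⟩ : Realization d)]
  · simp
  · intro G' hG'
    rw [if_neg (fun e => hG' (Subtype.ext e.symm)), zero_mul]

theorem chQ_row (hn : 4 ≤ n) (d : Fin n → ℕ) [Fintype (Realization d)] (G : Realization d) :
    ∑ G', chQ d G G' = 1 := by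
  have := chQ_sum d G (fun _ => 1)
  simp only [mul_one] at this
  rw [this, sum_congr rfl (g := fun _ => 1 / (n.choose 4 : ℝ)) (fun S hS => by
    rw [sum_const, ch_card_offDiag hS]; norm_num), sum_const, card_powersetCard, card_univ,
    Fintype.card_fin, nsmul_eq_mul]
  have : (0 : ℝ) < n.choose 4 := by exact_mod_cast Nat.choose_pos hn
  field_simp

theorem ch_sum_Om (d : Fin n → ℕ) [Fintype (Realization d)] (H : SimpleGraph (Fin n) → ℝ) :
    ∑ G ∈ Om d, H G = ∑ G : Realization d, H G.1 :=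
  sum_subtype _ (fun _ => ch_mem_Om) H

theorem chQ_poincare (hn : 4 ≤ n) (d : Fin n → ℕ) [Fintype (Realization d)] (hP : Poincare d)
    (f : Realization d → ℝ) (hf : ∑ x, f x = 0) :
    1 / (n : ℝ) ^ 4 * ∑ x, f x ^ 2 ≤ (1 / 4) * ∑ x, ∑ y, chQ d x y * (f x - f y) ^ 2 := by
  classical
  obtain ⟨F, hF⟩ : ∃ F : SimpleGraph (Fin n) → ℝ, ∀ G : Realization d, f G = F G.1 :=
    ⟨fun G => if h : ∀ i, (G.neighborSet i).ncard = d i then f ⟨G, h⟩ else 0,
      fun G => by simp only [dif_pos G.2]⟩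
  simp only [hF] at hf ⊢
  have h1 := hP F (by rw [ch_sum_Om]; exact hf)
  set E : Finset (Sym2 (Fin n)) × Finset (Sym2 (Fin n)) → ℝ :=
    fun p => ∑ G : Realization d, (F G.1 - F (trySwitch G.1 p.1 p.2)) ^ 2 with hE
  have hE0 : ∀ p, 0 ≤ E p := fun p => sum_nonneg fun _ _ => sq_nonneg _
  set A := ∑ S ∈ powersetCard 4 (univ : Finset (Fin n)), ∑ p ∈ (matchings S).offDiag, E p with hA
  have h2 : ∑ q ∈ quads (Fin n), ∑ G ∈ Om d, (F G - F (sw q.1 q.2.1 q.2.2.1 q.2.2.2 G)) ^ 2 ≤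
      8 * A := by
    have a1 := ch_fiber E hE0
    have a2 := ch_fiber (fun p => E p.swap) (fun p => hE0 _)
    simp only [ch_sum_swap] at a2
    refine le_trans (sum_le_sum fun q hq => ?_) ((sum_add_distrib.le.trans (add_le_add a1 a2)).trans
      (le_of_eq (by ring)))
    rw [ch_sum_Om, hE, ← sum_add_distrib]
    exact sum_le_sum fun G _ => ch_sq_le (mem_quads.1 hq) _ _
  have h3 : ∑ x : Realization d, ∑ y : Realization d, chQ d x y * (F x.1 - F y.1) ^ 2 =
      1 / (n.choose 4 : ℝ) * (1 / 6) * A := by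
    simp only [fun x : Realization d => chQ_sum d x (fun G => (F x.1 - F G) ^ 2)]
    rw [sum_comm, hA, mul_sum]
    refine sum_congr rfl fun S _ => ?_
    rw [← mul_sum, mul_assoc, sum_comm, mul_sum (a := (1 / 6 : ℝ))]
    congr 1
    refine sum_congr rfl fun p _ => ?_
    rw [hE, mul_sum]
  rw [ch_sum_Om d (fun G => F G ^ 2)] at h1
  rw [h3]
  have hC : (0 : ℝ) < n.choose 4 := by exact_mod_cast Nat.choose_pos hn
  have hC2 : (n.choose 4 : ℝ) ≤ (n : ℝ) ^ 4 / 24 := by
    have := Nat.choose_le_pow_div (α := ℝ) 4 n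
    norm_num [Nat.factorial] at this
    exact this
  have hn4 : (0 : ℝ) < (n : ℝ) ^ 4 := by linarith
  have h4 : 1 / (n : ℝ) ^ 4 ≤ 1 / (24 * (n.choose 4 : ℝ)) :=
    one_div_le_one_div_of_le (by positivity) (by linarith)
  have h5 : 0 ≤ ∑ x : Realization d, F x.1 ^ 2 := sum_nonneg fun _ _ => sq_nonneg _
  have h6 : ∑ x : Realization d, F x.1 ^ 2 ≤ A := by linarith
  calc 1 / (n : ℝ) ^ 4 * ∑ x : Realization d, F x.1 ^ 2 ≤ 1 / (24 * (n.choose 4 : ℝ)) * A :=
        mul_le_mul h4 h6 h5 (by positivity)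
    _ = _ := by field_simp; ring

theorem ch_card (d : Fin n → ℕ) [Fintype (Realization d)] :
    Fintype.card (Realization d) ≤ 2 ^ (n ^ 2) := by
  classical
  have := Fintype.card_le_of_injective
    (fun (G : Realization d) (u : Fin n × Fin n) => decide (G.1.Adj u.1 u.2)) (fun G G' h => by
      refine Subtype.ext (SimpleGraph.ext (funext fun u => funext fun v => propext ?_))
      simpa using congrFun h (u, v))
  simpa [sq] using this

open Classical in
theorem mixing_of_poincare {n : ℕ} (hn : 4 ≤ n) (d : Fin n → ℕ) (hne : Nonempty (Realization d))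
    (hP : Poincare d) : mixingTime d ≤ ((n ^ 6 : ℕ) : ℕ∞) := by
  unfold mixingTime
  refine sInf_le ⟨n ^ 6, fun G => ?_, rfl⟩
  have hn' : (4 : ℝ) ≤ n := by exact_mod_cast hn
  have h4 : (1 : ℝ) ≤ (n : ℝ) ^ 4 := one_le_pow₀ (by linarith)
  unfold tvDist
  exact ch_tv (switchChain d) (chQ d) (1 / (n : ℝ) ^ 4) ((div_le_one (by linarith)).2 h4)
    (fun x y => rfl) (chQ_symm d) (chQ_nonneg d) (chQ_row hn d) (chQ_poincare hn d hP) G _
    (ch_numeric n _ hn (ch_card d))

end Vale.Agent.P335
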