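import Mathlib

namespace Vale.Agent.P335

open Finset

/-- The set of labelled simple graphs on `Fin n` having degree `d i` at vertex `i`. -/
abbrev Realization {n : ℕ} (d : Fin n → ℕ) : Type :=
  {G : SimpleGraph (Fin n) // ∀ i, (G.neighborSet i).ncard = d i}

open Classical in
/-- The perfect matchings of the complete graph on the vertex set `S`, as sets of edges. -/
noncomputable def matchings {n : ℕ} (S : Finset (Fin n)) : Finset (Finset (Sym2 (Fin n))) :=
  univ.filter fun F =>
    (∀ e ∈ F, ¬ e.IsDiag ∧ ∀ v ∈ e, v ∈ S) ∧ ∀ v ∈ S, ∃! e, e ∈ F ∧ v ∈ e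

open Classical in
/-- If all edges of `F` are present in `G` and all edges of `F'` are absent, replace `F` by `F'`;
otherwise stay put. -/
noncomputable def trySwitch {n : ℕ} (G : SimpleGraph (Fin n)) (F F' : Finset (Sym2 (Fin n))) :
    SimpleGraph (Fin n) :=
  if (∀ e ∈ F, e ∈ G.edgeSet) ∧ (∀ e ∈ F', e ∉ G.edgeSet) then
    SimpleGraph.fromEdgeSet ((G.edgeSet \ (F : Set (Sym2 (Fin n)))) ∪ (F' : Set (Sym2 (Fin n))))
  else G

open Classical in
/-- Transition matrix of the switch chain: with probability `1/2` stay put; otherwise choose a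
uniform 4-set `S`, then one of the six ordered pairs of distinct perfect matchings on `S`. -/
noncomputable def switchChain {n : ℕ} (d : Fin n → ℕ) :
    Matrix (Realization d) (Realization d) ℝ :=
  Matrix.of fun G G' =>
    (1 / 2) * (if G = G' then 1 else 0) +
    (1 / 2) * ∑ S ∈ powersetCard 4 (univ : Finset (Fin n)), (1 / (n.choose 4 : ℝ)) *
      ∑ p ∈ (matchings S).offDiag, (1 / 6) * (if trySwitch G.1 p.1 p.2 = G'.1 then 1 else 0)

/-- Total variation distance of two weight functions on a finite type. -/
noncomputable def tvDist {Ω : Type} [Fintype Ω] (μ ν : Ω → ℝ) : ℝ :=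
  (1 / 2) * ∑ x, |μ x - ν x|

open Classical in
/-- The mixing time (an extended natural number, `⊤` if no such time exists). -/
noncomputable def mixingTime {n : ℕ} (d : Fin n → ℕ) : ℕ∞ :=
  sInf ((fun t : ℕ => (t : ℕ∞)) ''
    {t : ℕ | ∀ G : Realization d,
      tvDist (fun G' => (switchChain d ^ t) G G')
        (fun _ => 1 / (Fintype.card (Realization d) : ℝ)) ≤ 1 / 4})

end Vale.Agent.P335
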