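import Vale.Agent.P335.Basic

/-! The abstract inequality for two almost commuting projections. -/

namespace Vale.Agent.P335

open Finset

universe w

variable {α : Type*} {β β' : Type w}

theorem ip_zero_right {J : Finset α} {f g : α → ℝ} (h : ∀ x ∈ J, g x = 0) : ip J f g = 0 :=
  sum_eq_zero fun x hx => by rw [h x hx, mul_zero]

open Classical in
theorem disj_abs (J : Finset α) (ka : α → β) (kb : α → β') (m : α → Prop) (σ : α → α)
    (hσ : ∀ x ∈ J, σ x ∈ J) (hσσ : ∀ x ∈ J, σ (σ x) = x)
    (hσa : ∀ x ∈ J, (ka (σ x), m (σ x)) = (ka x, m x)) (hσb : ∀ x ∈ J, kb (σ x) = kb x)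
    (c1 : ∀ f g, ip J (cE J (fun x => (ka x, m x)) f) (cE J kb g) =
      ip J (cE J kb f) (cE J (fun x => (ka x, m x)) g))
    (c2 : ∀ f g, ip J (cE J (fun x => (ka x, m x)) f) (cE J (fun x => (kb x, m x)) g) =
      ip J (cE J (fun x => (kb x, m x)) f) (cE J (fun x => (ka x, m x)) g))
    (c3 : ∀ f g, ip J (cE J (fun x => (kb x, m x)) f) (cE J ka g) =
      ip J (cE J ka f) (cE J (fun x => (kb x, m x)) g))
    (hs : ∀ x ∈ J, ¬ m x → (∀ y ∈ J, ka y = ka x → ¬ m y) ∨ (∀ y ∈ J, kb y = kb x → ¬ m y))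
    (f : α → ℝ) :
    (∑ x ∈ J, (f x - f (σ x)) ^ 2) / 4
      - (∑ x ∈ J, (if m x then (cE J (fun x => (ka x, m x)) f x - cE J ka f x) ^ 2 else 0)) / 2
      - (∑ x ∈ J, (if m x then (cE J (fun x => (kb x, m x)) f x - cE J kb f x) ^ 2 else 0)) / 2
      ≤ ip J (cH J ka f) (cH J kb f) := by
  set ka' : α → β × Prop := fun x => (ka x, m x) with hka'
  set kb' : α → β' × Prop := fun x => (kb x, m x) with hkb'
  have hbij : Set.BijOn σ J J :=
    ⟨fun x hx => hσ x hx, fun x hx y hy h => by rw [← hσσ x hx, h, hσσ y hy],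
      fun x hx => ⟨σ x, hσ x hx, hσσ x hx⟩⟩
  set u : α → ℝ := fun x => (1 / 2) * (f x - f (σ x)) with hu
  have hkill : ∀ {γ : Type w} (k : α → γ), (∀ x ∈ J, k (σ x) = k x) → ∀ x ∈ J,
      cH J k u x = u x := by
    intro γ k hk x hx
    have : cE J k (fun y => f (σ y)) x = cE J k f x := by
      rw [cE_bij σ hbij (k := k) (k' := k) (fun x hx y hy => by rw [hk x hx, hk y hy]) f hx]
      exact cE_key f (hk x hx)
    unfold cH
    rw [hu, cE_mul, cE_sub, this, sub_self, mul_zero, sub_zero]
  have hsq : ∑ x ∈ J, f (σ x) ^ 2 = ∑ x ∈ J, f x ^ 2 :=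
    sum_nbij σ (fun _ hx => hbij.mapsTo hx) hbij.injOn hbij.surjOn fun _ _ => rfl
  have hfu : ip J f u = ip J u u := by
    have : ip J f u - ip J u u = (∑ x ∈ J, f x ^ 2 - ∑ x ∈ J, f (σ x) ^ 2) / 4 := by
      unfold ip
      rw [← sum_sub_distrib, ← sum_sub_distrib, sum_div]
      exact sum_congr rfl fun x _ => by rw [hu]; ring
    rw [hsq, sub_self, zero_div] at this
    linarith
  have huu : ip J u u = (∑ x ∈ J, (f x - f (σ x)) ^ 2) / 4 := by
    unfold ip; rw [sum_div]; exact sum_congr rfl fun x _ => by rw [hu]; ring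
  -- first term
  have t1 : ip J u u ≤ ip J (cH J ka' f) (cH J kb f) := by
    set p := cH J kb f with hp
    set w' := cH J ka' p with hw
    have e1 : ip J w' u = ip J u u := by
      rw [hw, ip_cH_symm, ip_congr (fun _ _ => rfl) (hkill ka' hσa), hp, ip_cH_symm,
        ip_congr (fun _ _ => rfl) (hkill kb hσb), hfu]
    have e2 : ip J w' w' = ip J (cH J ka' f) p := by
      rw [hw, ip_cH_cH, ip_cH_symm J ka' f]
      have h1 : ip J f (cH J ka' p) - ip J p (cH J ka' p) = ip J (cE J kb f) (cH J ka' p) := by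
        rw [← ip_sub_left]; exact ip_congr (fun x _ => by rw [hp]; unfold cH; ring) fun _ _ => rfl
      have h2 : ip J (cE J kb f) (cH J ka' p) = 0 := by
        unfold cH
        rw [ip_sub_right, ← c1, ip_cE_symm, ip_zero_right fun x hx => cE_cH f hx,
          ip_zero_right fun x hx => cE_cH f hx, sub_zero]
      linarith
    have e3 := ip_self_nonneg J fun x => w' x - u x
    rw [ip_sub_left, ip_sub_right, ip_sub_right, ip_comm J u w', e1] at e3
    linarith
  -- second term
  have t2 : 0 ≤ ip J (fun x => cE J ka' f x - cE J ka f x) (cH J kb' f) := by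
    set p := cH J kb' f with hp
    have h0 : ∀ g, ip J g (cE J kb' p) = 0 := fun g => ip_zero_right fun x hx => cE_cH f hx
    have h1 : ∀ g, ip J f g = ip J p g + ip J (cE J kb' f) g := by
      intro g
      rw [← ip_add_left]; exact ip_congr (fun x _ => by rw [hp]; unfold cH; ring) fun _ _ => rfl
    have h2 : ip J (cE J ka' p) (cE J ka p) = ip J p (cE J ka p) := by
      rw [ip_cE_symm]
      exact ip_congr (fun _ _ => rfl) fun x hx =>
        cE_of_inv hx fun y _ h => cE_key p (congrArg Prod.fst h)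
    have h3 := ip_self_nonneg J fun x => cE J ka' p x - cE J ka p x
    rw [ip_sub_left, ip_sub_right, ip_sub_right, ip_comm J (cE J ka p) (cE J ka' p), h2,
      ip_cE_cE, ip_cE_cE] at h3
    rw [ip_sub_left, ip_cE_symm, ip_cE_symm, h1, h1 (cE J ka p), ← c2, c3, h0, h0]
    linarith
  -- third term
  have t3 : - (∑ x ∈ J, (if m x then (cE J ka' f x - cE J ka f x) ^ 2 else 0)) / 2
      - (∑ x ∈ J, (if m x then (cE J kb' f x - cE J kb f x) ^ 2 else 0)) / 2 ≤
      ip J (fun x => cE J ka' f x - cE J ka f x) (fun x => cE J kb' f x - cE J kb f x) := by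
    unfold ip
    rw [← sum_neg_distrib, sum_div, sum_div, ← sum_sub_distrib]
    refine sum_le_sum fun x hx => ?_
    by_cases hm : m x
    · rw [if_pos hm, if_pos hm]
      nlinarith [sq_nonneg (cE J ka' f x - cE J ka f x + (cE J kb' f x - cE J kb f x))]
    · rw [if_neg hm, if_neg hm]
      rcases hs x hx hm with h | h
      · have : cE J ka' f x = cE J ka f x := cE_key_congr (fun y hy =>
          ⟨fun h' => congrArg Prod.fst h', fun h' =>
            Prod.ext h' (propext (iff_of_false (h y hy h') hm))⟩) f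
        simp [this]
      · have : cE J kb' f x = cE J kb f x := cE_key_congr (fun y hy =>
          ⟨fun h' => congrArg Prod.fst h', fun h' =>
            Prod.ext h' (propext (iff_of_false (h y hy h') hm))⟩) f
        simp [this]
  have d1 : ip J (cH J ka f) (cH J kb f) = ip J (cH J ka' f) (cH J kb f) +
      ip J (fun x => cE J ka' f x - cE J ka f x) (cH J kb f) := by
    rw [← ip_add_left]; exact ip_congr (fun x _ => by unfold cH; ring) fun _ _ => rfl
  have d2 : ip J (fun x => cE J ka' f x - cE J ka f x) (cH J kb f) =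
      ip J (fun x => cE J ka' f x - cE J ka f x) (cH J kb' f) +
      ip J (fun x => cE J ka' f x - cE J ka f x) (fun x => cE J kb' f x - cE J kb f x) := by
    rw [← ip_add_right]; exact ip_congr (fun _ _ => rfl) fun x _ => by unfold cH; ring
  linarith

end Vale.Agent.P335
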