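import Vale.Agent.P335.PairIneq
import Vale.Agent.P335.DisjAbs

/-! The inequality for two disjoint vertex pairs. -/

namespace Vale.Agent.P335

open Finset

variable {V : Type*} [Fintype V] [DecidableEq V]

/-- Glue the edges of `x'` from `a` to the outside with the remaining edges of `y`. -/
def glue (π : Equiv.Perm V) (a b : Finset V) (x' y : SimpleGraph V) : SimpleGraph V :=
  SimpleGraph.fromRel fun u v => (u ∈ a ∧ v ∉ a ∧ v ∉ b ∧ x'.Adj u v) ∨
    (u ∈ a ∧ v ∉ a ∧ v ∈ b ∧ y.Adj (π u) v) ∨ ((u ∈ a ↔ v ∈ a) ∧ y.Adj u v)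

omit [Fintype V] [DecidableEq V] in
theorem glue_as {π : Equiv.Perm V} {a b : Finset V} {x' y : SimpleGraph V} {u v : V}
    (hu : u ∈ a) (hv : v ∉ a) (hv' : v ∉ b) : (glue π a b x' y).Adj u v ↔ x'.Adj u v := by
  have : u ≠ v := fun h => hv (h ▸ hu)
  unfold glue; rw [SimpleGraph.fromRel_adj]; simp [*]

omit [Fintype V] [DecidableEq V] in
theorem glue_ab {π : Equiv.Perm V} {a b : Finset V} {x' y : SimpleGraph V} {u v : V}
    (hu : u ∈ a) (hv : v ∉ a) (hv' : v ∈ b) : (glue π a b x' y).Adj u v ↔ y.Adj (π u) v := by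
  have : u ≠ v := fun h => hv (h ▸ hu)
  unfold glue; rw [SimpleGraph.fromRel_adj]; simp [*]

omit [Fintype V] [DecidableEq V] in
theorem glue_else {π : Equiv.Perm V} {a b : Finset V} {x' y : SimpleGraph V} {u v : V}
    (h : u ∈ a ↔ v ∈ a) : (glue π a b x' y).Adj u v ↔ y.Adj u v := by
  unfold glue; rw [SimpleGraph.fromRel_adj]
  constructor
  · rintro ⟨_, h' | h'⟩
    · rcases h' with h' | h' | h'
      · exact absurd (h.1 h'.1) h'.2.1
      · exact absurd (h.1 h'.1) h'.2.1
      · exact h'.2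
    · rcases h' with h' | h' | h'
      · exact absurd (h.2 h'.1) h'.2.1
      · exact absurd (h.2 h'.1) h'.2.1
      · exact h'.2.symm
  · intro h'; exact ⟨h'.ne, Or.inl (Or.inr (Or.inr ⟨h, h'⟩))⟩

omit [Fintype V] [DecidableEq V] in
theorem graph_ext_glue {a : Finset V} {G H : SimpleGraph V}
    (h1 : ∀ u ∈ a, ∀ v ∉ a, (G.Adj u v ↔ H.Adj u v))
    (h2 : ∀ u v, (u ∈ a ↔ v ∈ a) → (G.Adj u v ↔ H.Adj u v)) : G = H := by
  ext u v
  by_cases hu : u ∈ a <;> by_cases hv : v ∈ a
  · exact h2 u v (iff_of_true hu hv)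
  · exact h1 u hu v hv
  · rw [G.adj_comm, H.adj_comm]; exact h1 v hv u hu
  · exact h2 u v (iff_of_false hu hv)

theorem glue_spec {d : V → ℕ} {π : Equiv.Perm V} {a b : Finset V} (hab : Disjoint a b)
    (hπ : ∀ u, π u ∈ a ↔ u ∈ a) {x x' y : SimpleGraph V} (hx : x ∈ Om d) (hx' : x' ∈ Om d)
    (hy : y ∈ Om d) (ha : outK a x = outK a x') (hin : ∀ u ∈ a, ∀ v ∈ a, x.Adj u v ↔ x'.Adj u v)
    (hrow : ∀ u ∈ a, ∑ v ∈ b, ind x (π u) v = ∑ v ∈ b, ind x' u v)
    (hb : outK b y = outK b x) :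
    glue π a b x' y ∈ Om d ∧ outK b (glue π a b x' y) = outK b x' ∧
      outK a (glue π a b x' y) = outK a y := by
  have hab' : ∀ u ∈ a, u ∉ b := fun u hu => disjoint_left.1 hab hu
  have hba' : ∀ u ∈ b, u ∉ a := fun u hu => disjoint_right.1 hab hu
  have hkb : outK b (glue π a b x' y) = outK b x' := by
    refine outK_eq_iff.2 fun u hu v hv => ?_
    by_cases h1 : u ∈ a <;> by_cases h2 : v ∈ a
    · rw [glue_else (iff_of_true h1 h2), outK_eq_iff.1 hb u hu v hv, hin u h1 v h2]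
    · exact glue_as h1 h2 hv
    · rw [SimpleGraph.adj_comm, x'.adj_comm]; exact glue_as h2 h1 hu
    · rw [glue_else (iff_of_false h1 h2), outK_eq_iff.1 hb u hu v hv, outK_eq_iff.1 ha u h1 v h2]
  refine ⟨mem_Om.2 fun v => ?_, hkb, outK_eq_iff.2 fun u hu v hv => glue_else (iff_of_false hu hv)⟩
  by_cases hva : v ∈ a
  · rw [← mem_Om.1 hx' v, deg_split b, deg_split b]
    congr 1
    · rw [← hrow v hva, ← sum_in_eq hy hx hb (hab' _ ((hπ v).2 hva))]
      exact sum_congr rfl fun w hw => ind_congr (glue_ab hva (hba' w hw) hw)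
    · exact sum_congr rfl fun w hw =>
        ind_congr (outK_eq_iff.1 hkb v (hab' v hva) w (mem_compl.1 hw))
  · rw [← mem_Om.1 hy v, deg_split a, deg_split a]
    congr 1
    · by_cases hvb : v ∈ b
      · refine sum_bij (fun w _ => π w) (fun w hw => (hπ w).2 hw)
          (fun _ _ _ _ h => π.injective h)
          (fun w hw => ⟨π.symm w, by rw [← hπ]; simpa using hw, by simp⟩) fun w hw => ?_
        rw [ind_comm, ind_comm y]
        exact ind_congr (glue_ab hw hva hvb)
      · calc ∑ w ∈ a, ind (glue π a b x' y) v w = ∑ w ∈ a, ind x' v w :=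
              sum_congr rfl fun w hw => by
                rw [ind_comm, ind_comm x']; exact ind_congr (glue_as hw hva hvb)
          _ = ∑ w ∈ a, ind x v w := (sum_in_eq hx hx' ha hva).symm
          _ = ∑ w ∈ a, ind y v w := sum_congr rfl fun w hw =>
              ind_congr (outK_eq_iff.1 hb v hvb w (hab' w hw)).symm
    · exact sum_congr rfl fun w hw => ind_congr (glue_else (iff_of_false hva (mem_compl.1 hw)))

omit [Fintype V] [DecidableEq V] in
theorem glue_glue {π : Equiv.Perm V} {a b : Finset V} (hab : Disjoint a b)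
    (hπ : ∀ u, π u ∈ a ↔ u ∈ a) (hππ : ∀ u, π (π u) = u) {x x' y : SimpleGraph V}
    (hb : outK b y = outK b x) : glue π a b x (glue π a b x' y) = y := by
  refine graph_ext_glue (a := a) (fun u hu v hv => ?_) fun u v h => by
    rw [glue_else h, glue_else h]
  by_cases hvb : v ∈ b
  · rw [glue_ab hu hv hvb, glue_ab ((hπ u).2 hu) hv hvb, hππ]
  · rw [glue_as hu hv hvb]
    exact (outK_eq_iff.1 hb u (disjoint_left.1 hab hu) v hvb).symm

omit [Fintype V] [DecidableEq V] in
theorem alt_iff_ind {G : SimpleGraph V} {i j k l : V} : Alt G i j k l ↔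
    ind G i k + ind G i l = 1 ∧ ind G j k + ind G j l = 1 ∧ ind G i k + ind G j k = 1 := by
  unfold Alt ind
  by_cases a : G.Adj i k <;> by_cases b : G.Adj i l <;> by_cases c : G.Adj j k <;>
    by_cases e : G.Adj j l <;> simp [a, b, c, e]

omit [Fintype V] [DecidableEq V] in
theorem alt_swap {G : SimpleGraph V} {i j k l : V} : Alt G k l i j ↔ Alt G i j k l := by
  rw [alt_iff_ind, alt_iff_ind, ind_comm G k i, ind_comm G k j, ind_comm G l i, ind_comm G l j]
  omega

omit [Fintype V] [DecidableEq V] in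
theorem ind_le (G : SimpleGraph V) (u v : V) : ind G u v ≤ 1 := by
  rcases ind_cases G u v with h | h <;> omega

omit [Fintype V] [DecidableEq V] in
theorem Dist4.swap {i j k l : V} (h : Dist4 i j k l) : Dist4 k l i j :=
  ⟨h.2.2.2.2.2, h.2.1.symm, h.2.2.2.1.symm, h.2.2.1.symm, h.2.2.2.2.1.symm, h.1⟩

/-- The matching bijection between fibres of the second pair. -/
theorem disj_bij {d : V → ℕ} {i j k l : V} (hd : Dist4 i j k l) {x x' : SimpleGraph V}
    (hx : x ∈ Om d) (hx' : x' ∈ Om d) (ha : outK {i, j} x = outK {i, j} x')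
    (hA : Alt x i j k l ↔ Alt x' i j k l) :
    ∃ e e' : SimpleGraph V → SimpleGraph V,
      (∀ y ∈ Om d, outK {k, l} y = outK {k, l} x → e y ∈ Om d ∧
        outK {k, l} (e y) = outK {k, l} x' ∧ outK {i, j} (e y) = outK {i, j} y ∧
        (Alt (e y) i j k l ↔ Alt y i j k l) ∧ e' (e y) = y) ∧
      (∀ y ∈ Om d, outK {k, l} y = outK {k, l} x' → e' y ∈ Om d ∧
        outK {k, l} (e' y) = outK {k, l} x ∧
        (Alt (e' y) i j k l ↔ Alt y i j k l) ∧ e (e' y) = y) := by
  obtain ⟨d1, d2, d3, d4, d5, d6⟩ := id hd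
  have hab : Disjoint ({i, j} : Finset V) {k, l} := by
    rw [disjoint_left]; intro u hu; simp only [mem_insert, mem_singleton] at hu ⊢
    rcases hu with rfl | rfl <;> simp [*]
  have hck := pair_col d1 hx hx' ha d2.symm d4.symm
  have hcl := pair_col d1 hx hx' ha d3.symm d5.symm
  have hin : ∀ u ∈ ({i, j} : Finset V), ∀ v ∈ ({i, j} : Finset V), x.Adj u v ↔ x'.Adj u v := by
    have := adj_iff_of_ind (pair_edge d1 hx hx' ha)
    intro u hu v hv
    simp only [mem_insert, mem_singleton] at hu hv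
    rcases hu with rfl | rfl <;> rcases hv with rfl | rfl
    · simp
    · exact this
    · rw [x.adj_comm, x'.adj_comm]; exact this
    · simp
  obtain ⟨π, hπ, hππ, hrow, halt⟩ : ∃ π : Equiv.Perm V,
      (∀ u, π u ∈ ({i, j} : Finset V) ↔ u ∈ ({i, j} : Finset V)) ∧ (∀ u, π (π u) = u) ∧
      (∀ u ∈ ({i, j} : Finset V), ∑ v ∈ {k, l}, ind x (π u) v = ∑ v ∈ {k, l}, ind x' u v) ∧
      ∀ y, Alt y (π i) (π j) k l ↔ Alt y i j k l := by
    by_cases hr : ind x i k + ind x i l = ind x' i k + ind x' i l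
    · refine ⟨1, fun _ => Iff.rfl, fun _ => rfl, fun u hu => ?_, fun _ => Iff.rfl⟩
      simp only [mem_insert, mem_singleton] at hu
      rw [sum_pair d6, sum_pair d6]
      rcases hu with rfl | rfl
      · exact hr
      · simp only [Equiv.Perm.coe_one, id]; omega
    · refine ⟨Equiv.swap i j, fun u => ?_, fun u => Equiv.swap_apply_self _ _ _, fun u hu => ?_,
        fun y => ?_⟩
      · rw [← mem_tr, tr_of_iff (by simp)]
      · simp only [mem_insert, mem_singleton] at hu
        rw [sum_pair d6, sum_pair d6]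
        rw [alt_iff_ind, alt_iff_ind] at hA
        have := ind_le x i k; have := ind_le x i l; have := ind_le x j k; have := ind_le x j l
        have := ind_le x' i k; have := ind_le x' i l; have := ind_le x' j k; have := ind_le x' j l
        rcases hu with rfl | rfl
        · rw [Equiv.swap_apply_left]; omega
        · rw [Equiv.swap_apply_right]; omega
      · rw [Equiv.swap_apply_left, Equiv.swap_apply_right, alt_iff_ind, alt_iff_ind]; omega
  have hrow' : ∀ u ∈ ({i, j} : Finset V),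
      ∑ v ∈ {k, l}, ind x' (π u) v = ∑ v ∈ {k, l}, ind x u v := by
    intro u hu
    rw [← hrow (π u) ((hπ u).2 hu), hππ]
  have hAg : ∀ z y, Alt (glue π {i, j} {k, l} z y) i j k l ↔ Alt y i j k l := by
    intro z y
    rw [← halt y]
    unfold Alt
    rw [glue_ab (by simp) (by simp [d2.symm, d4.symm]) (by simp),
      glue_ab (by simp) (by simp [d3.symm, d5.symm]) (by simp),
      glue_ab (by simp) (by simp [d3.symm, d5.symm]) (by simp),
      glue_ab (by simp) (by simp [d2.symm, d4.symm]) (by simp)]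
  refine ⟨glue π {i, j} {k, l} x', glue π {i, j} {k, l} x, fun y hy hb => ?_, fun y hy hb => ?_⟩
  · obtain ⟨h1, h2, h3⟩ := glue_spec hab hπ hx hx' hy ha hin hrow hb
    exact ⟨h1, h2, h3, hAg _ _, glue_glue hab hπ hππ hb⟩
  · obtain ⟨h1, h2, -⟩ := glue_spec hab hπ hx' hx hy ha.symm
      (fun u hu v hv => (hin u hu v hv).symm) hrow' hb
    exact ⟨h1, h2, hAg _ _, glue_glue hab hπ hππ hb⟩

theorem disj_comm1 {d : V → ℕ} {i j k l : V} (hd : Dist4 i j k l) (m : SimpleGraph V → Prop)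
    (hm : ∀ G, m G ↔ Alt G i j k l) (f g : SimpleGraph V → ℝ) :
    ip (Om d) (cE (Om d) (fun x => (outK {i, j} x, m x)) f) (cE (Om d) (outK {k, l}) g) =
      ip (Om d) (cE (Om d) (outK {k, l}) f) (cE (Om d) (fun x => (outK {i, j} x, m x)) g) := by
  refine cE_comm (fun x hx x' hx' h => ?_) f g
  obtain ⟨e, e', h1, h2⟩ := disj_bij hd hx hx' (congrArg Prod.fst h)
    (by rw [← hm, ← hm]; exact iff_of_eq (congrArg Prod.snd h))
  refine ⟨e, Set.InvOn.bijOn (f' := e') ⟨fun y hy => ?_, fun y hy => ?_⟩ (fun y hy => ?_)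
    fun y hy => ?_, fun y hy => ?_⟩
  all_goals obtain ⟨a, b⟩ := mem_cls.1 hy
  · exact (h1 y a b).2.2.2.2
  · exact (h2 y a b).2.2.2
  · exact mem_coe.2 (mem_cls.2 ⟨(h1 y a b).1, (h1 y a b).2.1⟩)
  · exact mem_coe.2 (mem_cls.2 ⟨(h2 y a b).1, (h2 y a b).2.1⟩)
  · exact Prod.ext (h1 y a b).2.2.1 (propext (by rw [hm, hm]; exact (h1 y a b).2.2.2.1))

theorem disj_comm2 {d : V → ℕ} {i j k l : V} (hd : Dist4 i j k l) (m : SimpleGraph V → Prop)
    (hm : ∀ G, m G ↔ Alt G i j k l) (f g : SimpleGraph V → ℝ) :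
    ip (Om d) (cE (Om d) (fun x => (outK {i, j} x, m x)) f)
        (cE (Om d) (fun x => (outK {k, l} x, m x)) g) =
      ip (Om d) (cE (Om d) (fun x => (outK {k, l} x, m x)) f)
        (cE (Om d) (fun x => (outK {i, j} x, m x)) g) := by
  refine cE_comm (fun x hx x' hx' h => ?_) f g
  have hmm : m x = m x' := congrArg Prod.snd h
  obtain ⟨e, e', h1, h2⟩ := disj_bij hd hx hx' (congrArg Prod.fst h)
    (by rw [← hm, ← hm]; exact iff_of_eq hmm)
  refine ⟨e, Set.InvOn.bijOn (f' := e') ⟨fun y hy => ?_, fun y hy => ?_⟩ (fun y hy => ?_)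
    fun y hy => ?_, fun y hy => ?_⟩
  all_goals
    obtain ⟨a, b'⟩ := mem_cls.1 hy
    have b := congrArg Prod.fst b'
    have c := congrArg Prod.snd b'
    simp only at b c
  · exact (h1 y a b).2.2.2.2
  · exact (h2 y a b).2.2.2
  · refine mem_coe.2 (mem_cls.2 ⟨(h1 y a b).1, Prod.ext (h1 y a b).2.1 ?_⟩)
    show m (e y) = m x'
    rw [← hmm, ← c]
    exact propext (by rw [hm, hm]; exact (h1 y a b).2.2.2.1)
  · refine mem_coe.2 (mem_cls.2 ⟨(h2 y a b).1, Prod.ext (h2 y a b).2.1 ?_⟩)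
    show m (e' y) = m x
    rw [hmm, ← c]
    exact propext (by rw [hm, hm]; exact (h2 y a b).2.2.1)
  · exact Prod.ext (h1 y a b).2.2.1 (propext (by rw [hm, hm]; exact (h1 y a b).2.2.2.1))

omit [Fintype V] in
theorem outK_sw {i j k l : V} (hd : Dist4 i j k l) (G : SimpleGraph V) :
    outK {i, j} (sw i j k l G) = outK {i, j} G ∧ outK {k, l} (sw i j k l G) = outK {k, l} G := by
  constructor <;> refine outK_eq_iff.2 fun u hu v hv => sw_adj_of_not_cyc ?_ <;>
    rw [cyc_adj hd] <;> simp only [mem_insert, mem_singleton] at hu hv <;>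
    rintro (⟨h1, h2⟩ | ⟨h1, h2⟩) <;> contradiction

theorem disj_ineq {d : V → ℕ} {i j k l : V} (hd : Dist4 i j k l) (f : SimpleGraph V → ℝ) :
    swE d f i j k l / 4 - swT d f i j k l / 2 - swT d f k l i j / 2 ≤
      ip (Om d) (cH (Om d) (outK {i, j}) f) (cH (Om d) (outK {k, l}) f) := by
  obtain ⟨d1, d2, d3, d4, d5, d6⟩ := id hd
  have key := disj_abs (Om d) (outK {i, j}) (outK {k, l}) (fun G => Alt G i j k l) (sw i j k l)
    (fun G hG => sw_mem hd hG) (fun G _ => sw_sw hd)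
    (fun G _ => Prod.ext (outK_sw hd G).1 (propext (alt_sw hd))) (fun G _ => (outK_sw hd G).2)
    (disj_comm1 hd _ fun _ => Iff.rfl) (disj_comm2 hd _ fun _ => Iff.rfl)
    (disj_comm1 hd.swap _ fun _ => alt_swap.symm) ?_ f
  · unfold swE swT
    rw [if_pos hd, if_pos hd, if_pos hd.swap]
    have : altK k l i j = fun G : SimpleGraph V => (outK {k, l} G, Alt G i j k l) := by
      funext G; exact Prod.ext rfl (propext alt_swap)
    rw [this]
    have e : ∀ G : SimpleGraph V, Alt G k l i j = Alt G i j k l := fun G => propext alt_swap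
    refine le_trans (le_of_eq ?_) key
    congr 2
    exact sum_congr rfl fun G _ => by rw [e]
  · intro x hx hm
    by_contra hcon
    push Not at hcon
    obtain ⟨⟨y, hy, hy1, hy2⟩, ⟨z, hz, hz1, hz2⟩⟩ := hcon
    apply hm
    have a1 := pair_col d1 hy hx hy1 d2.symm d4.symm
    have a2 := pair_col d1 hy hx hy1 d3.symm d5.symm
    have a3 := pair_col d6 hz hx hz1 d2 d3
    have a4 := pair_col d6 hz hx hz1 d4 d5
    rw [alt_iff_ind] at hy2 hz2 ⊢
    rw [ind_comm z k, ind_comm z l, ind_comm x k, ind_comm x l] at a3 a4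
    omega

end Vale.Agent.P335
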