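import Vale.Agent.P335.JohnsonA

/-! Spectral gap of the Johnson graph and the pair inequality. -/

namespace Vale.Agent.P335

open Finset

variable {C : Type*} [DecidableEq C]

theorem jb_sum_tr (F : Finset C) (κ : ℕ) {k l : C} (hk : k ∈ F) (hl : l ∈ F)
    (φ : Finset C → ℝ) :
    ∑ S ∈ powersetCard κ F, φ (tr k l S) = ∑ S ∈ powersetCard κ F, φ S :=
  sum_nbij' (tr k l) (tr k l) (fun _ hS => tr_mem_powersetCard hk hl hS)
    (fun _ hS => tr_mem_powersetCard hk hl hS) (fun S _ => tr_tr k l S) (fun S _ => tr_tr k l S)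
    (fun _ _ => rfl)

theorem jb_swap_mem {F : Finset C} {a b k : C} (ha : a ∈ F) (hb : b ∈ F) (hk : k ∈ F) :
    Equiv.swap a b k ∈ F := by
  by_cases h1 : k = a
  · subst h1; simpa using hb
  by_cases h2 : k = b
  · subst h2; simpa using ha
  rwa [Equiv.swap_apply_of_ne_of_ne h1 h2]

theorem jb_sum_swap {F : Finset C} {a b : C} (ha : a ∈ F) (hb : b ∈ F) (φ : C → ℝ) :
    ∑ k ∈ F, φ (Equiv.swap a b k) = ∑ k ∈ F, φ k :=
  sum_nbij' (Equiv.swap a b) (Equiv.swap a b) (fun _ hk => jb_swap_mem ha hb hk)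
    (fun _ hk => jb_swap_mem ha hb hk) (fun _ _ => by simp) (fun _ _ => by simp) (fun _ _ => rfl)

theorem jb_tr_conj (a b k l : C) (S : Finset C) :
    tr (Equiv.swap a b k) (Equiv.swap a b l) (tr a b S) = tr a b (tr k l S) := by
  ext x
  rw [mem_tr, mem_tr, mem_tr, mem_tr, Equiv.swap_apply_apply]
  simp

/-- The Johnson Laplacian. -/
def jbL (F : Finset C) (f : Finset C → ℝ) (S : Finset C) : ℝ :=
  ∑ k ∈ F, ∑ l ∈ F, (f S - f (tr k l S))

theorem jb_ip_L (F : Finset C) (κ : ℕ) (f g : Finset C → ℝ) :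
    2 * ip (powersetCard κ F) f (jbL F g) =
      ∑ k ∈ F, ∑ l ∈ F, ∑ S ∈ powersetCard κ F,
        (f S - f (tr k l S)) * (g S - g (tr k l S)) := by
  unfold ip jbL
  simp only [mul_sum]
  rw [sum_comm]
  refine sum_congr rfl fun k hk => ?_
  rw [sum_comm]
  refine sum_congr rfl fun l hl => ?_
  have h := jb_sum_tr F κ hk hl fun S => f S * (g S - g (tr k l S))
  simp only [tr_tr] at h
  rw [← sub_eq_zero, ← sum_sub_distrib]
  rw [← sub_eq_zero, ← sum_sub_distrib] at h
  rw [← neg_zero, ← h, ← sum_neg_distrib]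
  exact sum_congr rfl fun S _ => by ring

theorem jb_max (F : Finset C) (κ : ℕ) {a b : C} (ha : a ∈ F) (hb : b ∈ F) (g : Finset C → ℝ)
    (h0 : ∀ S, (a ∈ S ↔ b ∈ S) → g S = 0) (h1 : ∀ S, g (tr a b S) = - g S)
    {S : Finset C} (hS : S ∈ powersetCard κ F)
    (hmax : ∀ S' ∈ powersetCard κ F, |g S'| ≤ |g S|) (haS : a ∈ S) (hbS : b ∉ S) :
    2 * (F.card : ℝ) * g S ^ 2 ≤ g S * jbL F g S := by
  have hab : a ≠ b := fun h => hbS (h ▸ haS)
  set t : C → C → ℝ := fun k l => g S * (g S - g (tr k l S)) with ht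
  have tpos : ∀ k ∈ F, ∀ l ∈ F, 0 ≤ t k l := by
    intro k hk l hl
    have h2 := hmax _ (tr_mem_powersetCard hk hl hS)
    have h3 : g S * g (tr k l S) ≤ |g S| * |g (tr k l S)| := by
      rw [← abs_mul]; exact le_abs_self _
    have h4 : |g S| * |g (tr k l S)| ≤ |g S| * |g S| :=
      mul_le_mul_of_nonneg_left h2 (abs_nonneg _)
    rw [abs_mul_abs_self] at h4
    simp only [ht]; nlinarith
  have tsym : ∀ k l, t k l = t l k := fun k l => by simp only [ht]; rw [tr_comm]
  have tab : t a b = 2 * g S ^ 2 := by simp only [ht]; rw [h1]; ring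
  have tkk : ∀ k, t k k = 0 := fun k => by simp only [ht]; rw [tr_of_iff Iff.rfl]; ring
  set F' := (F.erase a).erase b with hF'
  have hbF : b ∈ F.erase a := mem_erase.2 ⟨hab.symm, hb⟩
  have hsplit : ∀ φ : C → ℝ, ∑ k ∈ F, φ k = φ a + φ b + ∑ k ∈ F', φ k := by
    intro φ
    rw [← add_sum_erase F φ ha, ← add_sum_erase _ φ hbF, add_assoc]
  have hm : ∀ m ∈ F', g S ^ 2 ≤ t a m + t b m := by
    intro m hm
    obtain ⟨hmb, hm⟩ := mem_erase.1 hm
    obtain ⟨hma, hm⟩ := mem_erase.1 hm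
    by_cases hmS : m ∈ S
    · have : g (tr b m S) = 0 := by
        refine h0 _ ?_
        rw [mem_tr, mem_tr, Equiv.swap_apply_of_ne_of_ne hab (Ne.symm hma), Equiv.swap_apply_left]
        simp [haS, hmS]
      have h2 := tpos a ha m hm
      have h3 : t b m = g S ^ 2 := by simp only [ht]; rw [this]; ring
      linarith
    · have : g (tr a m S) = 0 := by
        refine h0 _ ?_
        rw [mem_tr, mem_tr, Equiv.swap_apply_of_ne_of_ne hab.symm (Ne.symm hmb),
          Equiv.swap_apply_left]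
        simp [hbS, hmS]
      have h2 := tpos b hb m hm
      have h3 : t a m = g S ^ 2 := by simp only [ht]; rw [this]; ring
      linarith
  have hF'sub : ∀ m ∈ F', m ∈ F := fun m hm => mem_of_mem_erase (mem_of_mem_erase hm)
  have hcard : (F.card : ℝ) = 2 + F'.card := by
    have := hsplit fun _ => 1
    simp only [sum_const, nsmul_eq_mul, mul_one] at this
    linarith
  have e1 : g S * jbL F g S = ∑ k ∈ F, ∑ l ∈ F, t k l := by
    unfold jbL; simp only [mul_sum, ht]
  have e2 : (F'.card : ℝ) * g S ^ 2 ≤ ∑ m ∈ F', (t a m + t b m) := by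
    rw [← nsmul_eq_mul, ← sum_const]; exact sum_le_sum hm
  have e3 : ∑ m ∈ F', (t a m + t b m) ≤ ∑ k ∈ F', ∑ l ∈ F, t k l := by
    refine sum_le_sum fun k hk => ?_
    rw [hsplit, tsym a k, tsym b k]
    have : 0 ≤ ∑ l ∈ F', t k l := sum_nonneg fun l hl => tpos k (hF'sub k hk) l (hF'sub l hl)
    linarith
  rw [e1, hsplit, hsplit (t a), hsplit (t b), tkk, tkk, tsym b a, tab, hcard]
  rw [sum_add_distrib] at e2 e3
  nlinarith

theorem johnson_gap_sharp (F : Finset C) (κ : ℕ) (f : Finset C → ℝ) :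
    4 * (F.card : ℝ) * ∑ S ∈ powersetCard κ F, (f S - avg (powersetCard κ F) f) ^ 2 ≤
      ∑ k ∈ F, ∑ l ∈ F, ∑ S ∈ powersetCard κ F, (f S - f (tr k l S)) ^ 2 := by
  set P := powersetCard κ F with hP
  set T : (Finset C → ℝ) → Finset C → ℝ :=
    fun f S => jbL F f S - 2 * (F.card : ℝ) * (f S - avg P f) with hT
  have hvar : ∀ f g : Finset C → ℝ, ip P f (fun S => g S - avg P g) =
      ∑ S ∈ P, (f S - avg P f) * (g S - avg P g) := by
    intro f g
    have h := sum_sub_avg P g
    unfold ip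
    simp only [sub_mul, sum_sub_distrib (f := fun S => f S * (g S - avg P g)), ← mul_sum, h]
    ring
  have hipT : ∀ f g : Finset C → ℝ, 2 * ip P f (T g) =
      ∑ k ∈ F, ∑ l ∈ F, ∑ S ∈ P, (f S - f (tr k l S)) * (g S - g (tr k l S)) -
        4 * (F.card : ℝ) * ∑ S ∈ P, (f S - avg P f) * (g S - avg P g) := by
    intro f g
    simp only [hT]
    rw [ip_sub_right, ip_mul_right, hvar, ← jb_ip_L]
    ring
  have key := spectral_quad P T ?_ ?_ ?_ ?_ 0 1 0 ?_ f
  · have h := hipT f f
    simp only [← sq] at h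
    linarith
  · intro f g x _
    simp only [hT, jbL, avg_add]
    have : ∑ k ∈ F, ∑ l ∈ F, (f x + g x - (f (tr k l x) + g (tr k l x))) =
        ∑ k ∈ F, ∑ l ∈ F, (f x - f (tr k l x)) + ∑ k ∈ F, ∑ l ∈ F, (g x - g (tr k l x)) := by
      simp only [← sum_add_distrib]
      exact sum_congr rfl fun _ _ => sum_congr rfl fun _ _ => by ring
    rw [this]; ring
  · intro c f x _
    simp only [hT, jbL, avg_mul, ← mul_sub, ← mul_sum]
    ring
  · intro f g h x hx
    simp only [hT, jbL]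
    rw [h x hx, avg_congr h]
    congr 1
    exact sum_congr rfl fun k hk => sum_congr rfl fun l hl => by
      rw [h _ (tr_mem_powersetCard hk hl hx)]
  · intro f g
    have h1 := hipT g f
    have h2 := hipT f g
    rw [ip_comm]
    simp only [mul_comm (g _ - _)] at h1
    linarith
  · intro μ w ⟨x, hx, hwx⟩ hw
    by_contra hneg
    have hμ : μ < 0 := by linarith
    have hconst : ∀ S ∈ P, ∀ a ∈ F, ∀ b ∈ F, w (tr a b S) = w S := by
      intro S0 hS0 a ha b hb
      set g : Finset C → ℝ := fun S => w S - w (tr a b S) with hg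
      have h0 : ∀ S, (a ∈ S ↔ b ∈ S) → g S = 0 := fun S h => by simp [hg, tr_of_iff h]
      have h1 : ∀ S, g (tr a b S) = - g S := fun S => by simp [hg, tr_tr]
      have hL : ∀ S ∈ P, jbL F g S = (2 * (F.card : ℝ) + μ) * g S := by
        intro S hS
        have e1 := hw S hS
        have e2 := hw _ (tr_mem_powersetCard ha hb hS)
        have e3 : jbL F w (tr a b S) =
            ∑ k ∈ F, ∑ l ∈ F, (w (tr a b S) - w (tr a b (tr k l S))) := by
          unfold jbL
          rw [← jb_sum_swap ha hb]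
          refine sum_congr rfl fun k _ => ?_
          rw [← jb_sum_swap ha hb]
          simp only [jb_tr_conj]
        have e4 : jbL F g S = jbL F w S - jbL F w (tr a b S) := by
          rw [e3]; unfold jbL
          simp only [← sum_sub_distrib, hg]
          exact sum_congr rfl fun _ _ => sum_congr rfl fun _ _ => by ring
        simp only [hT] at e1 e2
        rw [e4]; simp only [hg]; linarith
      obtain ⟨S, hS, hmax⟩ := exists_max_image P (fun S => |g S|) ⟨S0, hS0⟩
      have hz : g S = 0 := by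
        by_contra hne
        have hpos : 0 < g S ^ 2 := by positivity
        have hle : 2 * (F.card : ℝ) * g S ^ 2 ≤ g S * jbL F g S := by
          by_cases haS : a ∈ S
          · have hbS : b ∉ S := fun h => hne (h0 S ⟨fun _ => h, fun _ => haS⟩)
            exact jb_max F κ ha hb g h0 h1 hS hmax haS hbS
          · have hbS : b ∈ S := by
              by_contra h; exact hne (h0 S ⟨fun h' => absurd h' haS, fun h' => absurd h' h⟩)
            exact jb_max F κ hb ha g (fun S h => h0 S h.symm)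
              (fun S => by rw [tr_comm]; exact h1 S) hS hmax hbS haS
        rw [hL S hS] at hle
        nlinarith
      have := hmax S0 hS0
      rw [hz, abs_zero] at this
      have h5 : g S0 = 0 := abs_nonpos_iff.1 this
      simp only [hg] at h5
      linarith
    have hc := johnson_const F κ w hconst
    have e1 := hw x hx
    have e2 : avg P w = w x := by
      rw [avg_congr (g := fun _ => w x) fun y hy => hc y hy x hx]
      exact avg_const ⟨x, hx⟩ _
    have e3 : jbL F w x = 0 :=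
      sum_eq_zero fun k hk => sum_eq_zero fun l hl => by rw [hconst x hx k hk l hl, sub_self]
    simp only [hT, e2, e3] at e1
    have : μ * w x = 0 := by linarith
    rcases mul_eq_zero.1 this with h | h
    · exact hμ.ne h
    · exact hwx h

theorem johnson_gap (F : Finset C) (κ : ℕ) (f : Finset C → ℝ) :
    8 * ∑ S ∈ powersetCard κ F, (f S - avg (powersetCard κ F) f) ^ 2 ≤
      ∑ k ∈ F, ∑ l ∈ F, ∑ S ∈ powersetCard κ F, (f S - f (tr k l S)) ^ 2 := by
  by_cases hN : 2 ≤ F.card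
  · refine le_trans ?_ (johnson_gap_sharp F κ f)
    have h1 : (2 : ℝ) ≤ F.card := by exact_mod_cast hN
    exact mul_le_mul_of_nonneg_right (by linarith) (sum_nonneg fun _ _ => sq_nonneg _)
  · have hz : ∑ S ∈ powersetCard κ F, (f S - avg (powersetCard κ F) f) ^ 2 = 0 := by
      refine sum_eq_zero fun S hS => ?_
      have hc := johnson_const F κ f fun S _ k hk l hl => by
        rw [card_le_one.1 (by omega) k hk l hl, tr_of_iff Iff.rfl]
      rw [avg_congr (g := fun _ => f S) fun y hy => hc y hy S hS, avg_const ⟨S, hS⟩]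
      simp
    rw [hz, mul_zero]
    exact sum_nonneg fun _ _ => sum_nonneg fun _ _ => sum_nonneg fun _ _ => sq_nonneg _

/-- Indicator of membership. -/
def jbx (k : C) (S : Finset C) : ℝ := if k ∈ S then 1 else 0

theorem jbx_mul_self (k : C) (S : Finset C) : jbx k S * jbx k S = jbx k S := by
  unfold jbx; split_ifs <;> simp

theorem jbx_sum {F S : Finset C} {κ : ℕ} (hS : S ∈ powersetCard κ F) :
    ∑ k ∈ F, jbx k S = κ := by
  obtain ⟨h1, h2⟩ := mem_powersetCard.1 hS
  unfold jbx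
  rw [← sum_filter, sum_const, filter_mem_eq_inter, inter_eq_right.2 h1, h2]
  simp

theorem jb_count (F : Finset C) (κ : ℕ) (A A' : Finset C) (hA : A ⊆ F) (hA' : A' ⊆ F)
    (hd : Disjoint A A') (hκ : A.card ≤ κ) :
    ((powersetCard κ F).filter fun S => A ⊆ S ∧ Disjoint S A').card =
      (F.card - A'.card - A.card).choose (κ - A.card) := by
  rw [← card_sdiff_of_subset hA', ← card_filter_powersetCard_subset A (F \ A') κ
    (subset_sdiff.2 ⟨hA, hd⟩) hκ]
  congr 1
  ext S
  simp only [mem_filter, mem_powersetCard, subset_sdiff]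
  tauto

theorem jb_count2 (F : Finset C) (κ : ℕ) (hκ : 1 ≤ κ) {k l : C} (hk : k ∈ F) (hl : l ∈ F)
    (hkl : k ≠ l) : ∑ S ∈ powersetCard κ F, jbx k S * (1 - jbx l S) =
      ((F.card - 2).choose (κ - 1) : ℝ) := by
  have h := jb_count F κ {k} {l} (by simpa using hk) (by simpa using hl) (by simpa using hkl)
    (by simpa using hκ)
  simp only [card_singleton, Nat.sub_sub] at h
  rw [← h, card_filter]
  push_cast
  refine sum_congr rfl fun S _ => ?_
  unfold jbx
  by_cases h1 : k ∈ S <;> by_cases h2 : l ∈ S <;> simp [h1, h2]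

theorem jb_count4 (F : Finset C) (κ : ℕ) {k l k' l' : C} (hk : k ∈ F) (hl : l ∈ F)
    (hk' : k' ∈ F) (hl' : l' ∈ F) (hkl : k ≠ l) (hkl' : k' ≠ l') :
    ∑ S ∈ powersetCard κ F, jbx k S * jbx l S * ((1 - jbx k' S) * (1 - jbx l' S)) =
      (if 4 ≤ F.card ∧ 2 ≤ κ then ((F.card - 4).choose (κ - 2) : ℝ) else 0) *
        ((1 - jbx k' {k, l}) * (1 - jbx l' {k, l})) := by
  by_cases h1 : k' ∈ ({k, l} : Finset C)
  · rw [jbx, if_pos h1, sub_self, zero_mul, mul_zero]
    refine sum_eq_zero fun S _ => ?_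
    unfold jbx
    rcases mem_insert.1 h1 with h | h
    · subst h; split_ifs <;> simp
    · rw [mem_singleton] at h; subst h; split_ifs <;> simp
  by_cases h2 : l' ∈ ({k, l} : Finset C)
  · rw [jbx, jbx, if_pos h2, sub_self, mul_zero, mul_zero]
    refine sum_eq_zero fun S _ => ?_
    unfold jbx
    rcases mem_insert.1 h2 with h | h
    · subst h; split_ifs <;> simp
    · rw [mem_singleton] at h; subst h; split_ifs <;> simp
  rw [jbx, jbx, if_neg h1, if_neg h2, sub_zero, mul_one, mul_one]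
  have hd : Disjoint ({k, l} : Finset C) {k', l'} := by
    rw [disjoint_right]
    intro x hx
    rcases mem_insert.1 hx with h | h
    · rwa [h]
    · rw [mem_singleton] at h; rwa [h]
  have hA : ({k, l} : Finset C) ⊆ F := by
    intro x hx; rcases mem_insert.1 hx with h | h
    · rwa [h]
    · rw [mem_singleton] at h; rwa [h]
  have hA' : ({k', l'} : Finset C) ⊆ F := by
    intro x hx; rcases mem_insert.1 hx with h | h
    · rwa [h]
    · rw [mem_singleton] at h; rwa [h]
  have hN : 4 ≤ F.card := by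
    have := card_le_card (union_subset hA hA')
    rwa [card_union_of_disjoint hd, card_pair hkl, card_pair hkl'] at this
  by_cases hκ : 2 ≤ κ
  · rw [if_pos ⟨hN, hκ⟩]
    have h := jb_count F κ {k, l} {k', l'} hA hA' hd (by rwa [card_pair hkl])
    rw [card_pair hkl, card_pair hkl', Nat.sub_sub] at h
    rw [← h, card_filter]
    push_cast
    refine sum_congr rfl fun S _ => ?_
    unfold jbx
    by_cases e1 : k ∈ S <;> by_cases e2 : l ∈ S <;> by_cases e3 : k' ∈ S <;>
      by_cases e4 : l' ∈ S <;> simp [e1, e2, e3, e4, insert_subset_iff]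
  · rw [if_neg fun h => hκ h.2]
    refine sum_eq_zero fun S hS => ?_
    have hc := (mem_powersetCard.1 hS).2
    unfold jbx
    by_cases e1 : k ∈ S
    · by_cases e2 : l ∈ S
      · exact absurd (card_le_one.1 (by omega) k e1 l e2) hkl
      · simp [e2]
    · simp [e1]

omit [DecidableEq C] in
theorem jb_compl (F : Finset C) (r : C → C → ℝ) (hsym : ∀ k l, r k l = r l k)
    (hrow : ∀ k ∈ F, ∑ l ∈ F, r k l = 0) (e : C → ℝ) :
    ∑ k ∈ F, ∑ l ∈ F, r k l * ((1 - e k) * (1 - e l)) =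
      ∑ k ∈ F, ∑ l ∈ F, r k l * (e k * e l) := by
  have h1 : ∑ k ∈ F, ∑ l ∈ F, r k l * (1 - e k) = 0 :=
    sum_eq_zero fun k hk => by rw [← sum_mul, hrow k hk, zero_mul]
  have h2 : ∑ k ∈ F, ∑ l ∈ F, r k l * e l = 0 := by
    rw [sum_comm]
    exact sum_eq_zero fun k hk => by
      rw [← sum_mul, sum_congr rfl fun l _ => hsym l k, hrow k hk, zero_mul]
  rw [← sub_zero (∑ k ∈ F, ∑ l ∈ F, r k l * (e k * e l)), ← h2, ← add_zero (_ - _), ← h1]
  simp only [← sum_sub_distrib, ← sum_add_distrib]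
  exact sum_congr rfl fun _ _ => sum_congr rfl fun _ _ => by ring

theorem jb_pair_ind (F : Finset C) (r : C → C → ℝ) (hsym : ∀ k l, r k l = r l k)
    (hdiag : ∀ k, r k k = 0) {k l : C} (hk : k ∈ F) (hl : l ∈ F) (hkl : k ≠ l) :
    ∑ k' ∈ F, ∑ l' ∈ F, r k' l' * (jbx k' {k, l} * jbx l' {k, l}) = 2 * r k l := by
  have hA : ({k, l} : Finset C) ⊆ F := by
    intro x hx; rcases mem_insert.1 hx with h | h
    · rwa [h]
    · rw [mem_singleton] at h; rwa [h]
  have h : ∀ φ : C → ℝ, ∑ x ∈ F, φ x * jbx x {k, l} = φ k + φ l := by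
    intro φ
    unfold jbx
    simp only [mul_ite, mul_one, mul_zero]
    rw [← sum_filter, filter_mem_eq_inter, inter_eq_right.2 hA, sum_pair hkl]
  have h2 : ∀ k', ∑ l' ∈ F, r k' l' * (jbx k' {k, l} * jbx l' {k, l}) =
      (r k' k + r k' l) * jbx k' {k, l} := by
    intro k'
    rw [← h (r k'), sum_mul]
    exact sum_congr rfl fun _ _ => by ring
  simp only [h2]
  rw [h, hdiag, hdiag, hsym l k]; ring

theorem jb_quad (F : Finset C) (κ : ℕ) (r : C → C → ℝ) (hsym : ∀ k l, r k l = r l k)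
    (hdiag : ∀ k, r k k = 0) (hrow : ∀ k ∈ F, ∑ l ∈ F, r k l = 0) :
    ∑ S ∈ powersetCard κ F, (∑ k ∈ F, ∑ l ∈ F, r k l * (jbx k S * jbx l S)) ^ 2 =
      2 * (if 4 ≤ F.card ∧ 2 ≤ κ then ((F.card - 4).choose (κ - 2) : ℝ) else 0) *
        ∑ k ∈ F, ∑ l ∈ F, r k l ^ 2 := by
  set q : ℝ := if 4 ≤ F.card ∧ 2 ≤ κ then ((F.card - 4).choose (κ - 2) : ℝ) else 0 with hq
  have h1 : ∀ S, (∑ k ∈ F, ∑ l ∈ F, r k l * (jbx k S * jbx l S)) ^ 2 =
      ∑ k ∈ F, ∑ l ∈ F, ∑ k' ∈ F, ∑ l' ∈ F, r k l * r k' l' *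
        (jbx k S * jbx l S * ((1 - jbx k' S) * (1 - jbx l' S))) := by
    intro S
    rw [sq]
    nth_rewrite 2 [← jb_compl F r hsym hrow fun k => jbx k S]
    rw [sum_mul]
    refine sum_congr rfl fun k _ => ?_
    rw [sum_mul]
    refine sum_congr rfl fun l _ => ?_
    rw [mul_sum]
    refine sum_congr rfl fun k' _ => ?_
    rw [mul_sum]
    exact sum_congr rfl fun l' _ => by ring
  simp only [h1]
  rw [sum_comm, mul_sum]
  refine sum_congr rfl fun k hk => ?_
  rw [sum_comm, mul_sum]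
  refine sum_congr rfl fun l hl => ?_
  by_cases hkl : k = l
  · subst hkl; simp [hdiag]
  have h2 : ∑ S ∈ powersetCard κ F, ∑ k' ∈ F, ∑ l' ∈ F, r k l * r k' l' *
        (jbx k S * jbx l S * ((1 - jbx k' S) * (1 - jbx l' S))) =
      q * r k l * ∑ k' ∈ F, ∑ l' ∈ F, r k' l' *
        ((1 - jbx k' {k, l}) * (1 - jbx l' {k, l})) := by
    rw [sum_comm, mul_sum]
    refine sum_congr rfl fun k' hk' => ?_
    rw [sum_comm, mul_sum]
    refine sum_congr rfl fun l' hl' => ?_
    by_cases hkl' : k' = l'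
    · subst hkl'; simp [hdiag]
    rw [← mul_sum, jb_count4 F κ hk hl hk' hl' hkl hkl']
    ring
  rw [h2, jb_compl F r hsym hrow fun x => jbx x {k, l}, jb_pair_ind F r hsym hdiag hk hl hkl]
  ring

theorem jb_pascal (N κ : ℕ) :
    2 * (if 4 ≤ N ∧ 2 ≤ κ then ((N - 4).choose (κ - 2) : ℝ) else 0) ≤
      ((N - 2).choose (κ - 1) : ℝ) := by
  split_ifs with h
  · obtain ⟨n, rfl⟩ := Nat.exists_eq_add_of_le' h.1
    obtain ⟨j, rfl⟩ := Nat.exists_eq_add_of_le' h.2
    have e1 : n + 4 - 2 = n + 1 + 1 := by omega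
    have e2 : j + 2 - 1 = j + 1 := by omega
    rw [e1, e2, Nat.add_sub_cancel, Nat.add_sub_cancel, Nat.choose_succ_succ',
      Nat.choose_succ_succ' n j]
    have h3 : n.choose j ≤ (n + 1).choose j := Nat.choose_le_choose j (Nat.le_succ n)
    have h4 : (n.choose j : ℝ) ≤ (n + 1).choose j := by exact_mod_cast h3
    push_cast
    have h5 : (0 : ℝ) ≤ n.choose (j + 1) := Nat.cast_nonneg _
    linarith
  · simp

theorem jb_main (F : Finset C) (κ : ℕ) (hκ1 : 1 ≤ κ) (hκ2 : κ < F.card) (f : Finset C → ℝ)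
    (hf : ∑ S ∈ powersetCard κ F, f S = 0) :
    2 * ∑ k ∈ F, ∑ l ∈ F, (∑ S ∈ powersetCard κ F, f S * (jbx k S - jbx l S) ^ 2) ^ 2 ≤
      ((F.card - 2).choose (κ - 1) : ℝ) *
        ∑ k ∈ F, ∑ l ∈ F, ∑ S ∈ powersetCard κ F, (f S - f (tr k l S)) ^ 2 := by
  have hgap := johnson_gap_sharp F κ f
  set P := powersetCard κ F with hP
  set B : ℝ := ((F.card - 2).choose (κ - 1) : ℝ) with hB
  set EE := ∑ k ∈ F, ∑ l ∈ F, ∑ S ∈ P, (f S - f (tr k l S)) ^ 2 with hEE
  set N : ℝ := (F.card : ℝ) with hN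
  have hav : avg P f = 0 := by unfold avg; rw [hf, zero_div]
  simp only [hav, sub_zero] at hgap
  set V := ∑ S ∈ P, f S ^ 2 with hV
  have hB0 : 0 ≤ B := Nat.cast_nonneg _
  have hk1 : (1 : ℝ) ≤ κ := by exact_mod_cast hκ1
  have hk2 : (κ : ℝ) + 1 ≤ N := by rw [hN]; exact_mod_cast hκ2
  obtain ⟨β, hβ0, hβ1, hβ⟩ : ∃ β : ℝ, 0 ≤ β ∧ β ≤ 1 ∧ β * (N - 2) = κ - 1 := by
    rcases eq_or_lt_of_le (show (0 : ℝ) ≤ N - 2 by linarith) with h | h
    · exact ⟨0, le_rfl, zero_le_one, by linarith⟩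
    · exact ⟨(κ - 1) / (N - 2), div_nonneg (by linarith) h.le,
        (div_le_one h).2 (by linarith), by field_simp⟩
  set m : C → ℝ := fun k => ∑ S ∈ P, f S * jbx k S with hm
  set mm : C → C → ℝ := fun k l => ∑ S ∈ P, f S * (jbx k S * jbx l S) with hmm
  set r : C → C → ℝ := fun k l => if k = l then 0 else mm k l - β * (m k + m l) with hr
  have hm0 : ∑ k ∈ F, m k = 0 := by
    simp only [hm]
    rw [sum_comm, sum_congr rfl fun S hS => by rw [← mul_sum, jbx_sum hS], ← sum_mul, hf,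
      zero_mul]
  have hmmrow : ∀ k, ∑ l ∈ F, mm k l = κ * m k := by
    intro k
    simp only [hmm, hm]
    rw [sum_comm, mul_sum]
    refine sum_congr rfl fun S hS => ?_
    rw [← mul_sum, ← mul_sum, jbx_sum hS]; ring
  have hmmd : ∀ k, mm k k = m k := fun k => by simp only [hmm, hm, jbx_mul_self]
  have hsym : ∀ k l, r k l = r l k := by
    intro k l
    simp only [hr, hmm, eq_comm (a := k), mul_comm (jbx k _), add_comm (m k)]
  have hdiag : ∀ k, r k k = 0 := fun k => by simp [hr]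
  have hrow : ∀ k ∈ F, ∑ l ∈ F, r k l = 0 := by
    intro k hk
    have e1 : ∀ l, r k l = mm k l - β * (m k + m l) -
        (if k = l then (1 - 2 * β) * m k else 0) := by
      intro l
      simp only [hr]
      split_ifs with h
      · subst h; rw [hmmd]; ring
      · ring
    simp only [e1, sum_sub_distrib, ← mul_sum, sum_add_distrib, hm0, hmmrow, sum_ite_eq, hk,
      if_true, sum_const, nsmul_eq_mul]
    rw [← hN]
    linear_combination (-(m k)) * hβ
  have hcross : ∑ k ∈ F, ∑ l ∈ F, r k l * (m k + m l) = 0 := by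
    have h1 : ∑ k ∈ F, ∑ l ∈ F, r k l * m k = 0 :=
      sum_eq_zero fun k hk => by rw [← sum_mul, hrow k hk, zero_mul]
    have h2 : ∑ k ∈ F, ∑ l ∈ F, r k l * m l = 0 := by
      rw [sum_comm]
      exact sum_eq_zero fun k hk => by
        rw [← sum_mul, sum_congr rfl fun l _ => hsym l k, hrow k hk, zero_mul]
    simp only [mul_add, sum_add_distrib, h1, h2, add_zero]
  set M := ∑ k ∈ F, m k ^ 2 with hM
  set R := ∑ k ∈ F, ∑ l ∈ F, r k l ^ 2 with hR
  have hM0 : 0 ≤ M := sum_nonneg fun _ _ => sq_nonneg _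
  have hR0 : 0 ≤ R := sum_nonneg fun _ _ => sum_nonneg fun _ _ => sq_nonneg _
  have hV0 : 0 ≤ V := sum_nonneg fun _ _ => sq_nonneg _
  have hsq : ∀ s : ℝ, ∑ k ∈ F, ∑ l ∈ F, (m k + s * m l) ^ 2 = N * (1 + s ^ 2) * M := by
    intro s
    have : ∀ k l, (m k + s * m l) ^ 2 = m k ^ 2 + s ^ 2 * m l ^ 2 + 2 * s * m k * m l :=
      fun k l => by ring
    simp only [this, sum_add_distrib, ← mul_sum, hm0, sum_const, nsmul_eq_mul, mul_zero,
      add_zero]
    rw [← hN, ← hM]; ring
  -- the decomposition of the left side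
  have hY : ∑ k ∈ F, ∑ l ∈ F, (∑ S ∈ P, f S * (jbx k S - jbx l S) ^ 2) ^ 2 =
      (1 - 2 * β) ^ 2 * (2 * (N - 2) * M) + 4 * R := by
    have e0 : ∀ k l, ∑ S ∈ P, f S * (jbx k S - jbx l S) ^ 2 = m k + m l - 2 * mm k l := by
      intro k l
      simp only [hm, hmm, mul_sum, ← sum_add_distrib, ← sum_sub_distrib]
      refine sum_congr rfl fun S _ => ?_
      have h1 := jbx_mul_self k S
      have h2 := jbx_mul_self l S
      linear_combination f S * h1 + f S * h2
    have e1 : ∀ k l, (m k + m l - 2 * mm k l) ^ 2 =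
        (1 - 2 * β) ^ 2 * (m k + 1 * m l) ^ 2 - 4 * (1 - 2 * β) * (r k l * (m k + m l))
          + 4 * r k l ^ 2 - (if k = l then (1 - 2 * β) ^ 2 * 4 * m k ^ 2 else 0) := by
      intro k l
      simp only [hr]
      split_ifs with h
      · subst h; rw [hmmd]; ring
      · ring
    simp only [e0, e1, sum_sub_distrib, sum_add_distrib, ← mul_sum, sum_ite_eq]
    rw [hsq, hcross, ← hR, sum_congr rfl fun k hk => if_pos hk, ← mul_sum, ← hM]
    ring
  -- the linear part
  have hlin : 4 * N * M ≤ B * EE := by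
    have e1 : ∀ k ∈ F, ∀ l ∈ F, 2 * (m k + (-1) * m l) ^ 2 ≤
        B * ∑ S ∈ P, (f S - f (tr k l S)) ^ 2 := by
      intro k hk l hl
      by_cases hkl : k = l
      · subst hkl; simp [tr_of_iff]
      have h1 : ∑ S ∈ P, (jbx k S - jbx l S) ^ 2 = 2 * B := by
        have a1 := jb_count2 F κ hκ1 hk hl hkl
        have a2 := jb_count2 F κ hκ1 hl hk (Ne.symm hkl)
        rw [← hP, ← hB] at a1 a2
        rw [two_mul]
        nth_rewrite 1 [← a1]
        rw [← a2, ← sum_add_distrib]
        refine sum_congr rfl fun S _ => ?_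
        have h1 := jbx_mul_self k S
        have h2 := jbx_mul_self l S
        linear_combination h1 + h2
      have h2 : ∑ S ∈ P, (jbx k S - jbx l S) * (f S - f (tr k l S)) =
          2 * (m k + (-1) * m l) := by
        have a1 := jb_sum_tr F κ hk hl fun S => (jbx l S - jbx k S) * f S
        have a2 : ∀ S, jbx l (tr k l S) = jbx k S := fun S => by simp [jbx, mem_tr]
        have a3 : ∀ S, jbx k (tr k l S) = jbx l S := fun S => by simp [jbx, mem_tr]
        simp only [a2, a3, ← hP] at a1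
        have a4 : ∑ S ∈ P, (jbx k S - jbx l S) * (f S - f (tr k l S)) =
            ∑ S ∈ P, (jbx k S - jbx l S) * f S -
              ∑ S ∈ P, (jbx k S - jbx l S) * f (tr k l S) := by
          rw [← sum_sub_distrib]; exact sum_congr rfl fun S _ => by ring
        rw [a4, a1]
        simp only [hm, mul_sum, ← sum_sub_distrib, ← sum_add_distrib]
        exact sum_congr rfl fun S _ => by ring
      have h3 := sum_mul_sq_le_sq_mul_sq P (fun S => jbx k S - jbx l S)
        fun S => f S - f (tr k l S)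
      rw [h1, h2] at h3
      nlinarith
    have e2 := sum_le_sum fun k hk => sum_le_sum fun l hl => e1 k hk l hl
    simp only [← mul_sum] at e2
    rw [hsq, ← hEE] at e2
    linarith
  -- the quadratic part
  have hquad : R ≤ B * V := by
    have e1 := jb_quad F κ r hsym hdiag hrow
    have e2 := jb_pascal F.card κ
    rw [← hP, ← hR] at e1
    rw [← hB] at e2
    set q : ℝ := if 4 ≤ F.card ∧ 2 ≤ κ then ((F.card - 4).choose (κ - 2) : ℝ) else 0
    have e3 : ∑ S ∈ P, f S * ∑ k ∈ F, ∑ l ∈ F, r k l * (jbx k S * jbx l S) = R := by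
      have a1 : ∀ k l, r k l ^ 2 = r k l * mm k l - β * (r k l * (m k + m l)) := by
        intro k l
        simp only [hr]
        split_ifs <;> ring
      have a2 : R = ∑ k ∈ F, ∑ l ∈ F, r k l * mm k l := by
        simp only [hR, a1, sum_sub_distrib, ← mul_sum]
        rw [hcross, mul_zero, sub_zero]
      rw [a2]
      simp only [hmm, mul_sum]
      rw [sum_comm]
      refine sum_congr rfl fun k _ => ?_
      rw [sum_comm]
      exact sum_congr rfl fun l _ => sum_congr rfl fun S _ => by ring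
    have e4 := sum_mul_sq_le_sq_mul_sq P f
      fun S => ∑ k ∈ F, ∑ l ∈ F, r k l * (jbx k S * jbx l S)
    rw [e1, e3, ← hV] at e4
    rcases eq_or_lt_of_le hR0 with h | h
    · rw [← h]; positivity
    · have e5 : R * R ≤ (B * V) * R := by
        have : V * (2 * q * R) ≤ V * (B * R) :=
          mul_le_mul_of_nonneg_left (mul_le_mul_of_nonneg_right e2 hR0) hV0
        nlinarith
      exact le_of_mul_le_mul_right e5 h
  rw [hY]
  have hb2 : (1 - 2 * β) ^ 2 ≤ 1 := by nlinarith
  have hN2 : 0 ≤ N - 2 := by linarith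
  have t1 : (1 - 2 * β) ^ 2 * (2 * (N - 2) * M) ≤ 2 * (N - 2) * M := by
    have : 0 ≤ 2 * (N - 2) * M := by positivity
    nlinarith
  have hNpos : 0 < N := by linarith
  refine le_of_mul_le_mul_left ?_ hNpos
  have t2 : (N - 2) * (4 * N * M) ≤ (N - 2) * (B * EE) := mul_le_mul_of_nonneg_left hlin hN2
  have t3 : B * (4 * N * V) ≤ B * EE := mul_le_mul_of_nonneg_left hgap hB0
  have t4 : N * R ≤ N * (B * V) := mul_le_mul_of_nonneg_left hquad hNpos.le
  have t5 : N * ((1 - 2 * β) ^ 2 * (2 * (N - 2) * M)) ≤ N * (2 * (N - 2) * M) :=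
    mul_le_mul_of_nonneg_left t1 hNpos.le
  nlinarith

theorem johnson_pair (F : Finset C) (κ : ℕ) (f : Finset C → ℝ) :
    4 * ∑ k ∈ F, ∑ l ∈ F, ∑ _S ∈ (powersetCard κ F).filter (fun S => ¬ (k ∈ S ↔ l ∈ S)),
        (avg ((powersetCard κ F).filter (fun S => ¬ (k ∈ S ↔ l ∈ S))) f
          - avg (powersetCard κ F) f) ^ 2 ≤
      ∑ k ∈ F, ∑ l ∈ F, ∑ S ∈ powersetCard κ F, (f S - f (tr k l S)) ^ 2 := by
  by_cases hκ : 1 ≤ κ ∧ κ < F.card
  · set P := powersetCard κ F with hP
    set c := avg P f with hc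
    have h := jb_main F κ hκ.1 hκ.2 (fun S => f S - c) (sum_sub_avg P f)
    simp only [sub_sub_sub_cancel_right] at h
    rw [← hP] at h
    set B : ℝ := ((F.card - 2).choose (κ - 1) : ℝ) with hB
    have hBpos : 0 < B := by
      rw [hB]; exact_mod_cast Nat.choose_pos (by omega)
    refine le_of_mul_le_mul_left (le_trans (le_of_eq ?_) h) hBpos
    rw [← mul_assoc, mul_sum, mul_sum]
    refine sum_congr rfl fun k hk => ?_
    rw [mul_sum, mul_sum]
    refine sum_congr rfl fun l hl => ?_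
    by_cases hkl : k = l
    · subst hkl; simp
    have hx : ∀ S, (jbx k S - jbx l S) ^ 2 = if ¬ (k ∈ S ↔ l ∈ S) then 1 else 0 := by
      intro S
      unfold jbx
      by_cases h1 : k ∈ S <;> by_cases h2 : l ∈ S <;> simp [h1, h2]
    set A := P.filter (fun S => ¬ (k ∈ S ↔ l ∈ S)) with hA
    have hcard : (A.card : ℝ) = 2 * B := by
      have a1 := jb_count2 F κ hκ.1 hk hl hkl
      have a2 := jb_count2 F κ hκ.1 hl hk (Ne.symm hkl)
      rw [← hP, ← hB] at a1 a2
      rw [hA, card_filter, two_mul]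
      push_cast
      nth_rewrite 1 [← a1]
      rw [← a2, ← sum_add_distrib]
      refine sum_congr rfl fun S _ => ?_
      rw [← hx]
      have h1 := jbx_mul_self k S
      have h2 := jbx_mul_self l S
      linear_combination h1 + h2
    have hy : ∑ S ∈ P, (f S - c) * (jbx k S - jbx l S) ^ 2 = 2 * B * (avg A f - c) := by
      simp only [hx, mul_ite, mul_one, mul_zero]
      rw [← sum_filter, ← hA, sum_sub_distrib, sum_const, nsmul_eq_mul, ← card_mul_avg, hcard]
      ring
    rw [hy, sum_const, nsmul_eq_mul, hcard]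
    ring
  · have hz : ∀ k ∈ F, ∀ l ∈ F,
        (powersetCard κ F).filter (fun S => ¬ (k ∈ S ↔ l ∈ S)) = ∅ := by
      intro k hk l hl
      refine filter_eq_empty_iff.2 fun S hS => ?_
      obtain ⟨h1, h2⟩ := mem_powersetCard.1 hS
      rw [not_not]
      by_cases h0 : κ = 0
      · rw [card_eq_zero.1 (h2.trans h0)]; simp
      · have : S = F := eq_of_subset_of_card_le h1 (by omega)
        simp [this, hk, hl]
    rw [sum_eq_zero fun k hk => sum_eq_zero fun l hl => by rw [hz k hk l hl, sum_empty], mul_zero]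
    exact sum_nonneg fun _ _ => sum_nonneg fun _ _ => sum_nonneg fun _ _ => sq_nonneg _

end Vale.Agent.P335
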