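import Vale.Agent.P335.Basic

/-! Transpositions acting on finite sets. -/

namespace Vale.Agent.P335

open Finset

variable {C : Type*} [DecidableEq C]

/-- The transposition of `k` and `l` acting on a finite set. -/
def tr (k l : C) (S : Finset C) : Finset C := S.image (Equiv.swap k l)

theorem mem_tr {k l x : C} {S : Finset C} : x ∈ tr k l S ↔ Equiv.swap k l x ∈ S := by
  unfold tr
  rw [mem_image]
  constructor
  · rintro ⟨y, hy, rfl⟩; simpa using hy
  · intro h; exact ⟨_, h, by simp⟩

theorem tr_tr (k l : C) (S : Finset C) : tr k l (tr k l S) = S := by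
  ext x; simp [mem_tr]

theorem card_tr (k l : C) (S : Finset C) : (tr k l S).card = S.card :=
  card_image_of_injective _ (Equiv.swap k l).injective

theorem tr_comm (k l : C) (S : Finset C) : tr k l S = tr l k S := by
  unfold tr; rw [Equiv.swap_comm]

theorem tr_of_iff {k l : C} {S : Finset C} (h : k ∈ S ↔ l ∈ S) : tr k l S = S := by
  ext x; rw [mem_tr]
  by_cases hk : x = k
  · subst hk; simpa using h.symm
  by_cases hl : x = l
  · subst hl; simpa using h
  rw [Equiv.swap_apply_of_ne_of_ne hk hl]

theorem tr_mem_powersetCard {F S : Finset C} {κ : ℕ} {k l : C} (hk : k ∈ F) (hl : l ∈ F)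
    (hS : S ∈ powersetCard κ F) : tr k l S ∈ powersetCard κ F := by
  rw [mem_powersetCard] at hS ⊢
  refine ⟨fun x hx => ?_, by rw [card_tr, hS.2]⟩
  rw [mem_tr] at hx
  by_cases h1 : x = k
  · exact h1 ▸ hk
  by_cases h2 : x = l
  · exact h2 ▸ hl
  rw [Equiv.swap_apply_of_ne_of_ne h1 h2] at hx
  exact hS.1 hx

end Vale.Agent.P335
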