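import Vale.Agent.P335.Graph

/-! The part of a graph outside a vertex set, and edge indicators. -/

namespace Vale.Agent.P335

open Finset

variable {V : Type*} [Fintype V] [DecidableEq V]

/-- The edges avoiding `T`. -/
def outK (T : Finset V) (G : SimpleGraph V) : V → V → Prop :=
  fun u v => u ∉ T ∧ v ∉ T ∧ G.Adj u v

omit [Fintype V] [DecidableEq V] in
theorem outK_eq_iff {T : Finset V} {G H : SimpleGraph V} :
    outK T G = outK T H ↔ ∀ u ∉ T, ∀ v ∉ T, (G.Adj u v ↔ H.Adj u v) := by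
  constructor
  · intro h u hu v hv
    have := congrFun (congrFun h u) v
    unfold outK at this
    simpa [hu, hv] using this
  · intro h
    ext u v
    unfold outK
    exact ⟨fun h' => ⟨h'.1, h'.2.1, (h u h'.1 v h'.2.1).1 h'.2.2⟩,
      fun h' => ⟨h'.1, h'.2.1, (h u h'.1 v h'.2.1).2 h'.2.2⟩⟩

omit [Fintype V] [DecidableEq V] in
theorem outK_mono {T T' : Finset V} (hT : T ⊆ T') {G H : SimpleGraph V}
    (h : outK T G = outK T H) : outK T' G = outK T' H :=
  outK_eq_iff.2 fun u hu v hv => outK_eq_iff.1 h u (fun h' => hu (hT h')) v fun h' => hv (hT h')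

open Classical in
/-- Edge indicator. -/
noncomputable def ind (G : SimpleGraph V) (u v : V) : ℕ := if G.Adj u v then 1 else 0

omit [Fintype V] [DecidableEq V] in
theorem ind_comm (G : SimpleGraph V) (u v : V) : ind G u v = ind G v u := by
  classical
  unfold ind; exact if_congr (G.adj_comm u v) rfl rfl

omit [Fintype V] [DecidableEq V] in
theorem ind_self (G : SimpleGraph V) (u : V) : ind G u u = 0 := by
  unfold ind; simp

omit [Fintype V] [DecidableEq V] in
theorem ind_pos {G : SimpleGraph V} {u v : V} (h : G.Adj u v) : ind G u v = 1 := by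
  unfold ind; rw [if_pos h]

omit [Fintype V] [DecidableEq V] in
theorem ind_neg {G : SimpleGraph V} {u v : V} (h : ¬ G.Adj u v) : ind G u v = 0 := by
  unfold ind; rw [if_neg h]

omit [Fintype V] [DecidableEq V] in
theorem ind_congr {G H : SimpleGraph V} {u v u' v' : V} (h : G.Adj u v ↔ H.Adj u' v') :
    ind G u v = ind H u' v' := by
  classical
  unfold ind; exact if_congr h rfl rfl

omit [Fintype V] [DecidableEq V] in
theorem ind_cases (G : SimpleGraph V) (u v : V) :
    (G.Adj u v ∧ ind G u v = 1) ∨ (¬ G.Adj u v ∧ ind G u v = 0) := by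
  by_cases h : G.Adj u v
  · exact Or.inl ⟨h, ind_pos h⟩
  · exact Or.inr ⟨h, ind_neg h⟩

omit [Fintype V] [DecidableEq V] in
theorem adj_iff_of_ind {G H : SimpleGraph V} {u v u' v' : V} (h : ind G u v = ind H u' v') :
    G.Adj u v ↔ H.Adj u' v' := by
  rcases ind_cases G u v with ⟨h1, h2⟩ | ⟨h1, h2⟩ <;>
    rcases ind_cases H u' v' with ⟨h3, h4⟩ | ⟨h3, h4⟩ <;> first | tauto | omega

omit [DecidableEq V] in
theorem deg_eq_sum (G : SimpleGraph V) (v : V) : deg G v = ∑ w, ind G v w := by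
  unfold deg ind; rw [card_filter]

theorem deg_split (T : Finset V) (G : SimpleGraph V) (v : V) :
    deg G v = ∑ w ∈ T, ind G v w + ∑ w ∈ Tᶜ, ind G v w := by
  rw [deg_eq_sum, sum_add_sum_compl]

/-- Outside vertices send the same number of edges into `T`. -/
theorem sum_in_eq {d : V → ℕ} {T : Finset V} {G H : SimpleGraph V} (hG : G ∈ Om d)
    (hH : H ∈ Om d) (h : outK T G = outK T H) {v : V} (hv : v ∉ T) :
    ∑ w ∈ T, ind G v w = ∑ w ∈ T, ind H v w := by
  have h1 := deg_split T G v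
  have h2 := deg_split T H v
  have h3 : ∑ w ∈ Tᶜ, ind G v w = ∑ w ∈ Tᶜ, ind H v w :=
    sum_congr rfl fun w hw => ind_congr (outK_eq_iff.1 h v hv w (mem_compl.1 hw))
  rw [mem_Om.1 hG] at h1
  rw [mem_Om.1 hH] at h2
  omega

/-- The number of edges inside `T` is the same. -/
theorem sum_inside_eq {d : V → ℕ} {T : Finset V} {G H : SimpleGraph V} (hG : G ∈ Om d)
    (hH : H ∈ Om d) (h : outK T G = outK T H) :
    ∑ u ∈ T, ∑ w ∈ T, ind G u w = ∑ u ∈ T, ∑ w ∈ T, ind H u w := by
  have key : ∀ K ∈ Om d, ∑ u ∈ T, d u =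
      ∑ u ∈ T, ∑ w ∈ T, ind K u w + ∑ v ∈ Tᶜ, ∑ w ∈ T, ind K v w := by
    intro K hK
    rw [sum_comm (s := Tᶜ), ← sum_add_distrib]
    refine sum_congr rfl fun u _ => ?_
    rw [← mem_Om.1 hK u, deg_split T]
    congr 1
    exact sum_congr rfl fun _ _ => ind_comm _ _ _
  have h1 := key G hG
  have h2 := key H hH
  have h3 : ∑ v ∈ Tᶜ, ∑ w ∈ T, ind G v w = ∑ v ∈ Tᶜ, ∑ w ∈ T, ind H v w :=
    sum_congr rfl fun v hv => sum_in_eq hG hH h (mem_compl.1 hv)
  omega

theorem pair_col {d : V → ℕ} {i j : V} (hij : i ≠ j) {G H : SimpleGraph V} (hG : G ∈ Om d)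
    (hH : H ∈ Om d) (h : outK {i, j} G = outK {i, j} H) {v : V} (hi : v ≠ i) (hj : v ≠ j) :
    ind G i v + ind G j v = ind H i v + ind H j v := by
  have := sum_in_eq hG hH h (v := v) (by simp [hi, hj])
  rw [sum_pair hij, sum_pair hij] at this
  rwa [ind_comm G i, ind_comm G j, ind_comm H i, ind_comm H j]

theorem pair_edge {d : V → ℕ} {i j : V} (hij : i ≠ j) {G H : SimpleGraph V} (hG : G ∈ Om d)
    (hH : H ∈ Om d) (h : outK {i, j} G = outK {i, j} H) : ind G i j = ind H i j := by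
  have := sum_inside_eq hG hH h
  simp only [sum_pair hij, ind_self, ind_comm _ j i] at this
  omega

end Vale.Agent.P335
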