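import Vale.Agent.P335.Keys
import Vale.Agent.P335.JohnsonB

/-! Fibres of a vertex pair are Johnson graphs. -/

namespace Vale.Agent.P335

open Finset

variable {V : Type*} [Fintype V] [DecidableEq V]

/-- Redistribute the free columns `F` between `i` and `j` according to `S`. -/
def dec2 (G0 : SimpleGraph V) (i j : V) (F S : Finset V) : SimpleGraph V :=
  SimpleGraph.fromRel fun u v => (u = i ∧ v ∈ F ∧ v ∈ S) ∨ (u = j ∧ v ∈ F ∧ v ∉ S) ∨
    (¬ ((u = i ∨ u = j) ∧ v ∈ F) ∧ ¬ ((v = i ∨ v = j) ∧ u ∈ F) ∧ G0.Adj u v)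

omit [Fintype V] [DecidableEq V] in
theorem dec2_i {G0 : SimpleGraph V} {i j : V} {F S : Finset V} (hij : i ≠ j) (hi : i ∉ F)
    {v : V} (hv : v ∈ F) : (dec2 G0 i j F S).Adj i v ↔ v ∈ S := by
  have : i ≠ v := fun h => hi (h ▸ hv)
  unfold dec2; rw [SimpleGraph.fromRel_adj]; simp [*]

omit [Fintype V] [DecidableEq V] in
theorem dec2_j {G0 : SimpleGraph V} {i j : V} {F S : Finset V} (hij : i ≠ j) (hj : j ∉ F)
    {v : V} (hv : v ∈ F) : (dec2 G0 i j F S).Adj j v ↔ v ∉ S := by
  have : j ≠ v := fun h => hj (h ▸ hv)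
  have hji := hij.symm
  unfold dec2; rw [SimpleGraph.fromRel_adj]; simp [*]

omit [Fintype V] [DecidableEq V] in
theorem dec2_else {G0 : SimpleGraph V} {i j : V} {F S : Finset V} {u v : V}
    (h1 : ¬ ((u = i ∨ u = j) ∧ v ∈ F)) (h2 : ¬ ((v = i ∨ v = j) ∧ u ∈ F)) :
    (dec2 G0 i j F S).Adj u v ↔ G0.Adj u v := by
  unfold dec2; rw [SimpleGraph.fromRel_adj]
  constructor
  · rintro ⟨_, h | h⟩
    · rcases h with h | h | h
      · exact absurd ⟨Or.inl h.1, h.2.1⟩ h1
      · exact absurd ⟨Or.inr h.1, h.2.1⟩ h1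
      · exact h.2.2
    · rcases h with h | h | h
      · exact absurd ⟨Or.inl h.1, h.2.1⟩ h2
      · exact absurd ⟨Or.inr h.1, h.2.1⟩ h2
      · exact h.2.2.symm
  · intro h; exact ⟨h.ne, Or.inl (Or.inr (Or.inr ⟨h1, h2, h⟩))⟩

omit [Fintype V] [DecidableEq V] in
/-- Two graphs agree if they agree on the edges between `{i, j}` and `F` and elsewhere. -/
theorem graph_ext2 {G H : SimpleGraph V} {i j : V} {F : Finset V}
    (h1 : ∀ v ∈ F, G.Adj i v ↔ H.Adj i v) (h2 : ∀ v ∈ F, G.Adj j v ↔ H.Adj j v)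
    (h3 : ∀ u v, ¬ ((u = i ∨ u = j) ∧ v ∈ F) → ¬ ((v = i ∨ v = j) ∧ u ∈ F) →
      (G.Adj u v ↔ H.Adj u v)) : G = H := by
  ext u v
  by_cases a : (u = i ∨ u = j) ∧ v ∈ F
  · obtain ⟨rfl | rfl, hv⟩ := a
    · exact h1 v hv
    · exact h2 v hv
  by_cases b : (v = i ∨ v = j) ∧ u ∈ F
  · rw [G.adj_comm, H.adj_comm]
    obtain ⟨rfl | rfl, hv⟩ := b
    · exact h1 u hv
    · exact h2 u hv
  · exact h3 u v a b

theorem pair_param {d : V → ℕ} {i j : V} (hij : i ≠ j) {G0 : SimpleGraph V} (h0 : G0 ∈ Om d) :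
    ∃ (F : Finset V) (κ : ℕ) (e : Finset V → SimpleGraph V), i ∉ F ∧ j ∉ F ∧
      Set.BijOn e (powersetCard κ F) (cls (Om d) (outK {i, j}) G0) ∧
      (∀ S k l, Dist4 i j k l → (Alt (e S) i j k l ↔ k ∈ F ∧ l ∈ F ∧ ¬ (k ∈ S ↔ l ∈ S))) ∧
      (∀ S, ∀ k ∈ F, ∀ l ∈ F, k ≠ l → sw i j k l (e S) = e (tr k l S)) := by
  classical
  set F : Finset V := univ.filter fun v => v ≠ i ∧ v ≠ j ∧ ¬ (G0.Adj i v ↔ G0.Adj j v) with hF
  have hmemF : ∀ v, v ∈ F ↔ v ≠ i ∧ v ≠ j ∧ ¬ (G0.Adj i v ↔ G0.Adj j v) := by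
    intro v; simp [hF]
  have hi : i ∉ F := fun h => ((hmemF i).1 h).1 rfl
  have hj : j ∉ F := fun h => ((hmemF j).1 h).2.1 rfl
  have hAlt : ∀ S k l, Dist4 i j k l →
      (Alt (dec2 G0 i j F S) i j k l ↔ k ∈ F ∧ l ∈ F ∧ ¬ (k ∈ S ↔ l ∈ S)) := by
    intro S k l hd
    obtain ⟨_, d2, d3, d4, d5, _⟩ := hd
    have hno : ∀ v, v ∉ F → i ≠ v → j ≠ v →
        ((dec2 G0 i j F S).Adj i v ↔ (dec2 G0 i j F S).Adj j v) := by
      intro v hv h1 h2
      rw [dec2_else (by simp [hv]) (by simp [hi]), dec2_else (by simp [hv]) (by simp [hj])]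
      by_contra hc
      exact hv ((hmemF v).2 ⟨h1.symm, h2.symm, hc⟩)
    unfold Alt
    by_cases hk : k ∈ F
    · by_cases hl : l ∈ F
      · rw [dec2_i hij hi hk, dec2_i hij hi hl, dec2_j hij hj hk, dec2_j hij hj hl]
        simp only [hk, hl, true_and]
        clear * -
        tauto
      · have := hno l hl d3 d5
        simp only [hl, false_and, and_false, iff_false]
        rintro ⟨a, b, c⟩
        exact c (a.trans this.symm)
    · have := hno k hk d2 d4
      simp only [hk, false_and, iff_false]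
      rintro ⟨a, b, c⟩
      exact c (this.trans b.symm)
  -- the degree of `i` splits along `F`
  have hdegi : ∀ G : SimpleGraph V, deg G i =
      (F.filter fun v => G.Adj i v).card + ∑ w ∈ Fᶜ, ind G i w := by
    intro G
    rw [deg_split F, card_filter]; rfl
  refine ⟨F, (F.filter fun v => G0.Adj i v).card, dec2 G0 i j F, hi, hj, ⟨?_, ?_, ?_⟩, hAlt, ?_⟩
  · intro S hS
    obtain ⟨hS1, hS2⟩ := mem_powersetCard.1 (mem_coe.1 hS)
    have hcol : ∀ v ∈ F, ind (dec2 G0 i j F S) i v + ind (dec2 G0 i j F S) j v =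
        ind G0 i v + ind G0 j v := by
      intro v hv
      have h1 := dec2_i (G0 := G0) (S := S) hij hi hv
      have h2 := dec2_j (G0 := G0) (S := S) hij hj hv
      have h3 := ((hmemF v).1 hv).2.2
      unfold ind
      rw [h1, h2]
      by_cases a : v ∈ S <;> by_cases b : G0.Adj i v <;> by_cases c : G0.Adj j v <;> simp_all
    have hdi : deg (dec2 G0 i j F S) i = deg G0 i := by
      rw [hdegi, hdegi, ← hS2]
      congr 1
      · congr 1
        ext v
        rw [mem_filter]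
        exact ⟨fun h => (dec2_i hij hi h.1).1 h.2, fun h => ⟨hS1 h, (dec2_i hij hi (hS1 h)).2 h⟩⟩
      · exact sum_congr rfl fun w hw =>
          ind_congr (dec2_else (by simp [mem_compl.1 hw]) (by simp [hi]))
    refine mem_coe.2 (mem_cls.2 ⟨mem_Om.2 fun v => ?_, outK_eq_iff.2 fun u hu v hv => ?_⟩)
    · rw [← mem_Om.1 h0 v]
      by_cases hvi : v = i
      · rw [hvi, hdi]
      by_cases hvj : v = j
      · subst hvj
        have e1 := deg_split F (dec2 G0 i v F S) i
        have e2 := deg_split F (dec2 G0 i v F S) v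
        have e3 := deg_split F G0 i
        have e4 := deg_split F G0 v
        have e5 : ∑ w ∈ Fᶜ, ind (dec2 G0 i v F S) i w = ∑ w ∈ Fᶜ, ind G0 i w :=
          sum_congr rfl fun w hw => ind_congr (dec2_else (by simp [mem_compl.1 hw]) (by simp [hi]))
        have e6 : ∑ w ∈ Fᶜ, ind (dec2 G0 i v F S) v w = ∑ w ∈ Fᶜ, ind G0 v w :=
          sum_congr rfl fun w hw => ind_congr (dec2_else (by simp [mem_compl.1 hw]) (by simp [hj]))
        have e7 := sum_congr rfl hcol
        rw [sum_add_distrib, sum_add_distrib] at e7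
        omega
      · rw [deg_split {i, j}, deg_split {i, j}, sum_pair hij, sum_pair hij]
        congr 1
        · rw [ind_comm _ v i, ind_comm _ v j, ind_comm _ v i, ind_comm _ v j]
          by_cases hv : v ∈ F
          · exact hcol v hv
          · rw [ind_congr (dec2_else (by simp [hv]) (by simp [hi])),
              ind_congr (dec2_else (by simp [hv]) (by simp [hj]))]
        · refine sum_congr rfl fun w hw => ind_congr (dec2_else (by simp [hvi, hvj]) ?_)
          simp only [mem_compl, mem_insert, mem_singleton] at hw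
          simp [hw]
    · simp only [mem_insert, mem_singleton] at hu hv
      exact dec2_else (by simp [hu]) (by simp [hv])
  · intro S hS S' hS' h
    have h1 := (mem_powersetCard.1 (mem_coe.1 hS)).1
    have h2 := (mem_powersetCard.1 (mem_coe.1 hS')).1
    ext v
    by_cases hv : v ∈ F
    · rw [← dec2_i (G0 := G0) (j := j) hij hi hv, ← dec2_i (G0 := G0) (j := j) hij hi hv, h]
    · exact ⟨fun h => absurd (h1 h) hv, fun h => absurd (h2 h) hv⟩
  · intro G hG
    obtain ⟨hG1, hG2⟩ := mem_cls.1 (mem_coe.1 hG)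
    have hedge := pair_edge hij hG1 h0 hG2
    have hout : ∀ w, w ∉ F → ind G i w = ind G0 i w ∧ ind G j w = ind G0 j w := by
      intro w hw
      by_cases h1 : w = i
      · subst h1; rw [ind_self, ind_self, ind_comm G j, ind_comm G0 j]; exact ⟨rfl, hedge⟩
      by_cases h2 : w = j
      · subst h2; rw [ind_self, ind_self]; exact ⟨hedge, rfl⟩
      have h3 := pair_col hij hG1 h0 hG2 h1 h2
      have h4 : G0.Adj i w ↔ G0.Adj j w := by
        by_contra hc; exact hw ((hmemF w).2 ⟨h1, h2, hc⟩)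
      have h5 := ind_congr h4
      rcases ind_cases G i w with ⟨_, a⟩ | ⟨_, a⟩ <;> rcases ind_cases G j w with ⟨_, b⟩ | ⟨_, b⟩ <;>
        rcases ind_cases G0 i w with ⟨_, c⟩ | ⟨_, c⟩ <;> omega
    refine ⟨F.filter fun v => G.Adj i v,
      mem_coe.2 (mem_powersetCard.2 ⟨filter_subset _ _, ?_⟩), ?_⟩
    · have e1 := hdegi G
      have e2 := hdegi G0
      have e3 : ∑ w ∈ Fᶜ, ind G i w = ∑ w ∈ Fᶜ, ind G0 i w :=
        sum_congr rfl fun w hw => (hout w (mem_compl.1 hw)).1
      rw [mem_Om.1 hG1] at e1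
      rw [mem_Om.1 h0] at e2
      omega
    · refine graph_ext2 (i := i) (j := j) (F := F) (fun v hv => ?_) (fun v hv => ?_)
        fun u v h1 h2 => ?_
      · rw [dec2_i hij hi hv]; simp [hv]
      · rw [dec2_j hij hj hv]
        obtain ⟨a1, a2, a3⟩ := (hmemF v).1 hv
        have h3 := pair_col hij hG1 h0 hG2 a1 a2
        simp only [mem_filter, hv, true_and]
        unfold ind at h3
        by_cases a : G.Adj i v <;> by_cases b : G0.Adj i v <;> by_cases c : G0.Adj j v <;>
          by_cases c' : G.Adj j v <;> simp_all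
      · rw [dec2_else h1 h2]
        by_cases hu : u = i ∨ u = j
        · have hv : v ∉ F := fun h => h1 ⟨hu, h⟩
          rcases hu with rfl | rfl
          · exact adj_iff_of_ind (hout v hv).1.symm
          · exact adj_iff_of_ind (hout v hv).2.symm
        by_cases hv : v = i ∨ v = j
        · have hu' : u ∉ F := fun h => h2 ⟨hv, h⟩
          rw [G0.adj_comm, G.adj_comm]
          rcases hv with rfl | rfl
          · exact adj_iff_of_ind (hout u hu').1.symm
          · exact adj_iff_of_ind (hout u hu').2.symm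
        · exact (outK_eq_iff.1 hG2 u (by simpa using hu) v (by simpa using hv)).symm
  · intro S k hk l hl hkl
    have hd : Dist4 i j k l :=
      ⟨hij, fun h => hi (h ▸ hk), fun h => hi (h ▸ hl), fun h => hj (h ▸ hk),
        fun h => hj (h ▸ hl), hkl⟩
    by_cases hs : k ∈ S ↔ l ∈ S
    · rw [tr_of_iff hs, sw_of_not]
      rw [hAlt S k l hd]
      exact fun h => h.2.2 hs
    have hA := (hAlt S k l hd).2 ⟨hk, hl, hs⟩
    have hmem : ∀ v, v ∈ tr k l S ↔ ¬ (v ∈ S ↔ (v = k ∨ v = l)) := by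
      intro v
      rw [mem_tr]
      by_cases h1 : v = k
      · subst h1; simp only [Equiv.swap_apply_left, true_or, iff_true]; clear * - hs; tauto
      by_cases h2 : v = l
      · subst h2; simp only [Equiv.swap_apply_right, or_true, iff_true]; clear * - hs; tauto
      rw [Equiv.swap_apply_of_ne_of_ne h1 h2]; simp [h1, h2]
    obtain ⟨_, d2, d3, d4, d5, _⟩ := id hd
    refine graph_ext2 (i := i) (j := j) (F := F) (fun v hv => ?_) (fun v hv => ?_)
      fun u v h1 h2 => ?_
    · rw [sw_adj hA, cyc_adj hd, dec2_i hij hi hv, dec2_i hij hi hv, hmem]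
      simp [d2, d3]
    · rw [sw_adj hA, cyc_adj hd, dec2_j hij hj hv, dec2_j hij hj hv, hmem]
      simp only [d4, d5, or_true, true_and, or_self, and_false, or_false]
      clear * -
      tauto
    · rw [sw_adj_of_not_cyc, dec2_else h1 h2, dec2_else h1 h2]
      rw [cyc_adj hd]
      rintro (⟨a, rfl | rfl⟩ | ⟨a, rfl | rfl⟩)
      · exact h1 ⟨a, hk⟩
      · exact h1 ⟨a, hl⟩
      · exact h2 ⟨a, hk⟩
      · exact h2 ⟨a, hl⟩

end Vale.Agent.P335
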