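import Vale.Agent.P335.Pair

/-! The two inequalities for a vertex pair. -/

namespace Vale.Agent.P335

open Finset

variable {V : Type*} [Fintype V] [DecidableEq V]

open Classical in
/-- Switch energy of a quadruple. -/
noncomputable def swE (d : V → ℕ) (f : SimpleGraph V → ℝ) (i j k l : V) : ℝ :=
  if Dist4 i j k l then ∑ G ∈ Om d, (f G - f (sw i j k l G)) ^ 2 else 0

/-- The pair key refined by alternation of the four-cycle. -/
def altK (i j k l : V) (G : SimpleGraph V) : (V → V → Prop) × Prop :=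
  (outK {i, j} G, Alt G i j k l)

open Classical in
/-- The rank-one error term of a quadruple. -/
noncomputable def swT (d : V → ℕ) (f : SimpleGraph V → ℝ) (i j k l : V) : ℝ :=
  if Dist4 i j k l then ∑ G ∈ Om d, (if Alt G i j k l then
    (cE (Om d) (altK i j k l) f G - cE (Om d) (outK {i, j}) f G) ^ 2 else 0) else 0

theorem sum_bijOn {α γ : Type*} {J : Finset α} {J' : Finset γ} {e : α → γ}
    (he : Set.BijOn e J J') (f : γ → ℝ) : ∑ x ∈ J, f (e x) = ∑ y ∈ J', f y :=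
  sum_nbij e (fun _ hx => he.mapsTo hx) he.injOn he.surjOn fun _ _ => rfl

open Classical in
theorem sum_swE (d : V → ℕ) (f : SimpleGraph V → ℝ) (i j : V) :
    ∑ k, ∑ l, swE d f i j k l = ∑ G ∈ Om d, ∑ k, ∑ l,
      if Dist4 i j k l then (f G - f (sw i j k l G)) ^ 2 else 0 := by
  rw [sum_comm (s := Om d)]
  refine sum_congr rfl fun k _ => ?_
  rw [sum_comm (s := Om d)]
  refine sum_congr rfl fun l _ => ?_
  unfold swE
  split_ifs <;> simp

open Classical in
theorem sum_swT (d : V → ℕ) (f : SimpleGraph V → ℝ) (i j : V) :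
    ∑ k, ∑ l, swT d f i j k l = ∑ G ∈ Om d, ∑ k, ∑ l,
      if Dist4 i j k l ∧ Alt G i j k l then
        (cE (Om d) (altK i j k l) f G - cE (Om d) (outK {i, j}) f G) ^ 2 else 0 := by
  rw [sum_comm (s := Om d)]
  refine sum_congr rfl fun k _ => ?_
  rw [sum_comm (s := Om d)]
  refine sum_congr rfl fun l _ => ?_
  unfold swT
  by_cases h : Dist4 i j k l <;> simp [h]

open Classical in
theorem energy_ge {i j : V} (hij : i ≠ j) {F : Finset V} (hi : i ∉ F) (hj : j ∉ F)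
    {e : Finset V → SimpleGraph V}
    (hsw : ∀ S, ∀ k ∈ F, ∀ l ∈ F, k ≠ l → sw i j k l (e S) = e (tr k l S))
    (f : SimpleGraph V → ℝ) (P : Finset (Finset V)) :
    ∑ k ∈ F, ∑ l ∈ F, ∑ S ∈ P, (f (e S) - f (e (tr k l S))) ^ 2 ≤
      ∑ S ∈ P, ∑ k, ∑ l,
        if Dist4 i j k l then (f (e S) - f (sw i j k l (e S))) ^ 2 else 0 := by
  have hnn : ∀ S k l, (0 : ℝ) ≤
      if Dist4 i j k l then (f (e S) - f (sw i j k l (e S))) ^ 2 else 0 := by
    intro S k l; split_ifs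
    · exact sq_nonneg _
    · exact le_rfl
  rw [sum_comm (s := P)]
  refine le_trans (sum_le_sum fun k hk => ?_) (sum_le_sum_of_subset_of_nonneg (subset_univ F)
    fun k _ _ => sum_nonneg fun S _ => sum_nonneg fun l _ => hnn S k l)
  rw [sum_comm (s := P)]
  refine le_trans (sum_le_sum fun l hl => ?_) (sum_le_sum_of_subset_of_nonneg (subset_univ F)
    fun l _ _ => sum_nonneg fun S _ => hnn S k l)
  refine sum_le_sum fun S _ => ?_
  by_cases hkl : k = l
  · subst hkl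
    rw [tr_of_iff Iff.rfl, sub_self, zero_pow two_ne_zero]
    exact hnn S k k
  · rw [if_pos ⟨hij, fun h => hi (h ▸ hk), fun h => hi (h ▸ hl), fun h => hj (h ▸ hk),
      fun h => hj (h ▸ hl), hkl⟩, hsw S k hk l hl hkl]

theorem pair_gap {d : V → ℕ} {i j : V} (hij : i ≠ j) (f : SimpleGraph V → ℝ) :
    8 * ip (Om d) (cH (Om d) (outK {i, j}) f) (cH (Om d) (outK {i, j}) f) ≤
      ∑ k, ∑ l, swE d f i j k l := by
  rw [sum_swE]
  unfold ip
  rw [mul_sum]
  refine sum_le_of_cls (outK {i, j}) fun G0 h0 => ?_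
  obtain ⟨F, κ, e, hi, hj, he, -, hsw⟩ := pair_param hij h0
  rw [← sum_bijOn he, ← sum_bijOn he]
  refine le_trans (le_of_eq ?_) ((johnson_gap F κ fun S => f (e S)).trans
    (energy_ge hij hi hj hsw f _))
  rw [mul_sum]
  refine sum_congr rfl fun S hS => ?_
  have : cE (Om d) (outK {i, j}) f (e S) = avg (powersetCard κ F) fun S => f (e S) := by
    rw [avg_bij e he, cE_key f (mem_cls.1 (he.mapsTo hS)).2]; rfl
  unfold cH
  rw [this, sq]

theorem pair_T {d : V → ℕ} {i j : V} (hij : i ≠ j) (f : SimpleGraph V → ℝ) :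
    4 * ∑ k, ∑ l, swT d f i j k l ≤ ∑ k, ∑ l, swE d f i j k l := by
  classical
  rw [sum_swE, sum_swT, mul_sum]
  refine sum_le_of_cls (outK {i, j}) fun G0 h0 => ?_
  obtain ⟨F, κ, e, hi, hj, he, hA, hsw⟩ := pair_param hij h0
  rw [← sum_bijOn he, ← sum_bijOn he]
  refine le_trans (le_of_eq ?_) ((johnson_pair F κ fun S => f (e S)).trans
    (energy_ge hij hi hj hsw f _))
  rw [← mul_sum]
  congr 1
  have hd : ∀ S : Finset V, ∀ k ∈ F, ∀ l ∈ F, ¬ (k ∈ S ↔ l ∈ S) → Dist4 i j k l :=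
    fun S k hk l hl hs => ⟨hij, fun h => hi (h ▸ hk), fun h => hi (h ▸ hl), fun h => hj (h ▸ hk),
      fun h => hj (h ▸ hl), fun h => hs (h ▸ Iff.rfl)⟩
  rw [sum_comm]
  symm
  refine sum_subset_zero_on_sdiff (subset_univ F) (fun k hk => ?_) fun k hk => ?_
  · refine sum_eq_zero fun S _ => sum_eq_zero fun l _ => if_neg ?_
    rintro ⟨h1, h2⟩
    exact (mem_sdiff.1 hk).2 ((hA S k l h1).1 h2).1
  rw [sum_comm (s := powersetCard κ F)]
  refine sum_subset_zero_on_sdiff (subset_univ F) (fun l hl => ?_) fun l hl => ?_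
  · refine sum_eq_zero fun S _ => if_neg ?_
    rintro ⟨h1, h2⟩
    exact (mem_sdiff.1 hl).2 ((hA S k l h1).1 h2).2.1
  rw [sum_filter]
  refine sum_congr rfl fun S hS => ?_
  by_cases hs : k ∈ S ↔ l ∈ S
  · rw [if_neg (not_not.2 hs), if_neg]
    rintro ⟨h1, h2⟩
    exact ((hA S k l h1).1 h2).2.2 hs
  have hD := hd S k hk l hl hs
  have hAS := (hA S k l hD).2 ⟨hk, hl, hs⟩
  rw [if_pos hs, if_pos ⟨hD, hAS⟩]
  have hk0 := (mem_cls.1 (he.mapsTo hS)).2
  have e1 : cE (Om d) (outK {i, j}) f (e S) = avg (powersetCard κ F) fun S => f (e S) := by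
    rw [avg_bij e he, cE_key f hk0]; rfl
  have e2 : cE (Om d) (altK i j k l) f (e S) =
      avg ((powersetCard κ F).filter fun S => ¬ (k ∈ S ↔ l ∈ S)) fun S => f (e S) := by
    unfold cE
    refine (avg_bij e ⟨fun S' hS' => ?_, fun S1 h1 S2 h2 h => ?_, fun G hG => ?_⟩ f).symm
    · obtain ⟨h1, h2⟩ := mem_filter.1 (mem_coe.1 hS')
      obtain ⟨h3, h4⟩ := mem_cls.1 (he.mapsTo h1)
      refine mem_coe.2 (mem_cls.2 ⟨h3, Prod.ext (h4.trans hk0.symm) ?_⟩)
      exact propext (iff_of_true ((hA S' k l hD).2 ⟨hk, hl, h2⟩) hAS)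
    · exact he.injOn (mem_filter.1 (mem_coe.1 h1)).1 (mem_filter.1 (mem_coe.1 h2)).1 h
    · obtain ⟨h1, h2⟩ := mem_cls.1 (mem_coe.1 hG)
      have h3 : outK {i, j} G = outK {i, j} (e S) := congrArg Prod.fst h2
      have h4 : Alt G i j k l = Alt (e S) i j k l := congrArg Prod.snd h2
      obtain ⟨S', hS', rfl⟩ := he.surjOn (mem_coe.2 (mem_cls.2 ⟨h1, h3.trans hk0⟩))
      exact ⟨S', mem_coe.2 (mem_filter.2 ⟨hS', ((hA S' k l hD).1 (h4 ▸ hAS)).2.2⟩), rfl⟩
  rw [e1, e2]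

end Vale.Agent.P335
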