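import Vale.Agent.P335.JohnsonDefs

/-! Zero-one matrices with three rows and fixed margins. -/

namespace Vale.Agent.P335

open Finset

variable {C : Type*} [DecidableEq C]

/-- Column sum. -/
def col (M : Fin 3 → Finset C) (v : C) : ℕ := (univ.filter fun t => v ∈ M t).card

/-- Matrices with three rows (given as sets of columns) and fixed margins. -/
def rows3 [Fintype C] (r : Fin 3 → ℕ) (c : C → ℕ) : Finset (Fin 3 → Finset C) :=
  univ.filter fun M => (∀ t, (M t).card = r t) ∧ ∀ v, col M v = c v

theorem mem_rows3 [Fintype C] {r : Fin 3 → ℕ} {c : C → ℕ} {M : Fin 3 → Finset C} :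
    M ∈ rows3 r c ↔ (∀ t, (M t).card = r t) ∧ ∀ v, col M v = c v := by
  unfold rows3; simp

theorem col_eq (M : Fin 3 → Finset C) (v : C) : col M v =
    (if v ∈ M 0 then 1 else 0) + (if v ∈ M 1 then 1 else 0) + (if v ∈ M 2 then 1 else 0) := by
  unfold col; rw [card_filter, Fin.sum_univ_three]

end Vale.Agent.P335
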